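import Vale.Agent.Lib.P072.Analysis

/-! Consequences of `w` being the active direction at `x`. -/

namespace Vale.Agent.Lib.P072

open Finset Real

variable {d : ℕ}

/-- `w` maximizes the entropy of the orthogonal point at `x` among the directions in `W`. -/
def Active (W : Finset (Fin d → ℝ)) (w x : Fin d → ℝ) : Prop :=
  w ∈ W ∧ ∀ w' ∈ W, ent (proj w' x) ≤ ent (proj w x)

lemma KL_active_le {W : Finset (Fin d → ℝ)} (hW : ∀ u ∈ W, u ≠ 0) {w x w' z : Fin d → ℝ}
    (hx : ∀ i, 0 < x i) (ha : Active W w x) (hw' : w' ∈ W) (hz : ∀ i, 0 < z i)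
    (hzw : dot (lv z) w' = 0) : KL x (proj w x) ≤ KL x z := by
  have h1 := Phi_le_ent_proj (hW w' hw') hx hzw
  have h2 := ha.2 w' hw'
  have h3 := ent_proj_eq_Phi (hW w ha.1) hx
  have h4 := ent_sub_Phi (x := x) hz
  have h5 := ent_sub_Phi (x := x) (proj_pos (hW w ha.1) hx)
  linarith

/-- Sign compatibility: a nonpositive value of `w'` at `log x` stays nonpositive at `log y`. -/
lemma sign_active {W : Finset (Fin d → ℝ)} (hW : ∀ u ∈ W, u ≠ 0) {w x w' : Fin d → ℝ}
    (hx : ∀ i, 0 < x i) (ha : Active W w x) (hw' : w' ∈ W)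
    (hle : dot w' (lv x) ≤ 0) : dot w' (lv (proj w x)) ≤ 0 := by
  by_contra hcon
  push Not at hcon
  set y := proj w x with hy
  have hypos : ∀ i, 0 < y i := proj_pos (hW w ha.1) hx
  have hposI : ∀ t ∈ Set.Icc (0 : ℝ) 1, ∀ i, 0 < x i + t * (y i - x i) := by
    intro t ht i
    have h1 : x i + t * (y i - x i) = (1 - t) * x i + t * y i := by ring
    rw [h1]
    rcases eq_or_lt_of_le ht.1 with h0 | h0
    · rw [← h0]; simpa using hx i
    · have := mul_pos h0 (hypos i)
      have h2 : 0 ≤ (1 - t) * x i := mul_nonneg (by linarith [ht.2]) (hx i).le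
      linarith
  have hcont : ContinuousOn (fun t : ℝ => ∑ i, w' i * log (x i + t * (y i - x i)))
      (Set.Icc 0 1) := by
    apply continuousOn_finsetSum
    intro i _
    apply ContinuousOn.mul continuousOn_const
    apply ContinuousOn.log
    · fun_prop
    · intro t ht
      exact (hposI t ht i).ne'
  have h0val : ∑ i, w' i * log (x i + (0 : ℝ) * (y i - x i)) ≤ 0 := by
    simpa [dot, lv] using hle
  have h1val : 0 ≤ ∑ i, w' i * log (x i + (1 : ℝ) * (y i - x i)) := by
    have : ∀ i, x i + (1 : ℝ) * (y i - x i) = y i := fun i => by ring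
    simp only [this]
    exact hcon.le
  obtain ⟨t, ht, ht0⟩ := intermediate_value_Icc (zero_le_one) hcont ⟨h0val, h1val⟩
  simp only at ht0
  have ht1 : t < 1 := by
    refine lt_of_le_of_ne ht.2 ?_
    intro h1
    rw [h1] at ht0
    have : ∀ i, x i + (1 : ℝ) * (y i - x i) = y i := fun i => by ring
    simp only [this] at ht0
    have : dot w' (lv y) = 0 := ht0
    linarith
  -- the comparison
  have hzpos : ∀ i, 0 < (fun i => x i + t * (y i - x i)) i := hposI t ht
  have hzw : dot (lv (fun i => x i + t * (y i - x i))) w' = 0 := by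
    rw [dot_comm]; exact ht0
  have h1 := KL_active_le hW hx ha hw' hzpos hzw
  have h2 := KL_segment_le hx hypos ht.1 ht.2
  -- positivity of the relative entropy
  obtain ⟨i, hi⟩ : ∃ i, log (y i) ≠ log (x i) := by
    by_contra hall
    push Not at hall
    have : dot w' (lv y) = dot w' (lv x) := by
      unfold dot lv
      exact Finset.sum_congr rfl (fun i _ => by rw [hall i])
    linarith
  have hKLpos : 0 < KL x y := by
    unfold KL
    apply Finset.sum_pos'
    · intro j _
      exact KL_term_nonneg (hx j) (hypos j)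
    · exact ⟨i, Finset.mem_univ i, KL_term_pos (hx i) (hypos i) hi⟩
  have : KL x y ≤ t * KL x y := h1.trans h2
  nlinarith

/-- The quantitative estimate: a small positive value of `w'` at `log x` forces a bounded value
at the logarithm of the active point. -/
lemma quant_active {W : Finset (Fin d → ℝ)} (hW : ∀ u ∈ W, u ≠ 0) {w x w' : Fin d → ℝ}
    (hx : ∀ i, 0 < x i) (ha : Active W w x) (hw' : w' ∈ W)
    (hint : ∀ i, w' i = 0 ∨ 1 ≤ |w' i|) {N B : ℝ} (hN : ∀ i, |w' i| ≤ N)
    (hβ0 : 0 < dot w' (lv x)) (hβB : dot w' (lv x) ≤ B)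
    (hΓ : B + (d : ℝ) * (B * (exp B - 1) + N + 1) ≤ dot w' (lv (proj w x))) : False := by
  have hw'0 : w' ≠ 0 := hW w' hw'
  have hB0 : 0 < B := lt_of_lt_of_le hβ0 hβB
  set y := proj w x with hy
  have hypos : ∀ i, 0 < y i := proj_pos (hW w ha.1) hx
  set z := proj w' x with hz
  have hzpos : ∀ i, 0 < z i := proj_pos hw'0 hx
  have hzorth : dot w' (lv z) = 0 := proj_orth hw'0 hx
  set s := shiftOf w' x with hs
  have hzdef : ∀ i, z i = x i + s * w' i := fun i => rfl
  -- the shift is negative
  have hs0 : s < 0 := by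
    by_contra hcon
    push Not at hcon
    have hle : dot w' (lv x) ≤ dot w' (lv z) := by
      unfold dot lv
      apply Finset.sum_le_sum
      intro i _
      rcases le_or_gt 0 (w' i) with hwi | hwi
      · apply mul_le_mul_of_nonneg_left _ hwi
        apply log_le_log (hx i)
        rw [hzdef]
        have : 0 ≤ s * w' i := mul_nonneg hcon hwi
        linarith
      · apply mul_le_mul_of_nonpos_left _ hwi.le
        apply log_le_log (hzpos i)
        rw [hzdef]
        have : s * w' i ≤ 0 := mul_nonpos_of_nonneg_of_nonpos hcon hwi.le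
        linarith
    linarith
  -- the numbers a i
  set a : Fin d → ℝ := fun i => - (w' i * (log (z i) - log (x i))) with ha'
  have hanonneg : ∀ i, 0 ≤ a i := by
    intro i
    simp only [ha']
    rcases lt_trichotomy (w' i) 0 with hwi | hwi | hwi
    · have h1 : x i ≤ z i := by
        rw [hzdef]; nlinarith
      have h2 : log (x i) ≤ log (z i) := log_le_log (hx i) h1
      nlinarith
    · rw [hwi]; simp
    · have h1 : z i ≤ x i := by
        rw [hzdef]; nlinarith
      have h2 : log (z i) ≤ log (x i) := log_le_log (hzpos i) h1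
      nlinarith
  have hasum : ∑ i, a i = dot w' (lv x) := by
    have h1 : ∑ i, a i = dot w' (lv x) - dot w' (lv z) := by
      unfold dot lv
      rw [← Finset.sum_sub_distrib]
      apply Finset.sum_congr rfl
      intro i _
      simp only [ha']
      ring
    rw [h1, hzorth, sub_zero]
  have hale : ∀ i, a i ≤ B := by
    intro i
    have : a i ≤ ∑ i, a i :=
      Finset.single_le_sum (f := a) (fun j _ => hanonneg j) (Finset.mem_univ i)
    linarith
  -- upper bound for the relative entropy to z
  have hKLz : KL x z ≤ (-s) * B := by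
    have h1 : KL x z ≤ ∑ i, (-s) * a i := by
      unfold KL
      apply Finset.sum_le_sum
      intro i _
      have h2 := KL_term_upper (hx i) (hzpos i)
      have h3 : z i - x i = s * w' i := by rw [hzdef]; ring
      have h4 : (log (z i) - log (x i)) * (z i - x i) = (-s) * a i := by
        rw [h3]; simp only [ha']; ring
      linarith
    rw [← Finset.mul_sum, hasum] at h1
    have h5 : (-s) * dot w' (lv x) ≤ (-s) * B :=
      mul_le_mul_of_nonneg_left hβB (by linarith)
    linarith
  -- the pigeonhole index
  have hfin : Nonempty (Fin d) := by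
    by_contra hemp
    rw [not_nonempty_iff] at hemp
    exact hw'0 (funext (fun i => hemp.elim i))
  set Q : ℝ := B * (exp B - 1) + N + 1 with hQ
  have hN0 : 0 ≤ N := le_trans (abs_nonneg _) (hN hfin.some)
  have hexpB : B + 1 ≤ exp B := add_one_le_exp B
  have hQpos : 0 < Q := by
    have : 0 ≤ B * (exp B - 1) := mul_nonneg hB0.le (by linarith)
    linarith
  have hsumu : (d : ℝ) * Q ≤ ∑ i, w' i * (log (y i) - log (x i)) := by
    have h1 : ∑ i, w' i * (log (y i) - log (x i)) = dot w' (lv y) - dot w' (lv x) := by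
      unfold dot lv
      rw [← Finset.sum_sub_distrib]
      apply Finset.sum_congr rfl
      intro i _
      ring
    rw [h1]
    linarith
  obtain ⟨i, -, hi⟩ : ∃ i ∈ (Finset.univ : Finset (Fin d)), Q ≤ w' i * (log (y i) - log (x i)) := by
    apply Finset.exists_le_of_sum_le (Finset.univ_nonempty)
    simpa [Finset.sum_const, Finset.card_univ, nsmul_eq_mul] using hsumu
  set u := log (y i) - log (x i) with hu
  have hwi0 : w' i ≠ 0 := by
    intro h0
    rw [h0] at hi
    linarith
  have hwi1 : 1 ≤ |w' i| := (hint i).resolve_left hwi0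
  have hwiabs : 0 < |w' i| := by linarith
  -- bound for the log difference of z
  have hτ : |log (z i) - log (x i)| ≤ B := by
    have h1 : a i = |w' i| * |log (z i) - log (x i)| := by
      rw [← abs_mul, ha']
      simp only
      rw [abs_of_nonpos]
      have := hanonneg i
      simp only [ha'] at this
      linarith
    have h2 : |log (z i) - log (x i)| ≤ |w' i| * |log (z i) - log (x i)| := by
      have := abs_nonneg (log (z i) - log (x i))
      nlinarith
    have := hale i
    linarith
  set τ := log (z i) - log (x i) with hτdef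
  have hzexp : z i = x i * exp τ := by
    rw [hτdef, exp_sub, exp_log (hzpos i), exp_log (hx i)]
    have := (hx i).ne'
    field_simp
  have hdiff : (-s) * |w' i| ≤ x i * (exp B - 1) := by
    have h1 : z i - x i = s * w' i := by rw [hzdef]; ring
    have h2 : (-s) * |w' i| = |s * w' i| := by
      rw [abs_mul, abs_of_neg hs0]
    rw [h2, ← h1, hzexp]
    have h3 : x i * exp τ - x i = x i * (exp τ - 1) := by ring
    rw [h3, abs_mul, abs_of_pos (hx i)]
    apply mul_le_mul_of_nonneg_left _ (hx i).le
    have hτ' := abs_le.mp hτ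
    rw [abs_le]
    constructor
    · have := add_one_le_exp τ
      linarith [hτ'.1]
    · have : exp τ ≤ exp B := exp_le_exp.mpr hτ'.2
      linarith
  -- lower bound for the relative entropy to y
  have hKLy : x i * (|u| - 1) ≤ KL x y := by
    have h1 := KL_term_lower (hx i) (hypos i)
    have h2 : y i - x i - x i * (log (y i) - log (x i)) ≤ KL x y :=
      Finset.single_le_sum (f := fun i => y i - x i - x i * (log (y i) - log (x i)))
        (fun j _ => KL_term_nonneg (hx j) (hypos j)) (Finset.mem_univ i)
    exact h1.trans h2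
  have hcmp := KL_active_le hW hx ha hw' hzpos (by rw [dot_comm]; exact hzorth)
  have hmain : x i * (|u| - 1) ≤ (-s) * B := hKLy.trans (hcmp.trans hKLz)
  have hmain2 : |w' i| * (|u| - 1) ≤ B * (exp B - 1) := by
    have h1 : |w' i| * (x i * (|u| - 1)) ≤ |w' i| * ((-s) * B) :=
      mul_le_mul_of_nonneg_left hmain hwiabs.le
    have h2 : |w' i| * ((-s) * B) ≤ x i * ((exp B - 1) * B) := by
      have := mul_le_mul_of_nonneg_right hdiff hB0.le
      nlinarith
    have h3 : x i * (|w' i| * (|u| - 1)) ≤ x i * (B * (exp B - 1)) := by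
      nlinarith
    exact le_of_mul_le_mul_left h3 (hx i)
  have hfinal : Q ≤ |w' i| * |u| := by
    calc Q ≤ w' i * u := hi
      _ ≤ |w' i * u| := le_abs_self _
      _ = |w' i| * |u| := abs_mul _ _
  have hNi := hN i
  rw [hQ] at hfinal
  nlinarith

/-- The key comparison. If `w` is active at `x` and `w'` is an integer direction with a large
value on the logarithm of the active point, then `w'` has a large value on `log x`. -/
lemma gap_active {W : Finset (Fin d → ℝ)} (hW : ∀ u ∈ W, u ≠ 0) {w x w' : Fin d → ℝ}
    (hx : ∀ i, 0 < x i) (ha : Active W w x) (hw' : w' ∈ W)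
    (hint : ∀ i, w' i = 0 ∨ 1 ≤ |w' i|) {N B : ℝ} (hN : ∀ i, |w' i| ≤ N) (hB : 0 ≤ B)
    (hΓ : B + (d : ℝ) * (B * (exp B - 1) + N + 1) ≤ dot w' (lv (proj w x))) :
    B ≤ dot w' (lv x) := by
  by_contra hcon
  push Not at hcon
  have hw'0 : w' ≠ 0 := hW w' hw'
  have hfin : Nonempty (Fin d) := by
    by_contra hemp
    rw [not_nonempty_iff] at hemp
    exact hw'0 (funext (fun i => hemp.elim i))
  rcases le_or_gt (dot w' (lv x)) 0 with h0 | h0
  · have h1 := sign_active hW hx ha hw' h0
    have hN0 : 0 ≤ N := le_trans (abs_nonneg _) (hN hfin.some)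
    have hexpB : B + 1 ≤ exp B := add_one_le_exp B
    have h2 : 0 ≤ B * (exp B - 1) := mul_nonneg hB (by linarith)
    have hd : (1 : ℝ) ≤ d := by
      have : 0 < d := Fin.pos_iff_nonempty.mpr hfin
      exact_mod_cast this
    nlinarith
  · exact quant_active hW hx ha hw' hint hN h0 hcon.le hΓ

end Vale.Agent.Lib.P072
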