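import Vale.Agent.Lib.P072.Defs

/-! Entropy, its restriction to lines, and the comparison lemmas. -/

namespace Vale.Agent.Lib.P072

open Finset Real

variable {d : ℕ}

/-- Dot product of real vectors. -/
def dot (a b : Fin d → ℝ) : ℝ := ∑ i, a i * b i

/-- Coordinatewise logarithm. -/
noncomputable def lv (x : Fin d → ℝ) : Fin d → ℝ := fun i => log (x i)

/-- The entropy `H x = ∑ i, x i * (log (x i) - 1)`. -/
noncomputable def ent (x : Fin d → ℝ) : ℝ := ∑ i, x i * (log (x i) - 1)

/-- The Fenchel affine function `x ↦ ⟨g, x⟩ - ∑ i, exp (g i)`. -/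
noncomputable def Phi (g x : Fin d → ℝ) : ℝ := dot g x - ∑ i, exp (g i)

/-- The relative entropy of `x` and `z`. -/
noncomputable def KL (x z : Fin d → ℝ) : ℝ :=
  ∑ i, (z i - x i - x i * (log (z i) - log (x i)))

lemma dot_add_right (g a b : Fin d → ℝ) : dot g (fun i => a i + b i) = dot g a + dot g b := by
  unfold dot
  rw [← Finset.sum_add_distrib]
  exact Finset.sum_congr rfl (fun i _ => by ring)

lemma dot_smul_right (g a : Fin d → ℝ) (s : ℝ) : dot g (fun i => s * a i) = s * dot g a := by
  unfold dot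
  rw [Finset.mul_sum]
  exact Finset.sum_congr rfl (fun i _ => by ring)

lemma dot_comm (a b : Fin d → ℝ) : dot a b = dot b a := by
  unfold dot
  exact Finset.sum_congr rfl (fun i _ => by ring)

/-- Fenchel's inequality. -/
lemma Phi_le_ent (g : Fin d → ℝ) {a : Fin d → ℝ} (ha : ∀ i, 0 < a i) : Phi g a ≤ ent a := by
  unfold Phi ent dot
  rw [← Finset.sum_sub_distrib]
  apply Finset.sum_le_sum
  intro i _
  have h1 : g i - log (a i) + 1 ≤ exp (g i - log (a i)) := add_one_le_exp _
  have h2 : exp (g i - log (a i)) = exp (g i) / a i := by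
    rw [exp_sub, exp_log (ha i)]
  rw [h2, le_div_iff₀ (ha i)] at h1
  nlinarith

lemma Phi_lv_self {z : Fin d → ℝ} (hz : ∀ i, 0 < z i) : Phi (lv z) z = ent z := by
  unfold Phi ent dot lv
  rw [← Finset.sum_sub_distrib]
  apply Finset.sum_congr rfl
  intro i _
  rw [exp_log (hz i)]
  ring

lemma ent_sub_Phi {x z : Fin d → ℝ} (hz : ∀ i, 0 < z i) :
    ent x - Phi (lv z) x = KL x z := by
  unfold ent Phi dot lv KL
  rw [← Finset.sum_sub_distrib, ← Finset.sum_sub_distrib]
  apply Finset.sum_congr rfl
  intro i _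
  rw [exp_log (hz i)]
  ring

lemma Phi_add_of_orth (g x w : Fin d → ℝ) (s : ℝ) (h : dot g w = 0) :
    Phi g (fun i => x i + s * w i) = Phi g x := by
  unfold Phi
  rw [dot_add_right, dot_smul_right, h]
  ring

/-! ### Existence of the point on a line with logarithm orthogonal to the direction -/

lemma exists_bracket_aux {w x : Fin d → ℝ} (hw : w ≠ 0) (hx : ∀ i, 0 < x i) (K : ℝ) :
    ∃ s : ℝ, 0 ≤ s ∧ (∀ i, 0 < x i + s * w i) ∧
      ∃ i₀, K ≤ w i₀ * log (x i₀ + s * w i₀) := by
  by_cases hneg : ∃ i, w i < 0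
  · -- the case of a negative coordinate
    classical
    obtain ⟨i₁, hi₁⟩ := hneg
    set A := Finset.univ.filter (fun i => w i < 0) with hA
    have hAne : A.Nonempty := ⟨i₁, by simp [hA, hi₁]⟩
    obtain ⟨i₀, hi₀A, hmin⟩ := Finset.exists_min_image A (fun i => x i / (-w i)) hAne
    have hi₀ : w i₀ < 0 := by simpa [hA] using hi₀A
    set c := -w i₀ with hc
    have hcpos : 0 < c := by simp [hc, hi₀]
    set hi := x i₀ / c with hhi
    have hhipos : 0 < hi := div_pos (hx i₀) hcpos
    set δ := min (hi / 2) (exp (-(K / c)) / c) with hδ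
    have hδpos : 0 < δ := lt_min (by linarith) (div_pos (exp_pos _) hcpos)
    have hδ1 : δ ≤ hi / 2 := min_le_left _ _
    have hδ2 : δ ≤ exp (-(K / c)) / c := min_le_right _ _
    refine ⟨hi - δ, by linarith, ?_, i₀, ?_⟩
    · intro i
      by_cases hwi : w i < 0
      · have hiA : i ∈ A := by simp [hA, hwi]
        have h1 := hmin i hiA
        have h2 : hi ≤ x i / (-w i) := h1
        have hwi' : 0 < -w i := by linarith
        have h3 : hi * (-w i) ≤ x i := by
          rwa [le_div_iff₀ hwi'] at h2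
        nlinarith
      · have hwi' : 0 ≤ w i := not_lt.mp hwi
        have : 0 ≤ (hi - δ) * w i := mul_nonneg (by linarith) hwi'
        linarith [hx i]
    · have h1 : x i₀ + (hi - δ) * w i₀ = δ * c := by
        have : hi * c = x i₀ := by
          rw [hhi]; field_simp
        rw [show w i₀ = -c by simp [hc]]
        linarith
      rw [h1]
      have h2 : δ * c ≤ exp (-(K / c)) := by
        rwa [le_div_iff₀ hcpos] at hδ2
      have h3 : log (δ * c) ≤ -(K / c) := by
        rw [← log_exp (-(K / c))]
        exact log_le_log (mul_pos hδpos hcpos) h2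
      rw [show w i₀ = -c by simp [hc]]
      have h4 : c * (K / c) = K := by field_simp
      nlinarith
  · -- all coordinates are nonnegative
    have hnn : ∀ i, 0 ≤ w i := fun i => not_lt.mp (fun h => hneg ⟨i, h⟩)
    obtain ⟨i₀, hi₀⟩ : ∃ i, w i ≠ 0 := by
      by_contra hcon
      push Not at hcon
      exact hw (funext hcon)
    have hcpos : 0 < w i₀ := lt_of_le_of_ne (hnn i₀) (Ne.symm hi₀)
    set c := w i₀ with hc
    set s := exp (K / c) / c with hs
    have hspos : 0 < s := div_pos (exp_pos _) hcpos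
    refine ⟨s, hspos.le, ?_, i₀, ?_⟩
    · intro i
      have : 0 ≤ s * w i := mul_nonneg hspos.le (hnn i)
      linarith [hx i]
    · have h1 : exp (K / c) ≤ x i₀ + s * c := by
        have : s * c = exp (K / c) := by
          rw [hs]; field_simp
        linarith [hx i₀]
      have h2 : K / c ≤ log (x i₀ + s * c) := by
        rw [← log_exp (K / c)]
        exact log_le_log (exp_pos _) h1
      have h3 : c * (K / c) = K := by field_simp
      nlinarith

/-- A point on the forward ray where the logarithmic function is nonnegative. -/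
lemma exists_bracket {w x : Fin d → ℝ} (hw : w ≠ 0) (hx : ∀ i, 0 < x i) :
    ∃ s : ℝ, 0 ≤ s ∧ (∀ i, 0 < x i + s * w i) ∧
      0 ≤ ∑ i, w i * log (x i + s * w i) := by
  classical
  set K : ℝ := ∑ i, |w i| * |log (x i)| with hK
  obtain ⟨s, hs0, hspos, i₀, hi₀⟩ := exists_bracket_aux hw hx K
  refine ⟨s, hs0, hspos, ?_⟩
  have hterm : ∀ i, -(|w i| * |log (x i)|) ≤ w i * log (x i + s * w i) := by
    intro i
    have hb : -(|w i| * |log (x i)|) ≤ w i * log (x i) := by
      have := abs_mul (w i) (log (x i))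
      have h2 := neg_abs_le (w i * log (x i))
      linarith
    have hmono : w i * log (x i) ≤ w i * log (x i + s * w i) := by
      rcases le_or_gt 0 (w i) with hwi | hwi
      · apply mul_le_mul_of_nonneg_left _ hwi
        apply log_le_log (hx i)
        have : 0 ≤ s * w i := mul_nonneg hs0 hwi
        linarith
      · apply mul_le_mul_of_nonpos_left _ hwi.le
        apply log_le_log (hspos i)
        have : s * w i ≤ 0 := mul_nonpos_of_nonneg_of_nonpos hs0 hwi.le
        linarith
    linarith
  rw [← Finset.add_sum_erase _ _ (Finset.mem_univ i₀)]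
  have h1 : ∑ i ∈ Finset.univ.erase i₀, -(|w i| * |log (x i)|)
      ≤ ∑ i ∈ Finset.univ.erase i₀, w i * log (x i + s * w i) :=
    Finset.sum_le_sum (fun i _ => hterm i)
  have h2 : ∑ i ∈ Finset.univ.erase i₀, (|w i| * |log (x i)|) ≤ K := by
    rw [hK]
    apply Finset.sum_le_sum_of_subset_of_nonneg (Finset.erase_subset _ _)
    intro i _ _
    positivity
  rw [Finset.sum_neg_distrib] at h1
  linarith

/-- Existence of the orthogonal point on the line through `x` with direction `w`. -/
lemma exists_orth_point {w x : Fin d → ℝ} (hw : w ≠ 0) (hx : ∀ i, 0 < x i) :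
    ∃ s : ℝ, (∀ i, 0 < x i + s * w i) ∧ ∑ i, w i * log (x i + s * w i) = 0 := by
  obtain ⟨s₁, hs₁, hs₁p, hF₁⟩ := exists_bracket hw hx
  have hw' : (fun i => - w i) ≠ 0 := by
    intro h
    apply hw
    funext i
    have := congrFun h i
    simpa using this
  obtain ⟨s₂, hs₂, hs₂p, hF₂⟩ := exists_bracket (w := fun i => - w i) hw' hx
  have hle : -s₂ ≤ s₁ := by linarith
  have hposI : ∀ s ∈ Set.Icc (-s₂) s₁, ∀ i, 0 < x i + s * w i := by
    intro s hs i
    have h1 := hs₁p i
    have h2 := hs₂p i
    rcases le_or_gt 0 (w i) with hwi | hwi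
    · have : (-s₂) * w i ≤ s * w i := mul_le_mul_of_nonneg_right hs.1 hwi
      nlinarith
    · have : s₁ * w i ≤ s * w i := mul_le_mul_of_nonpos_right hs.2 hwi.le
      nlinarith
  have hcont : ContinuousOn (fun s => ∑ i, w i * log (x i + s * w i)) (Set.Icc (-s₂) s₁) := by
    apply continuousOn_finset_sum
    intro i _
    apply ContinuousOn.mul continuousOn_const
    apply ContinuousOn.log
    · fun_prop
    · intro s hs
      exact (hposI s hs i).ne'
  have hlow : ∑ i, w i * log (x i + (-s₂) * w i) ≤ 0 := by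
    have : ∑ i, w i * log (x i + (-s₂) * w i)
        = - ∑ i, (- w i) * log (x i + s₂ * (- w i)) := by
      rw [← Finset.sum_neg_distrib]
      apply Finset.sum_congr rfl
      intro i _
      have : x i + -s₂ * w i = x i + s₂ * - w i := by ring
      rw [this]; ring
    rw [this]
    linarith
  have hmem : (0 : ℝ) ∈ Set.Icc (∑ i, w i * log (x i + (-s₂) * w i))
      (∑ i, w i * log (x i + s₁ * w i)) := ⟨hlow, hF₁⟩
  obtain ⟨s, hs, hs0⟩ := intermediate_value_Icc hle hcont hmem
  exact ⟨s, hposI s hs, hs0⟩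

open Classical in
/-- The shift to the orthogonal point. -/
noncomputable def shiftOf (w x : Fin d → ℝ) : ℝ :=
  if h : ∃ s : ℝ, (∀ i, 0 < x i + s * w i) ∧ ∑ i, w i * log (x i + s * w i) = 0
  then h.choose else 0

/-- The orthogonal point on the line through `x` with direction `w`. -/
noncomputable def proj (w x : Fin d → ℝ) : Fin d → ℝ := fun i => x i + shiftOf w x * w i

lemma proj_pos {w x : Fin d → ℝ} (hw : w ≠ 0) (hx : ∀ i, 0 < x i) : ∀ i, 0 < proj w x i := by
  have h := exists_orth_point hw hx
  unfold proj shiftOf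
  rw [dif_pos h]
  exact h.choose_spec.1

lemma proj_orth {w x : Fin d → ℝ} (hw : w ≠ 0) (hx : ∀ i, 0 < x i) :
    dot w (lv (proj w x)) = 0 := by
  have h := exists_orth_point hw hx
  unfold dot lv proj shiftOf
  rw [dif_pos h]
  exact h.choose_spec.2

lemma dot_lv_proj {w x : Fin d → ℝ} (hw : w ≠ 0) (hx : ∀ i, 0 < x i) :
    dot (lv (proj w x)) w = 0 := by
  rw [dot_comm]; exact proj_orth hw hx

/-- The entropy of the orthogonal point is the value of the Fenchel function at `x`. -/
lemma ent_proj_eq_Phi {w x : Fin d → ℝ} (hw : w ≠ 0) (hx : ∀ i, 0 < x i) :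
    ent (proj w x) = Phi (lv (proj w x)) x := by
  rw [← Phi_lv_self (proj_pos hw hx)]
  exact Phi_add_of_orth _ x w _ (dot_lv_proj hw hx)

/-- The Fenchel function with a gradient orthogonal to `w` is below the entropy of the
orthogonal point. -/
lemma Phi_le_ent_proj {w x g : Fin d → ℝ} (hw : w ≠ 0) (hx : ∀ i, 0 < x i)
    (hg : dot g w = 0) : Phi g x ≤ ent (proj w x) := by
  have h1 := Phi_le_ent g (proj_pos hw hx)
  have h2 : Phi g (proj w x) = Phi g x := Phi_add_of_orth g x w _ hg
  linarith

/-- The orthogonal point minimizes the entropy on its line. -/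
lemma ent_proj_le {w x : Fin d → ℝ} (hw : w ≠ 0) (hx : ∀ i, 0 < x i) {s : ℝ}
    (hs : ∀ i, 0 < x i + s * w i) : ent (proj w x) ≤ ent (fun i => x i + s * w i) := by
  rw [ent_proj_eq_Phi hw hx]
  rw [← Phi_add_of_orth _ x w s (dot_lv_proj hw hx)]
  exact Phi_le_ent _ hs

/-! ### Termwise estimates for relative entropy -/

lemma KL_term_nonneg {a b : ℝ} (ha : 0 < a) (hb : 0 < b) :
    0 ≤ b - a - a * (log b - log a) := by
  have h := log_le_sub_one_of_pos (div_pos hb ha)
  rw [log_div hb.ne' ha.ne'] at h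
  have h2 : a * (b / a) = b := by field_simp
  nlinarith

lemma KL_term_pos {a b : ℝ} (ha : 0 < a) (hb : 0 < b) (hne : log b ≠ log a) :
    0 < b - a - a * (log b - log a) := by
  have hne' : b / a ≠ 1 := by
    intro h
    apply hne
    have : b = a := by
      field_simp at h
      exact h
    rw [this]
  have h := log_lt_sub_one_of_pos (div_pos hb ha) hne'
  rw [log_div hb.ne' ha.ne'] at h
  have h2 : a * (b / a) = b := by field_simp
  nlinarith

lemma KL_nonneg {x z : Fin d → ℝ} (hx : ∀ i, 0 < x i) (hz : ∀ i, 0 < z i) : 0 ≤ KL x z :=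
  Finset.sum_nonneg (fun i _ => KL_term_nonneg (hx i) (hz i))

/-- Convexity of the relative entropy along the segment starting at `x`. -/
lemma KL_segment_le {x y : Fin d → ℝ} (hx : ∀ i, 0 < x i) (hy : ∀ i, 0 < y i) {t : ℝ}
    (ht0 : 0 ≤ t) (ht1 : t ≤ 1) :
    KL x (fun i => x i + t * (y i - x i)) ≤ t * KL x y := by
  unfold KL
  rw [Finset.mul_sum]
  apply Finset.sum_le_sum
  intro i _
  have hconc := strictConcaveOn_log_Ioi.concaveOn.2 (Set.mem_Ioi.mpr (hx i))
    (Set.mem_Ioi.mpr (hy i)) (sub_nonneg.mpr ht1) ht0 (by ring)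
  simp only [smul_eq_mul] at hconc
  have h1 : (1 - t) * x i + t * y i = x i + t * (y i - x i) := by ring
  rw [h1] at hconc
  have h2 : x i * ((1 - t) * log (x i) + t * log (y i)) ≤ x i * log (x i + t * (y i - x i)) :=
    mul_le_mul_of_nonneg_left hconc (hx i).le
  nlinarith

/-- Lower bound of a term of the relative entropy by the size of the logarithmic difference. -/
lemma KL_term_lower {a b : ℝ} (ha : 0 < a) (hb : 0 < b) :
    a * (|log b - log a| - 1) ≤ b - a - a * (log b - log a) := by
  set u := log b - log a with hu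
  have hb' : b = a * exp u := by
    rw [hu, exp_sub, exp_log hb, exp_log ha]; field_simp
  rw [hb']
  have key : |u| - 1 ≤ exp u - 1 - u := by
    rcases le_or_gt 0 u with h | h
    · rw [abs_of_nonneg h]
      have := quadratic_le_exp_of_nonneg h
      nlinarith [sq_nonneg (u - 1)]
    · rw [abs_of_neg h]
      linarith [exp_pos u]
  have := mul_le_mul_of_nonneg_left key ha.le
  nlinarith

/-- The upper estimate of a term when `z` differs from `x` by `-t w`. -/
lemma KL_term_upper {a b : ℝ} (ha : 0 < a) (hb : 0 < b) :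
    b - a - a * (log b - log a) ≤ (log b - log a) * (b - a) := by
  have h := one_sub_inv_le_log_of_pos (div_pos hb ha)
  rw [log_div hb.ne' ha.ne'] at h
  have h2 : (b / a)⁻¹ = a / b := by field_simp
  rw [h2] at h
  have h3 : b * (a / b) = a := by field_simp
  nlinarith [mul_le_mul_of_nonneg_left h hb.le]

end Vale.Agent.Lib.P072
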