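import Vale.Agent.Lib.P072.Margin

/-! The barrier argument for the maximum of the entropies of orthogonal points. -/

namespace Vale.Agent.Lib.P072

open Finset Real Set Filter Topology

variable {d : ℕ}

lemma continuousAt_ent {z : Fin d → ℝ} (hz : ∀ i, 0 < z i) : ContinuousAt ent z := by
  unfold ent
  apply tendsto_finset_sum
  intro i _
  have h1 : ContinuousAt (fun u : Fin d → ℝ => u i) z := continuous_apply i |>.continuousAt
  have h2 : ContinuousAt (fun u : Fin d → ℝ => log (u i)) z := h1.log (hz i).ne'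
  exact h1.mul (h2.sub continuousAt_const)

/-- The maximum over the directions of the entropy of the orthogonal point. -/
noncomputable def Lmax (W : Finset (Fin d → ℝ)) (hne : W.Nonempty) (x : Fin d → ℝ) : ℝ :=
  W.sup' hne (fun w => ent (proj w x))

lemma closed_level_single {w : Fin d → ℝ} (hw : w ≠ 0) {x : ℝ → Fin d → ℝ} {T : ℝ}
    (hpos : ∀ t ∈ Ico 0 T, ∀ i, 0 < x t i) (hcont : ContinuousOn x (Ico 0 T))
    {T₀ : ℝ} (hT₀ : T₀ ∈ Ico 0 T) (e c : ℝ) :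
    IsClosed {t : ℝ | t ∈ Icc 0 T₀ ∧ c ≤ ent (proj w (x t)) - e * t} := by
  apply isClosed_of_closure_subset
  intro t ht
  set A := {t : ℝ | t ∈ Icc 0 T₀ ∧ c ≤ ent (proj w (x t)) - e * t} with hA
  have hAsub : A ⊆ Icc 0 T₀ := fun u hu => hu.1
  have htI : t ∈ Icc 0 T₀ := closure_minimal hAsub isClosed_Icc ht
  have htT : t ∈ Ico 0 T := ⟨htI.1, lt_of_le_of_lt htI.2 hT₀.2⟩
  refine ⟨htI, ?_⟩
  have hIccT : Icc 0 T₀ ⊆ Ico 0 T := fun u hu => ⟨hu.1, lt_of_le_of_lt hu.2 hT₀.2⟩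
  haveI hne : (𝓝[A] t).NeBot := mem_closure_iff_nhdsWithin_neBot.mp ht
  have hxpos : ∀ i, 0 < x t i := hpos t htT
  set s₀ := shiftOf w (x t) with hs₀
  have hz₀ : ∀ i, 0 < x t i + s₀ * w i := proj_pos hw hxpos
  have hxtend : Tendsto x (𝓝[A] t) (𝓝 (x t)) :=
    (hcont t htT).mono (hAsub.trans hIccT)
  have hshift : Tendsto (fun τ => fun i => x τ i + s₀ * w i) (𝓝[A] t)
      (𝓝 (fun i => x t i + s₀ * w i)) := by
    rw [tendsto_pi_nhds]
    intro i
    have := (tendsto_pi_nhds.mp hxtend) i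
    exact this.add tendsto_const_nhds
  have hent : Tendsto (fun τ => ent (fun i => x τ i + s₀ * w i)) (𝓝[A] t)
      (𝓝 (ent (fun i => x t i + s₀ * w i))) :=
    (continuousAt_ent hz₀).tendsto.comp hshift
  have hid : Tendsto (fun τ : ℝ => τ) (𝓝[A] t) (𝓝 t) :=
    tendsto_id.mono_left nhdsWithin_le_nhds
  have htend : Tendsto (fun τ => ent (fun i => x τ i + s₀ * w i) - e * τ) (𝓝[A] t)
      (𝓝 (ent (fun i => x t i + s₀ * w i) - e * t)) :=
    hent.sub (hid.const_mul e)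
  have hev : ∀ᶠ τ in 𝓝[A] t, ∀ i, 0 < x τ i + s₀ * w i := by
    rw [eventually_all]
    intro i
    have := (tendsto_pi_nhds.mp hshift) i
    exact this.eventually (lt_mem_nhds (hz₀ i))
  have hev2 : ∀ᶠ τ in 𝓝[A] t, τ ∈ A := self_mem_nhdsWithin
  have hfinal : c ≤ ent (fun i => x t i + s₀ * w i) - e * t := by
    apply ge_of_tendsto htend
    filter_upwards [hev, hev2] with τ hτ hτA
    have hxτ : ∀ i, 0 < x τ i := hpos τ (hIccT hτA.1)
    have h1 := ent_proj_le hw hxτ hτ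
    have h2 := hτA.2
    linarith
  exact hfinal

lemma closed_level {W : Finset (Fin d → ℝ)} (hne : W.Nonempty) (hW : ∀ u ∈ W, u ≠ 0)
    {x : ℝ → Fin d → ℝ} {T : ℝ}
    (hpos : ∀ t ∈ Ico 0 T, ∀ i, 0 < x t i) (hcont : ContinuousOn x (Ico 0 T))
    {T₀ : ℝ} (hT₀ : T₀ ∈ Ico 0 T) (e c : ℝ) :
    IsClosed {t : ℝ | t ∈ Icc 0 T₀ ∧ c ≤ Lmax W hne (x t) - e * t} := by
  have hset : {t : ℝ | t ∈ Icc 0 T₀ ∧ c ≤ Lmax W hne (x t) - e * t}
      = ⋃ w ∈ W, {t : ℝ | t ∈ Icc 0 T₀ ∧ c ≤ ent (proj w (x t)) - e * t} := by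
    ext t
    simp only [mem_setOf_eq, mem_iUnion, exists_prop]
    constructor
    · rintro ⟨h1, h2⟩
      have h3 : c + e * t ≤ Lmax W hne (x t) := by linarith
      unfold Lmax at h3
      rw [Finset.le_sup'_iff] at h3
      obtain ⟨w, hw, h4⟩ := h3
      exact ⟨w, hw, h1, by linarith⟩
    · rintro ⟨w, hw, h1, h2⟩
      refine ⟨h1, ?_⟩
      have h3 : ent (proj w (x t)) ≤ Lmax W hne (x t) :=
        Finset.le_sup' (fun w => ent (proj w (x t))) hw
      linarith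
  rw [hset]
  exact isClosed_biUnion_finset (fun w hw => closed_level_single (hW w hw) hpos hcont hT₀ e c)

/-- The derivative of a dot product along a curve. -/
lemma hasDerivAt_dot (g : Fin d → ℝ) {x : ℝ → Fin d → ℝ} {v : Fin d → ℝ} {t : ℝ}
    (h : HasDerivAt x v t) : HasDerivAt (fun τ => dot g (x τ)) (dot g v) t := by
  unfold dot
  have h1 : ∀ i ∈ (Finset.univ : Finset (Fin d)),
      HasDerivAt (fun τ => g i * x τ i) (g i * v i) t := by
    intro i _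
    exact ((hasDerivAt_pi.mp h) i).const_mul (g i)
  exact HasDerivAt.fun_sum h1

/-- The barrier argument. -/
lemma barrier {T M : ℝ} {x v : ℝ → Fin d → ℝ} {φ : ℝ → ℝ}
    (hder : ∀ t ∈ Ioo 0 T, HasDerivAt x (v t) t)
    (hclosed : ∀ T₀ ∈ Ico 0 T, ∀ e c : ℝ, IsClosed {t : ℝ | t ∈ Icc 0 T₀ ∧ c ≤ φ t - e * t})
    (hsub : ∀ t ∈ Ioo 0 T, M ≤ φ t → ∃ g : Fin d → ℝ,
      (∀ s ∈ Ico 0 T, φ t - φ s ≤ dot g (x t) - dot g (x s)) ∧ dot g (v t) ≤ 0) :
    ∀ t ∈ Ico 0 T, φ t ≤ max (φ 0) M := by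
  intro T₀ hT₀
  by_contra hcon
  push Not at hcon
  set m := max (φ 0) M with hm
  have hφ0 : φ 0 ≤ m := le_max_left _ _
  have hMm : M ≤ m := le_max_right _ _
  have hT₀pos : 0 < T₀ := by
    rcases eq_or_lt_of_le hT₀.1 with h0 | h0
    · exfalso
      rw [← h0] at hcon
      linarith
    · exact h0
  set e := (φ T₀ - m) / (2 * T₀) with he
  have hepos : 0 < e := div_pos (by linarith) (by linarith)
  have heT : e * T₀ = (φ T₀ - m) / 2 := by
    rw [he]; field_simp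
  set c := φ T₀ - e * T₀ with hc
  have hcm : m < c := by rw [hc, heT]; linarith
  set A := {t : ℝ | t ∈ Icc 0 T₀ ∧ c ≤ φ t - e * t} with hA
  have hAclosed : IsClosed A := hclosed T₀ hT₀ e c
  have hAne : A.Nonempty := ⟨T₀, ⟨⟨hT₀.1, le_refl _⟩, le_refl _⟩⟩
  have hAbdd : BddBelow A := ⟨0, fun u hu => hu.1.1⟩
  set t₁ := sInf A with ht₁
  have ht₁A : t₁ ∈ A := hAclosed.csInf_mem hAne hAbdd
  have ht₁pos : 0 < t₁ := by
    rcases eq_or_lt_of_le ht₁A.1.1 with h0 | h0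
    · exfalso
      have h1 := ht₁A.2
      rw [← h0] at h1
      simp only [mul_zero, sub_zero] at h1
      linarith
    · exact h0
  have ht₁T : t₁ ∈ Ioo 0 T := ⟨ht₁pos, lt_of_le_of_lt ht₁A.1.2 hT₀.2⟩
  have hMt₁ : M ≤ φ t₁ := by
    have h1 := ht₁A.2
    have h2 : 0 ≤ e * t₁ := (mul_pos hepos ht₁pos).le
    linarith
  obtain ⟨g, hg1, hg2⟩ := hsub t₁ ht₁T hMt₁
  -- slopes to the left are at least e
  have hslope : ∀ s ∈ Ico 0 t₁, e ≤ slope (fun τ => dot g (x τ)) t₁ s := by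
    intro s hs
    have hsT : s ∈ Ico 0 T := ⟨hs.1, lt_trans hs.2 ht₁T.2⟩
    have hsA : s ∉ A := fun hmem => not_le.mpr hs.2 (csInf_le hAbdd hmem)
    have hsI : s ∈ Icc 0 T₀ := ⟨hs.1, (hs.2.le).trans ht₁A.1.2⟩
    have hs1 : φ s - e * s < c := by
      by_contra h
      exact hsA ⟨hsI, not_lt.mp h⟩
    have h1 := ht₁A.2
    have h2 := hg1 s hsT
    have h3 : e * (t₁ - s) ≤ dot g (x t₁) - dot g (x s) := by nlinarith
    have hdenom : 0 < t₁ - s := by linarith [hs.2]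
    rw [slope_def_field]
    have h4 : (dot g (x s) - dot g (x t₁)) / (s - t₁)
        = (dot g (x t₁) - dot g (x s)) / (t₁ - s) := by
      rw [← neg_sub (dot g (x t₁)) (dot g (x s)), ← neg_sub t₁ s, neg_div_neg_eq]
    rw [h4, le_div_iff₀ hdenom]
    exact h3
  have hderiv := hasDerivAt_dot g (hder t₁ ht₁T)
  have hlim : Tendsto (slope (fun τ => dot g (x τ)) t₁) (𝓝[<] t₁) (𝓝 (dot g (v t₁))) := by
    have := hasDerivAt_iff_tendsto_slope.mp hderiv
    exact this.mono_left (nhdsWithin_mono _ (fun u hu => ne_of_lt hu))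
  have hge : e ≤ dot g (v t₁) := by
    apply ge_of_tendsto hlim
    filter_upwards [Ico_mem_nhdsLT ht₁pos] with s hs
    exact hslope s hs
  linarith

end Vale.Agent.Lib.P072
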