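import Vale.Agent.Lib.P072.Defs

/-! Combinatorial cut lemma: when the monomials of complexes separated by a level of `h`
differ by a large factor, the flux of `h` is nonpositive. -/

namespace Vale.Agent.Lib.P072

open Finset Real

variable {d : ℕ}

open Classical in
/-- The drop of `h` over the reaction `e` when its source lies above the level `l` and reaches `a`. -/
noncomputable def dropTerm (R : Finset (Cx d × Cx d)) (h : Cx d → ℝ) (a : Cx d) (l : ℝ)
    (e : Cx d × Cx d) : ℝ :=
  if Reach R e.1 a ∧ l < h e.1 then max (h e.1 - h e.2) 0 else 0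

/-- The total drop of `h` over reactions whose source lies above the level `l` and reaches `a`. -/
noncomputable def dropSum (R : Finset (Cx d × Cx d)) (h : Cx d → ℝ) (a : Cx d) (l : ℝ) : ℝ :=
  ∑ e ∈ R, dropTerm R h a l e

lemma dropTerm_nonneg (R : Finset (Cx d × Cx d)) (h : Cx d → ℝ) (a : Cx d) (l : ℝ)
    (e : Cx d × Cx d) : 0 ≤ dropTerm R h a l e := by
  unfold dropTerm
  split_ifs
  · exact le_max_right _ _
  · exact le_refl _

lemma dropSum_nonneg (R : Finset (Cx d × Cx d)) (h : Cx d → ℝ) (a : Cx d) (l : ℝ) :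
    0 ≤ dropSum R h a l :=
  Finset.sum_nonneg (fun e _ => dropTerm_nonneg R h a l e)

lemma drop_le_dropSum (R : Finset (Cx d × Cx d)) (h : Cx d → ℝ) (a : Cx d) (l : ℝ)
    {e : Cx d × Cx d} (he : e ∈ R) (h1 : Reach R e.1 a) (h2 : l < h e.1) :
    h e.1 - h e.2 ≤ dropSum R h a l := by
  have key : dropTerm R h a l e ≤ dropSum R h a l :=
    Finset.single_le_sum (f := dropTerm R h a l) (s := R)
      (fun e _ => dropTerm_nonneg R h a l e) he
  have h3 : dropTerm R h a l e = max (h e.1 - h e.2) 0 := by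
    unfold dropTerm
    rw [if_pos ⟨h1, h2⟩]
  rw [h3] at key
  exact (le_max_left _ _).trans key

/-- Along a directed path from `b` to `a`, crossing the level `l` downward costs at most
a fixed multiple of the total drop above the level. -/
lemma cross (R : Finset (Cx d × Cx d)) {b a : Cx d} (hr : Reach R b a) :
    ∃ N : ℕ, ∀ (h : Cx d → ℝ) (l : ℝ), l < h b → h a ≤ l →
      h b - l ≤ N * dropSum R h a l := by
  induction hr using Relation.ReflTransGen.head_induction_on with
  | refl =>
    refine ⟨0, fun h l h1 h2 => ?_⟩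
    exact absurd h1 (not_lt.mpr h2)
  | @head b c hbc hca ih =>
    obtain ⟨N, hN⟩ := ih
    refine ⟨N + 1, fun h l h1 h2 => ?_⟩
    have hreach : Reach R b a := Relation.ReflTransGen.head hbc hca
    have hT := dropSum_nonneg R h a l
    have hdrop := drop_le_dropSum R h a l (e := (b, c)) hbc hreach h1
    simp only at hdrop
    by_cases hc : l < h c
    · have := hN h l hc h2
      push_cast
      nlinarith
    · have hc' : h c ≤ l := not_lt.mp hc
      push_cast
      have hNn : (0 : ℝ) ≤ N := Nat.cast_nonneg N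
      nlinarith

/-- A uniform crossing constant for all reactions. -/
lemma cross_uniform {R : Finset (Cx d × Cx d)} (hWR : WeaklyReversible R) :
    ∃ N : ℕ, ∀ r ∈ R, ∀ (h : Cx d → ℝ) (l : ℝ), l < h r.2 → h r.1 ≤ l →
      h r.2 - l ≤ N * dropSum R h r.1 l := by
  have key : ∀ r ∈ R, ∃ N : ℕ, ∀ (h : Cx d → ℝ) (l : ℝ), l < h r.2 → h r.1 ≤ l →
      h r.2 - l ≤ N * dropSum R h r.1 l := fun r hr => cross R (hWR r hr)
  choose! f hf using key
  refine ⟨R.sup f, fun r hr h l h1 h2 => ?_⟩
  have h3 := hf r hr h l h1 h2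
  have h4 : f r ≤ R.sup f := Finset.le_sup hr
  have h5 : (f r : ℝ) ≤ (R.sup f : ℕ) := by exact_mod_cast h4
  have h6 := dropSum_nonneg R h r.1 l
  exact h3.trans (mul_le_mul_of_nonneg_right h5 h6)

/-- The flux lemma. If `exp B` dominates the combinatorial constant and for every pair with
`s` reaching `a` and `h a < h s` the monomial of `s` exceeds the monomial of `a` by the factor
`exp B`, then the `h`-flux of the network is nonpositive. -/
theorem flux_le_zero {R : Finset (Cx d × Cx d)} (hWR : WeaklyReversible R) {ε : ℝ} (hε : 0 < ε) :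
    ∃ B₀ : ℝ, ∀ B, B₀ ≤ B → ∀ (h mon : Cx d → ℝ) (κ : Cx d × Cx d → ℝ),
      (∀ c, 0 < mon c) →
      (∀ s a, Reach R s a → h a < h s → exp B * mon a ≤ mon s) →
      (∀ r, ε ≤ κ r ∧ κ r ≤ ε⁻¹) →
      ∑ r ∈ R, κ r * mon r.1 * (h r.2 - h r.1) ≤ 0 := by
  classical
  obtain ⟨N, hN⟩ := cross_uniform hWR
  set A : ℝ := (R.card : ℝ) * (ε⁻¹ * ε⁻¹ * N) + 1 with hA
  have hApos : 0 < A := by
    have : (0 : ℝ) ≤ (R.card : ℝ) * (ε⁻¹ * ε⁻¹ * N) := by positivity
    linarith
  refine ⟨log A, fun B hB h mon κ hmon hgap hκ => ?_⟩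
  have hexpB : A ≤ exp B := by
    calc A = exp (log A) := (exp_log hApos).symm
      _ ≤ exp B := exp_le_exp.mpr hB
  have hexpBpos : 0 < exp B := exp_pos B
  -- total downward flux
  set Dn : ℝ := ∑ e ∈ R, κ e * mon e.1 * max (h e.1 - h e.2) 0 with hDn
  have hκpos : ∀ r, 0 < κ r := fun r => lt_of_lt_of_le hε (hκ r).1
  have hDn0 : 0 ≤ Dn := by
    apply Finset.sum_nonneg
    intro e _
    have := hκpos e
    have := hmon e.1
    have : 0 ≤ max (h e.1 - h e.2) 0 := le_max_right _ _
    positivity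
  -- each upward flux is small
  have hUp : ∀ r ∈ R, κ r * mon r.1 * max (h r.2 - h r.1) 0 * exp B ≤ ε⁻¹ * ε⁻¹ * N * Dn := by
    intro r hr
    by_cases hup : h r.1 < h r.2
    · have hmax : max (h r.2 - h r.1) 0 = h r.2 - h r.1 := max_eq_left (by linarith)
      rw [hmax]
      have hc := hN r hr h (h r.1) hup (le_refl _)
      -- compare the drop sum against Dn
      have hT : ε * (mon r.1 * exp B) * dropSum R h r.1 (h r.1) ≤ Dn := by
        unfold dropSum
        rw [Finset.mul_sum, hDn]
        apply Finset.sum_le_sum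
        intro e _
        have h0 : 0 ≤ max (h e.1 - h e.2) 0 := le_max_right _ _
        have hkm : 0 ≤ κ e * mon e.1 := (mul_pos (hκpos e) (hmon _)).le
        unfold dropTerm
        split_ifs with hcond
        · have h1 := hgap e.1 r.1 hcond.1 hcond.2
          have h2 : ε * (mon r.1 * exp B) ≤ κ e * mon e.1 := by
            have h3 : ε * (mon r.1 * exp B) ≤ ε * mon e.1 :=
              mul_le_mul_of_nonneg_left (by linarith) hε.le
            have h4 : ε * mon e.1 ≤ κ e * mon e.1 :=
              mul_le_mul_of_nonneg_right (hκ e).1 (hmon _).le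
            linarith
          exact mul_le_mul_of_nonneg_right h2 h0
        · simp only [mul_zero]
          exact mul_nonneg hkm h0
      have hm : 0 < mon r.1 := hmon _
      have hk1 : κ r ≤ ε⁻¹ := (hκ r).2
      have hNn : (0 : ℝ) ≤ N := Nat.cast_nonneg N
      have hTn := dropSum_nonneg R h r.1 (h r.1)
      have hεi : 0 < ε⁻¹ := inv_pos.mpr hε
      -- chain
      have s1 : κ r * mon r.1 * (h r.2 - h r.1) * exp B
          ≤ ε⁻¹ * mon r.1 * (N * dropSum R h r.1 (h r.1)) * exp B := by
        have hd : 0 ≤ h r.2 - h r.1 := by linarith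
        have t1 : κ r * mon r.1 * (h r.2 - h r.1) ≤ ε⁻¹ * mon r.1 * (h r.2 - h r.1) :=
          mul_le_mul_of_nonneg_right (mul_le_mul_of_nonneg_right hk1 hm.le) hd
        have t2 : ε⁻¹ * mon r.1 * (h r.2 - h r.1)
            ≤ ε⁻¹ * mon r.1 * (N * dropSum R h r.1 (h r.1)) :=
          mul_le_mul_of_nonneg_left hc (by positivity)
        exact mul_le_mul_of_nonneg_right (t1.trans t2) hexpBpos.le
      have s2 : ε⁻¹ * mon r.1 * (N * dropSum R h r.1 (h r.1)) * exp B
          = ε⁻¹ * ε⁻¹ * N * (ε * (mon r.1 * exp B) * dropSum R h r.1 (h r.1)) := by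
        field_simp
      rw [s2] at s1
      refine s1.trans ?_
      exact mul_le_mul_of_nonneg_left hT (by positivity)
    · have hmax : max (h r.2 - h r.1) 0 = 0 := max_eq_right (by linarith [not_lt.mp hup])
      rw [hmax]
      simp only [mul_zero, zero_mul]
      have hεi : 0 < ε⁻¹ := inv_pos.mpr hε
      have hNn : (0 : ℝ) ≤ N := Nat.cast_nonneg N
      positivity
  -- sum the upward fluxes
  set Up : ℝ := ∑ r ∈ R, κ r * mon r.1 * max (h r.2 - h r.1) 0 with hUpdef
  have hUpsum : Up * exp B ≤ (R.card : ℝ) * (ε⁻¹ * ε⁻¹ * N * Dn) := by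
    rw [hUpdef, Finset.sum_mul]
    calc ∑ r ∈ R, κ r * mon r.1 * max (h r.2 - h r.1) 0 * exp B
        ≤ ∑ _r ∈ R, (ε⁻¹ * ε⁻¹ * N * Dn) := Finset.sum_le_sum hUp
      _ = (R.card : ℝ) * (ε⁻¹ * ε⁻¹ * N * Dn) := by
        rw [Finset.sum_const, nsmul_eq_mul]
  have hUp0 : 0 ≤ Up := by
    apply Finset.sum_nonneg
    intro e _
    have := hκpos e
    have := hmon e.1
    have : 0 ≤ max (h e.2 - h e.1) 0 := le_max_right _ _
    positivity
  have hUpDn : Up ≤ Dn := by
    have h1 : Up * A ≤ Up * exp B := mul_le_mul_of_nonneg_left hexpB hUp0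
    have h2 : Up * A ≤ (R.card : ℝ) * (ε⁻¹ * ε⁻¹ * N * Dn) := h1.trans hUpsum
    have h3 : (R.card : ℝ) * (ε⁻¹ * ε⁻¹ * N * Dn) = (A - 1) * Dn := by
      rw [hA]; ring
    rw [h3] at h2
    by_contra hcon
    push Not at hcon
    nlinarith
  -- the total is Up - Dn
  have htotal : ∑ r ∈ R, κ r * mon r.1 * (h r.2 - h r.1) = Up - Dn := by
    rw [hUpdef, hDn, ← Finset.sum_sub_distrib]
    apply Finset.sum_congr rfl
    intro r _
    have : h r.2 - h r.1 = max (h r.2 - h r.1) 0 - max (h r.1 - h r.2) 0 := by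
      rcases le_total (h r.1) (h r.2) with hle | hle
      · rw [max_eq_left (by linarith), max_eq_right (by linarith)]; ring
      · rw [max_eq_right (by linarith), max_eq_left (by linarith)]; ring
    linear_combination (κ r * mon r.1) * this
  rw [htotal]
  linarith

end Vale.Agent.Lib.P072
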