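import Mathlib

namespace Vale.Agent.Lib.P072

variable {d : ℕ}

/-- A complex is a vector of nonnegative integers, and a reaction `y → y'` is the pair `(y, y')`. -/
abbrev Cx (d : ℕ) := Fin d → ℕ

/-- The reaction vector `y' - y` of the reaction `r = (y, y')`, as a real vector. -/
def rxnVec (r : Cx d × Cx d) : Fin d → ℝ := fun i => (r.2 i : ℝ) - (r.1 i : ℝ)

/-- The monomial `x^y = ∏ i, x i ^ y i`. -/
noncomputable def mono (x : Fin d → ℝ) (y : Cx d) : ℝ := ∏ i, x i ^ y i

/-- The complex `b` can be reached from the complex `a` along a directed path of reactions of `R`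
(paths of length zero allowed). -/
def Reach (R : Finset (Cx d × Cx d)) (a b : Cx d) : Prop :=
  Relation.ReflTransGen (fun u v => (u, v) ∈ R) a b

/-- Weak reversibility: for every reaction `y → y'` there is a directed path from `y'` to `y`. -/
def WeaklyReversible (R : Finset (Cx d × Cx d)) : Prop :=
  ∀ r ∈ R, Reach R r.2 r.1

/-- The stoichiometric subspace `S`, the real span of the reaction vectors. -/
def stoich (R : Finset (Cx d × Cx d)) : Submodule ℝ (Fin d → ℝ) :=
  Submodule.span ℝ (rxnVec '' (R : Set (Cx d × Cx d)))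

/-- The mass-action vector field `∑ r ∈ R, κ r * x^(source of r) * (reaction vector of r)`
for rate constants `κ`. -/
noncomputable def massAction (R : Finset (Cx d × Cx d)) (κ : Cx d × Cx d → ℝ)
    (x : Fin d → ℝ) : Fin d → ℝ :=
  fun i => ∑ r ∈ R, κ r * mono x r.1 * rxnVec r i

/-- `x` is a positive solution on `[0, T)` of the mass-action system with time-dependent rates
`k t r` : it is positive and continuous on `[0, T)`, and on `(0, T)` it is differentiable with
`x' t = massAction R (k t) (x t)`. There is no regularity assumption on `t ↦ k t r`. -/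
structure IsPosSolution (R : Finset (Cx d × Cx d)) (k : ℝ → Cx d × Cx d → ℝ) (T : ℝ)
    (x : ℝ → Fin d → ℝ) : Prop where
  pos : ∀ t ∈ Set.Ico 0 T, ∀ i, 0 < x t i
  cont : ContinuousOn x (Set.Ico 0 T)
  deriv : ∀ t ∈ Set.Ioo 0 T, HasDerivAt x (massAction R (k t) (x t)) t

end Vale.Agent.Lib.P072
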