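import Vale.Agent.Lib.P072.Flux2

/-! A descent lemma for continuous functions with subgradients along solutions, and the
regularity of the minimum of a tilted entropy on a line. -/

namespace Vale.Agent.Lib.P072

open Finset Real Set Filter Topology

variable {d : ℕ}

/-- The descent lemma. A continuous function `φ`, which at each time with value in `[0,1]` has a
subgradient along the curve with directional derivative at most `-η`, decreases at rate `η` until
it is nonpositive. -/
lemma descent {t₀ T η : ℝ} {x v : ℝ → Fin d → ℝ} {φ : ℝ → ℝ} (hη : 0 ≤ η)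
    (hder : ∀ t ∈ Ioo t₀ T, HasDerivAt x (v t) t)
    (hcont : ContinuousOn φ (Ico t₀ T))
    (hφ0 : φ t₀ < 1)
    (hsub : ∀ t ∈ Ioo t₀ T, 0 ≤ φ t → φ t ≤ 1 → ∃ g : Fin d → ℝ,
      (∀ s ∈ Ico t₀ T, φ t - φ s ≤ dot g (x t) - dot g (x s)) ∧ dot g (v t) ≤ -η) :
    ∀ t ∈ Ico t₀ T, φ t ≤ max 0 (φ t₀ - η * (t - t₀)) := by
  intro T₀ hT₀
  by_contra hcon
  push Not at hcon
  set m : ℝ → ℝ := fun t => max 0 (φ t₀ - η * (t - t₀)) with hm
  have hmcont : Continuous m := by
    rw [hm]; fun_prop
  have hT₀lt : t₀ < T₀ := by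
    rcases eq_or_lt_of_le hT₀.1 with h0 | h0
    · exfalso
      rw [← h0] at hcon
      have := le_max_right 0 (φ t₀ - η * (t₀ - t₀))
      simp only [sub_self, mul_zero, sub_zero] at this hcon
      linarith
    · exact h0
  set δ := φ T₀ - m T₀ with hδ
  have hδpos : 0 < δ := by
    rw [hδ, hm]; simp only; linarith
  set κ := 1 - max 0 (φ t₀) with hκ
  have hκpos : 0 < κ := by
    have : max 0 (φ t₀) < 1 := max_lt one_pos hφ0
    linarith
  set c := min (δ / 2) (κ / 2) with hc
  have hcpos : 0 < c := lt_min (by linarith) (by linarith)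
  set e := c / (T₀ - t₀) with he
  have hepos : 0 < e := div_pos hcpos (by linarith)
  have heT : e * (T₀ - t₀) = c := by
    rw [he]; field_simp [(sub_pos.mpr hT₀lt).ne']
  set f : ℝ → ℝ := fun t => φ t - m t - e * (t - t₀) with hf
  have hIcc : Icc t₀ T₀ ⊆ Ico t₀ T := fun u hu => ⟨hu.1, lt_of_le_of_lt hu.2 hT₀.2⟩
  have hfcont : ContinuousOn f (Icc t₀ T₀) := by
    apply ContinuousOn.sub
    · exact (hcont.mono hIcc).sub hmcont.continuousOn
    · exact (continuous_const.mul (continuous_id.sub continuous_const)).continuousOn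
  have hft₀ : f t₀ ≤ 0 := by
    simp only [hf, hm, sub_self, mul_zero, sub_zero]
    have := le_max_right 0 (φ t₀)
    linarith
  have hfT₀ : 2 * c ≤ δ := by
    have : c ≤ δ / 2 := min_le_left _ _
    linarith
  have hfT₀' : c ≤ f T₀ := by
    simp only [hf]
    rw [heT]
    have : φ T₀ - m T₀ = δ := rfl
    linarith
  set A := {t : ℝ | t ∈ Icc t₀ T₀ ∧ c ≤ f t} with hA
  have hAeq : A = Icc t₀ T₀ ∩ f ⁻¹' Ici c := by
    ext t; simp [hA]
  have hAclosed : IsClosed A := by
    rw [hAeq]
    exact hfcont.preimage_isClosed_of_isClosed isClosed_Icc isClosed_Ici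
  have hAne : A.Nonempty := ⟨T₀, ⟨⟨hT₀.1, le_refl _⟩, hfT₀'⟩⟩
  have hAbdd : BddBelow A := ⟨t₀, fun u hu => hu.1.1⟩
  set t₁ := sInf A with ht₁
  have ht₁A : t₁ ∈ A := hAclosed.csInf_mem hAne hAbdd
  have ht₁pos : t₀ < t₁ := by
    rcases eq_or_lt_of_le ht₁A.1.1 with h0 | h0
    · exfalso
      have h1 := ht₁A.2
      rw [← h0] at h1
      linarith
    · exact h0
  have ht₁T : t₁ ∈ Ioo t₀ T := ⟨ht₁pos, lt_of_le_of_lt ht₁A.1.2 hT₀.2⟩
  have hbefore : ∀ s ∈ Ico t₀ t₁, f s < c := by
    intro s hs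
    by_contra hge
    push Not at hge
    have hmem : s ∈ A := ⟨⟨hs.1, hs.2.le.trans ht₁A.1.2⟩, hge⟩
    exact not_le.mpr hs.2 (csInf_le hAbdd hmem)
  -- at the first time the value is exactly `c`
  have hfeq : f t₁ ≤ c := by
    have hcw : ContinuousWithinAt f (Ico t₀ t₁) t₁ :=
      (hfcont t₁ ht₁A.1).mono (fun u hu => ⟨hu.1, hu.2.le.trans ht₁A.1.2⟩)
    have hne : (𝓝[Ico t₀ t₁] t₁).NeBot := by
      have : t₁ ∈ closure (Ico t₀ t₁) := by
        rw [closure_Ico ht₁pos.ne]
        exact ⟨ht₁pos.le, le_refl _⟩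
      exact mem_closure_iff_nhdsWithin_neBot.mp this
    apply le_of_tendsto hcw
    filter_upwards [self_mem_nhdsWithin] with s hs
    exact (hbefore s hs).le
  have hmt₁ : m t₁ ≤ max 0 (φ t₀) := by
    simp only [hm]
    apply max_le (le_max_left _ _)
    have : 0 ≤ η * (t₁ - t₀) := mul_nonneg hη (by linarith)
    have h2 := le_max_right 0 (φ t₀)
    linarith
  have hm0 : ∀ t, 0 ≤ m t := fun t => le_max_left _ _
  have het₁ : e * (t₁ - t₀) ≤ c := by
    rw [← heT]
    exact mul_le_mul_of_nonneg_left (by linarith [ht₁A.1.2]) hepos.le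
  have hφ1 : φ t₁ ≤ 1 := by
    have h1 : φ t₁ = f t₁ + m t₁ + e * (t₁ - t₀) := by simp only [hf]; ring
    have h2 : c ≤ κ / 2 := min_le_right _ _
    rw [h1]
    have h3 : max 0 (φ t₀) = 1 - κ := by rw [hκ]; ring
    linarith
  have hφ0' : 0 ≤ φ t₁ := by
    have h1 : φ t₁ = f t₁ + m t₁ + e * (t₁ - t₀) := by simp only [hf]; ring
    rw [h1]
    have h2 := ht₁A.2
    have h3 := hm0 t₁
    have h4 : 0 ≤ e * (t₁ - t₀) := mul_nonneg hepos.le (by linarith)
    linarith
  obtain ⟨g, hg1, hg2⟩ := hsub t₁ ht₁T hφ0' hφ1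
  have hslope : ∀ s ∈ Ico t₀ t₁, e - η ≤ slope (fun τ => dot g (x τ)) t₁ s := by
    intro s hs
    have hsT : s ∈ Ico t₀ T := ⟨hs.1, lt_trans hs.2 ht₁T.2⟩
    have h1 := hbefore s hs
    have h2 := ht₁A.2
    have h3 := hg1 s hsT
    have hms : m s ≤ m t₁ + η * (t₁ - s) := by
      simp only [hm]
      have hd : 0 ≤ η * (t₁ - s) := mul_nonneg hη (by linarith [hs.2])
      apply max_le
      · have := le_max_left 0 (φ t₀ - η * (t₁ - t₀))
        linarith
      · have := le_max_right 0 (φ t₀ - η * (t₁ - t₀))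
        nlinarith
    simp only [hf] at h1 h2
    have h4 : (e - η) * (t₁ - s) ≤ dot g (x t₁) - dot g (x s) := by nlinarith
    have hdenom : 0 < t₁ - s := by linarith [hs.2]
    rw [slope_def_field]
    have h5 : (dot g (x s) - dot g (x t₁)) / (s - t₁)
        = (dot g (x t₁) - dot g (x s)) / (t₁ - s) := by
      rw [← neg_sub (dot g (x t₁)) (dot g (x s)), ← neg_sub t₁ s, neg_div_neg_eq]
    rw [h5, le_div_iff₀ hdenom]
    exact h4
  have hderiv := hasDerivAt_dot g (hder t₁ ht₁T)
  have hlim : Tendsto (slope (fun τ => dot g (x τ)) t₁) (𝓝[<] t₁) (𝓝 (dot g (v t₁))) := by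
    have := hasDerivAt_iff_tendsto_slope.mp hderiv
    exact this.mono_left (nhdsWithin_mono _ (fun u hu => ne_of_lt hu))
  have hge : e - η ≤ dot g (v t₁) := by
    apply ge_of_tendsto hlim
    filter_upwards [Ico_mem_nhdsLT ht₁pos] with s hs
    exact hslope s hs
  linarith

/-! ### The minimum of a tilted entropy on a line -/

/-- The minimum of the tilted entropy on the line through `x` with direction `w`. -/
noncomputable def Gp (q w x : Fin d → ℝ) : ℝ := entT q (projT q w x)

lemma continuous_entT (q : Fin d → ℝ) : Continuous (entT q) := by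
  have h : entT q = fun x : Fin d → ℝ =>
      ∑ i, ((x i) * log (x i) + x i * (q i - 1)) := by
    funext x
    unfold entT
    exact Finset.sum_congr rfl (fun i _ => by ring)
  rw [h]
  apply continuous_finset_sum
  intro i _
  have h1 : Continuous (fun x : Fin d → ℝ => x i) := continuous_apply i
  exact (Real.continuous_mul_log.comp h1).add (h1.mul continuous_const)

lemma continuous_PhiT (q g : Fin d → ℝ) : Continuous (PhiT q g) := by
  unfold PhiT dot
  apply Continuous.sub _ continuous_const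
  apply continuous_finset_sum
  intro i _
  exact continuous_const.mul (continuous_apply i)

lemma Gp_le (q : Fin d → ℝ) {w x : Fin d → ℝ} (hw : w ≠ 0) (hx : ∀ i, 0 < x i) {s : ℝ}
    (hs : ∀ i, 0 < x i + s * w i) : Gp q w x ≤ entT q (fun i => x i + s * w i) :=
  entT_projT_le q hw hx hs

lemma Gp_le_self (q : Fin d → ℝ) {w x : Fin d → ℝ} (hw : w ≠ 0) (hx : ∀ i, 0 < x i) :
    Gp q w x ≤ entT q x := by
  have h := Gp_le q hw hx (s := 0) (fun i => by simpa using hx i)
  have h2 : (fun i => x i + (0 : ℝ) * w i) = x := by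
    funext i; ring
  rwa [h2] at h

lemma continuousAt_Gp (q : Fin d → ℝ) {w x : Fin d → ℝ} (hw : w ≠ 0) (hx : ∀ i, 0 < x i) :
    ContinuousAt (Gp q w) x := by
  set s₀ := shiftT q w x with hs₀
  set g₀ := gr q (projT q w x) with hg₀
  have hz₀ : ∀ i, 0 < x i + s₀ * w i := projT_pos q hw hx
  have hval1 : PhiT q g₀ x = Gp q w x := (entT_projT_eq_PhiT q hw hx).symm
  have hval2 : entT q (fun i => x i + s₀ * w i) = Gp q w x := rfl
  have hlow : Tendsto (PhiT q g₀) (𝓝 x) (𝓝 (Gp q w x)) := by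
    rw [← hval1]; exact (continuous_PhiT q g₀).continuousAt
  have hup : Tendsto (fun x' : Fin d → ℝ => entT q (fun i => x' i + s₀ * w i)) (𝓝 x)
      (𝓝 (Gp q w x)) := by
    rw [← hval2]
    have : Continuous (fun x' : Fin d → ℝ => entT q (fun i => x' i + s₀ * w i)) := by
      apply (continuous_entT q).comp
      apply continuous_pi
      intro i
      exact (continuous_apply i).add continuous_const
    exact this.continuousAt
  have hev1 : ∀ᶠ x' in 𝓝 x, ∀ i, 0 < x' i := by
    rw [eventually_all]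
    intro i
    exact (continuous_apply i).continuousAt.eventually (lt_mem_nhds (hx i))
  have hev2 : ∀ᶠ x' in 𝓝 x, ∀ i, 0 < x' i + s₀ * w i := by
    rw [eventually_all]
    intro i
    have hc : Continuous (fun x' : Fin d → ℝ => x' i + s₀ * w i) :=
      (continuous_apply i).add continuous_const
    exact hc.continuousAt.eventually (lt_mem_nhds (hz₀ i))
  apply tendsto_of_tendsto_of_tendsto_of_le_of_le' hlow hup
  · filter_upwards [hev1] with x' hx'
    exact PhiT_le_entT_projT q hw hx' (dot_gr_projT q hw hx)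
  · filter_upwards [hev1, hev2] with x' hx' hx''
    exact Gp_le q hw hx' hx''

/-- The subgradient inequality for `Gp`. -/
lemma Gp_sub (q : Fin d → ℝ) {w x x' : Fin d → ℝ} (hw : w ≠ 0) (hx : ∀ i, 0 < x i)
    (hx' : ∀ i, 0 < x' i) :
    Gp q w x - Gp q w x' ≤ dot (gr q (projT q w x)) x - dot (gr q (projT q w x)) x' := by
  have h1 : Gp q w x = PhiT q (gr q (projT q w x)) x := entT_projT_eq_PhiT q hw hx
  have h2 := PhiT_le_entT_projT q hw hx' (dot_gr_projT q hw hx)
  have h3 : entT q (projT q w x') = Gp q w x' := rfl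
  rw [h3] at h2
  rw [h1]
  unfold PhiT at h2 ⊢
  linarith

lemma dot_smul_left (a : ℝ) (g x : Fin d → ℝ) : dot (fun i => a * g i) x = a * dot g x := by
  unfold dot
  rw [Finset.mul_sum]
  exact Finset.sum_congr rfl (fun i _ => by ring)

lemma gr_zero (z : Fin d → ℝ) : gr 0 z = lv z := by
  funext i; simp [gr, lv]

lemma entT_zero (z : Fin d → ℝ) : entT 0 z = ent z := by
  unfold entT ent
  exact Finset.sum_congr rfl (fun i _ => by simp)

lemma entT_eq (q z : Fin d → ℝ) : entT q z = ent z + dot q z := by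
  unfold entT ent dot
  rw [← Finset.sum_add_distrib]
  exact Finset.sum_congr rfl (fun i _ => by ring)

end Vale.Agent.Lib.P072
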