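import Vale.Agent.Lib.P072.Perm

namespace Vale.Agent.Lib.P072

open Set Filter Topology
open scoped NNReal

variable {d : ℕ}

/-! ### Global solutions of bounded globally Lipschitz fields -/

section Global

variable {E : Type*} [NormedAddCommGroup E] [NormedSpace ℝ E] [CompleteSpace E]

lemma exists_solution_Icc (F : E → E) (K L : ℝ≥0) (hF : LipschitzWith K F) (hb : ∀ x, ‖F x‖ ≤ L)
    (x₀ : E) {T : ℝ} (hT : 0 ≤ T) :
    ∃ α : ℝ → E, α 0 = x₀ ∧ ∀ t ∈ Icc 0 T, HasDerivWithinAt α (F (α t)) (Icc 0 T) t := by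
  have hPL : IsPicardLindelof (fun _ => F) (tmin := 0) (tmax := T) ⟨0, le_refl _, hT⟩ x₀
      (L * ⟨T, hT⟩) 0 L K := by
    refine ⟨fun _ _ => hF.lipschitzOnWith, fun _ _ => continuousOn_const, fun _ _ x _ => hb x, ?_⟩
    simp only [NNReal.coe_zero, sub_zero]
    apply mul_le_mul_of_nonneg_left _ L.2
    simp [hT]
  exact hPL.exists_eq_forall_mem_Icc_hasDerivWithinAt₀

lemma exists_global_solution (F : E → E) (K L : ℝ≥0) (hF : LipschitzWith K F)
    (hb : ∀ x, ‖F x‖ ≤ L) (x₀ : E) :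
    ∃ x : ℝ → E, x 0 = x₀ ∧ ContinuousOn x (Ici 0) ∧ ∀ t, 0 < t → HasDerivAt x (F (x t)) t := by
  have h1 : ∀ n : ℕ, ∃ α : ℝ → E, α 0 = x₀ ∧
      ∀ t ∈ Icc (0:ℝ) n, HasDerivWithinAt α (F (α t)) (Icc (0:ℝ) n) t :=
    fun n => exists_solution_Icc F K L hF hb x₀ (Nat.cast_nonneg n)
  choose α hα0 hα using h1
  -- consistency
  have hcons : ∀ n m : ℕ, n ≤ m → EqOn (α n) (α m) (Icc (0:ℝ) n) := by
    intro n m hnm
    have hnm' : (n:ℝ) ≤ m := by exact_mod_cast hnm
    have hsub : Icc (0:ℝ) n ⊆ Icc (0:ℝ) m := Icc_subset_Icc_right hnm'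
    refine ODE_solution_unique (v := fun _ => F) (K := K) (fun _ => hF) ?_ ?_ ?_ ?_ ?_
    · exact fun t ht => (hα n t ht).continuousWithinAt
    · intro t ht
      have ht' : t ∈ Icc (0:ℝ) n := ⟨ht.1, ht.2.le⟩
      exact (hα n t ht').mono_of_mem_nhdsWithin (Icc_mem_nhdsGE_of_mem ht)
    · exact fun t ht => ((hα m t (hsub ht)).mono hsub).continuousWithinAt
    · intro t ht
      have ht' : t ∈ Icc (0:ℝ) n := ⟨ht.1, ht.2.le⟩
      have h2 : t ∈ Ico (0:ℝ) m := ⟨ht.1, lt_of_lt_of_le ht.2 hnm'⟩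
      exact (hα m t (hsub ht')).mono_of_mem_nhdsWithin (Icc_mem_nhdsGE_of_mem h2)
    · rw [hα0, hα0]
  -- the glued solution
  let idx : ℝ → ℕ := fun t => ⌈t⌉₊
  have hle : ∀ t : ℝ, t ≤ (idx t : ℝ) := fun t => Nat.le_ceil t
  refine ⟨fun t => α (idx t) t, ?_, ?_, ?_⟩
  · simp only [idx]; exact hα0 _
  · -- continuity
    have key : ∀ t : ℝ, 0 ≤ t → ∀ n : ℕ, t ≤ n → α (idx t) t = α n t := by
      intro t ht n hn
      have hidx : idx t ≤ n := Nat.ceil_le.mpr hn
      exact hcons _ _ hidx ⟨ht, hle t⟩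
    intro t ht
    have ht0 : (0:ℝ) ≤ t := ht
    let n : ℕ := idx t + 1
    have htn : t < n := by
      have := hle t
      simp only [n]; push_cast; linarith
    have h3 : ContinuousWithinAt (α n) (Icc (0:ℝ) n) t := (hα n t ⟨ht0, htn.le⟩).continuousWithinAt
    have h4 : Icc (0:ℝ) n ∈ 𝓝[Ici 0] t := by
      apply mem_nhdsWithin_iff_exists_mem_nhds_inter.mpr
      refine ⟨Iio (n:ℝ), Iio_mem_nhds htn, fun s hs => ⟨hs.2, le_of_lt hs.1⟩⟩
    have h5 : ContinuousWithinAt (α n) (Ici 0) t := h3.mono_of_mem_nhdsWithin h4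
    refine h5.congr_of_eventuallyEq ?_ (key t ht0 n htn.le)
    filter_upwards [h4] with s hs using key s hs.1 n hs.2
  · intro t ht
    let n : ℕ := idx t + 1
    have htn : t < n := by
      have := hle t
      simp only [n]; push_cast; linarith
    have h3 := (hα n t ⟨ht.le, htn.le⟩).hasDerivAt (Icc_mem_nhds ht htn)
    have key : ∀ s : ℝ, 0 ≤ s → s ≤ n → α (idx s) s = α n s := by
      intro s hs hsn
      have hidx : idx s ≤ n := Nat.ceil_le.mpr hsn
      exact hcons _ _ hidx ⟨hs, hle s⟩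
    have heq : (fun s => α (idx s) s) =ᶠ[𝓝 t] α n := by
      filter_upwards [Icc_mem_nhds ht htn] with s hs using key s hs.1 hs.2
    have hval : α (idx t) t = α n t := key t ht.le htn.le
    have h6 := h3.congr_of_eventuallyEq heq
    simpa only [hval] using h6

/-- the right derivative at the initial time of a solution, which is only assumed continuous
at the initial time -/
lemma hasDerivWithinAt_zero {F : E → E} (hF : Continuous F) {T : ℝ} (hT : 0 < T) {y : ℝ → E}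
    (hc : ContinuousOn y (Ico 0 T)) (hd : ∀ t ∈ Ioo 0 T, HasDerivAt y (F (y t)) t) :
    HasDerivWithinAt y (F (y 0)) (Ici 0) 0 := by
  have hnhds : Ioo (0:ℝ) T ∈ 𝓝[>] (0:ℝ) := Ioo_mem_nhdsGT hT
  have hc0 : ContinuousWithinAt y (Ioo 0 T) 0 :=
    (hc 0 ⟨le_refl _, hT⟩).mono Ioo_subset_Ico_self
  refine hasDerivWithinAt_Ici_of_tendsto_deriv (s := Ioo 0 T)
    (fun t ht => (hd t ht).differentiableAt.differentiableWithinAt) hc0 hnhds ?_
  have h1 : Tendsto (fun t => F (y t)) (𝓝[>] (0:ℝ)) (𝓝 (F (y 0))) := by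
    apply hF.continuousAt.tendsto.comp
    have h2 : ContinuousWithinAt y (Ioi 0) 0 :=
      (hc 0 ⟨le_refl _, hT⟩).mono_of_mem_nhdsWithin
        (by
          apply mem_nhdsWithin_iff_exists_mem_nhds_inter.mpr
          exact ⟨Iio T, Iio_mem_nhds hT, fun s hs => ⟨le_of_lt hs.2, hs.1⟩⟩)
    exact h2
  refine h1.congr' ?_
  filter_upwards [hnhds] with t ht
  exact (hd t ht).deriv.symm

end Global

/-! ### Staying inside a region -/

lemma stay_in {E : Type*} [TopologicalSpace E] {x : ℝ → E} {T : ℝ} (hc : ContinuousOn x (Ico 0 T))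
    {U V : Set E} (hU : IsOpen U) (hV : IsClosed V) (hVU : V ⊆ U) (h0 : x 0 ∈ U)
    (hstep : ∀ s, 0 < s → s ≤ T → (∀ t ∈ Ico 0 s, x t ∈ U) → ∀ t ∈ Ico 0 s, x t ∈ V) :
    ∀ t ∈ Ico 0 T, x t ∈ V := by
  intro t₁ ht₁
  have hsub : Icc 0 t₁ ⊆ Ico 0 T := fun s hs => ⟨hs.1, lt_of_le_of_lt hs.2 ht₁.2⟩
  -- first, all of `[0,t₁]` is in `U`
  have hinU : ∀ s ∈ Icc 0 t₁, x s ∈ U := by
    by_contra hcon
    push Not at hcon
    obtain ⟨s₀, hs₀, hs₀U⟩ := hcon
    let S : Set ℝ := Icc 0 t₁ ∩ x ⁻¹' Uᶜ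
    have hSc : IsClosed S :=
      (hc.mono hsub).preimage_isClosed_of_isClosed isClosed_Icc hU.isClosed_compl
    have hScomp : IsCompact S := isCompact_Icc.of_isClosed_subset hSc inter_subset_left
    have hSne : S.Nonempty := ⟨s₀, hs₀, hs₀U⟩
    have hm := hScomp.sInf_mem hSne
    set m := sInf S with hm_def
    have hm0 : 0 < m := by
      rcases eq_or_lt_of_le hm.1.1 with h | h
      · exact absurd (by rw [← h]; exact h0) hm.2
      · exact h
    have hbelow : ∀ t ∈ Ico 0 m, x t ∈ U := by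
      intro t ht
      by_contra hn
      have : t ∈ S := ⟨⟨ht.1, ht.2.le.trans hm.1.2⟩, hn⟩
      have := csInf_le hScomp.bddBelow this
      exact absurd ht.2 (not_lt.mpr this)
    have hV' := hstep m hm0 (le_of_lt (lt_of_le_of_lt hm.1.2 ht₁.2)) hbelow
    have hmV : x m ∈ V := by
      have hcw : ContinuousWithinAt x (Ico 0 m) m :=
        (hc m (hsub hm.1)).mono (fun s hs => ⟨hs.1, lt_trans hs.2 (lt_of_le_of_lt hm.1.2 ht₁.2)⟩)
      have hne : (𝓝[Ico 0 m] m).NeBot := by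
        rw [← mem_closure_iff_nhdsWithin_neBot, closure_Ico hm0.ne]
        exact ⟨hm0.le, le_refl _⟩
      refine hV.mem_of_tendsto hcw ?_
      filter_upwards [self_mem_nhdsWithin] with t ht using hV' t ht
    exact hm.2 (hVU hmV)
  -- second, a little beyond `t₁`
  have hct : ContinuousWithinAt x (Ici t₁) t₁ := by
    refine (hc t₁ ht₁).mono_of_mem_nhdsWithin ?_
    exact Ico_mem_nhdsGE_of_mem ⟨ht₁.1, ht₁.2⟩ |> fun h => by
      simpa using h
  have hev : ∀ᶠ s in 𝓝[Ici t₁] t₁, x s ∈ U :=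
    hct.eventually (hU.mem_nhds (hinU t₁ ⟨ht₁.1, le_refl _⟩))
  rcases (mem_nhdsGE_iff_exists_Ico_subset' ht₁.2).mp hev with ⟨u, hu, hsubu⟩
  have hu' : t₁ < u := hu
  let s := min u T
  have hs1 : t₁ < s := lt_min hu' ht₁.2
  have hall : ∀ t ∈ Ico 0 s, x t ∈ U := by
    intro t ht
    rcases le_total t t₁ with h | h
    · exact hinU t ⟨ht.1, h⟩
    · exact hsubu ⟨h, lt_of_lt_of_le ht.2 (min_le_left _ _)⟩
  exact hstep s (lt_of_le_of_lt ht₁.1 hs1) (min_le_right _ _) hall t₁ ⟨ht₁.1, hs1⟩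

/-! ### Regularity of the mass-action field -/

lemma contDiff_mono (y : Cx d) : ContDiff ℝ 1 (fun x : Fin d → ℝ => mono x y) := by
  unfold mono
  apply contDiff_prod
  intro i _
  exact (contDiff_apply ℝ ℝ i).pow _

lemma contDiff_massAction (R : Finset (Cx d × Cx d)) (κ : Cx d × Cx d → ℝ) :
    ContDiff ℝ 1 (massAction R κ) := by
  unfold massAction
  rw [contDiff_pi]
  intro i
  apply ContDiff.sum
  intro r _
  exact ((contDiff_const).mul (contDiff_mono r.1)).mul contDiff_const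

/-- Coordinatewise clamp to `[a,b]`. -/
noncomputable def clampB (a b : ℝ) (x : Fin d → ℝ) : Fin d → ℝ := fun i => max a (min b (x i))

lemma clampB_lip (a b : ℝ) : LipschitzWith 1 (clampB (d := d) a b) := by
  apply LipschitzWith.of_dist_le_mul
  intro x y
  rw [dist_pi_le_iff (by positivity)]
  intro i
  have h : LipschitzWith 1 (fun t : ℝ => max a (min b t)) :=
    (LipschitzWith.id.const_min b).const_max a
  have h2 := h.dist_le_mul (x i) (y i)
  simp only [clampB]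
  calc _ ≤ _ := h2
    _ ≤ _ := by
      have := dist_le_pi_dist x y i
      simpa using this

lemma clampB_mem {a b : ℝ} (hab : a ≤ b) (x : Fin d → ℝ) :
    clampB a b x ∈ Icc (fun _ => a) (fun _ => b) := by
  constructor
  · intro i; exact le_max_left _ _
  · intro i; exact max_le hab (min_le_left _ _)

lemma clampB_of_mem {a b : ℝ} {x : Fin d → ℝ} (h : ∀ i, a ≤ x i ∧ x i ≤ b) : clampB a b x = x := by
  funext i
  simp [clampB, h i]

/-- A truncated mass-action field. -/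
lemma exists_truncated (f : (Fin d → ℝ) → (Fin d → ℝ)) (hf : ContDiff ℝ 1 f) {a b : ℝ}
    (hab : a ≤ b) :
    ∃ (F : (Fin d → ℝ) → (Fin d → ℝ)) (K L : ℝ≥0), LipschitzWith K F ∧ (∀ x, ‖F x‖ ≤ L) ∧
      ∀ x, (∀ i, a ≤ x i ∧ x i ≤ b) → F x = f x := by
  have hcomp : IsCompact (Icc (fun _ : Fin d => a) (fun _ => b)) := isCompact_Icc
  have hloc : LocallyLipschitz f := hf.locallyLipschitz
  obtain ⟨K, hK⟩ := (hloc.locallyLipschitzOn (s := Icc (fun _ : Fin d => a) (fun _ => b))).exists_lipschitzOnWith_of_compact hcomp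
  obtain ⟨L, hL⟩ := hcomp.exists_bound_of_continuousOn hf.continuous.continuousOn
  refine ⟨fun x => f (clampB a b x), K, ⟨max L 0, le_max_right _ _⟩, ?_, ?_, ?_⟩
  · intro x y
    have h1 := hK (clampB_mem hab x) (clampB_mem hab y)
    have h2 := (clampB_lip (d := d) a b) x y
    calc _ ≤ (K:ENNReal) * edist (clampB a b x) (clampB a b y) := h1
      _ ≤ (K:ENNReal) * ((1:ℝ≥0) * edist x y) := by gcongr
      _ = _ := by simp
  · intro x
    exact (hL _ (clampB_mem hab x)).trans (le_max_left _ _)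
  · intro x hx
    simp only [clampB_of_mem hx]

end Vale.Agent.Lib.P072
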