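import Vale.Agent.Lib.P072.Analysis

/-! Tilted entropies `H + ⟨q, x⟩`, their restriction to lines, and consequences of activity. -/

namespace Vale.Agent.Lib.P072

open Finset Real

variable {d : ℕ}

/-- The tilted entropy `∑ i, x i * (log (x i) + q i - 1)`. -/
noncomputable def entT (q x : Fin d → ℝ) : ℝ := ∑ i, x i * (log (x i) + q i - 1)

/-- The tilted Fenchel affine function. -/
noncomputable def PhiT (q g x : Fin d → ℝ) : ℝ := dot g x - ∑ i, exp (g i - q i)

/-- The tilted logarithm `log z + q`. -/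
noncomputable def gr (q z : Fin d → ℝ) : Fin d → ℝ := fun i => log (z i) + q i

lemma PhiT_le_entT (q g : Fin d → ℝ) {a : Fin d → ℝ} (ha : ∀ i, 0 < a i) :
    PhiT q g a ≤ entT q a := by
  unfold PhiT entT dot
  rw [← Finset.sum_sub_distrib]
  apply Finset.sum_le_sum
  intro i _
  have h1 : (g i - q i) - log (a i) + 1 ≤ exp ((g i - q i) - log (a i)) := add_one_le_exp _
  have h2 : exp ((g i - q i) - log (a i)) = exp (g i - q i) / a i := by
    rw [exp_sub, exp_log (ha i)]
  rw [h2, le_div_iff₀ (ha i)] at h1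
  nlinarith

lemma PhiT_gr_self (q : Fin d → ℝ) {z : Fin d → ℝ} (hz : ∀ i, 0 < z i) :
    PhiT q (gr q z) z = entT q z := by
  unfold PhiT entT dot gr
  rw [← Finset.sum_sub_distrib]
  apply Finset.sum_congr rfl
  intro i _
  rw [show log (z i) + q i - q i = log (z i) by ring, exp_log (hz i)]
  ring

lemma entT_sub_PhiT (q : Fin d → ℝ) {x z : Fin d → ℝ} (hz : ∀ i, 0 < z i) :
    entT q x - PhiT q (gr q z) x = KL x z := by
  unfold entT PhiT dot gr KL
  rw [← Finset.sum_sub_distrib, ← Finset.sum_sub_distrib]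
  apply Finset.sum_congr rfl
  intro i _
  rw [show log (z i) + q i - q i = log (z i) by ring, exp_log (hz i)]
  ring

lemma PhiT_add_of_orth (q g x w : Fin d → ℝ) (s : ℝ) (h : dot g w = 0) :
    PhiT q g (fun i => x i + s * w i) = PhiT q g x := by
  unfold PhiT
  rw [dot_add_right, dot_smul_right, h]
  ring

/-- A point on the forward ray where the logarithmic function exceeds a prescribed level. -/
lemma exists_bracket_level {w x : Fin d → ℝ} (hw : w ≠ 0) (hx : ∀ i, 0 < x i) (A : ℝ) :
    ∃ s : ℝ, 0 ≤ s ∧ (∀ i, 0 < x i + s * w i) ∧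
      A ≤ ∑ i, w i * log (x i + s * w i) := by
  classical
  set K : ℝ := ∑ i, |w i| * |log (x i)| with hK
  obtain ⟨s, hs0, hspos, i₀, hi₀⟩ := exists_bracket_aux hw hx (K + A)
  refine ⟨s, hs0, hspos, ?_⟩
  have hterm : ∀ i, -(|w i| * |log (x i)|) ≤ w i * log (x i + s * w i) := by
    intro i
    have hb : -(|w i| * |log (x i)|) ≤ w i * log (x i) := by
      have := abs_mul (w i) (log (x i))
      have h2 := neg_abs_le (w i * log (x i))
      linarith
    have hmono : w i * log (x i) ≤ w i * log (x i + s * w i) := by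
      rcases le_or_gt 0 (w i) with hwi | hwi
      · apply mul_le_mul_of_nonneg_left _ hwi
        apply log_le_log (hx i)
        have : 0 ≤ s * w i := mul_nonneg hs0 hwi
        linarith
      · apply mul_le_mul_of_nonpos_left _ hwi.le
        apply log_le_log (hspos i)
        have : s * w i ≤ 0 := mul_nonpos_of_nonneg_of_nonpos hs0 hwi.le
        linarith
    linarith
  rw [← Finset.add_sum_erase _ _ (Finset.mem_univ i₀)]
  have h1 : ∑ i ∈ Finset.univ.erase i₀, -(|w i| * |log (x i)|)
      ≤ ∑ i ∈ Finset.univ.erase i₀, w i * log (x i + s * w i) :=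
    Finset.sum_le_sum (fun i _ => hterm i)
  have h2 : ∑ i ∈ Finset.univ.erase i₀, (|w i| * |log (x i)|) ≤ K := by
    rw [hK]
    apply Finset.sum_le_sum_of_subset_of_nonneg (Finset.erase_subset _ _)
    intro i _ _
    positivity
  rw [Finset.sum_neg_distrib] at h1
  linarith

/-- Existence of the tilted orthogonal point on the line through `x` with direction `w`. -/
lemma exists_orth_pointT (q : Fin d → ℝ) {w x : Fin d → ℝ} (hw : w ≠ 0) (hx : ∀ i, 0 < x i) :
    ∃ s : ℝ, (∀ i, 0 < x i + s * w i) ∧ ∑ i, w i * (log (x i + s * w i) + q i) = 0 := by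
  set A : ℝ := ∑ i, w i * q i with hA
  obtain ⟨s₁, hs₁, hs₁p, hF₁⟩ := exists_bracket_level hw hx (-A)
  have hw' : (fun i => - w i) ≠ 0 := by
    intro h
    apply hw
    funext i
    have := congrFun h i
    simpa using this
  obtain ⟨s₂, hs₂, hs₂p, hF₂⟩ := exists_bracket_level (w := fun i => - w i) hw' hx A
  have hle : -s₂ ≤ s₁ := by linarith
  have hposI : ∀ s ∈ Set.Icc (-s₂) s₁, ∀ i, 0 < x i + s * w i := by
    intro s hs i
    have h1 := hs₁p i
    have h2 := hs₂p i
    rcases le_or_gt 0 (w i) with hwi | hwi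
    · have : (-s₂) * w i ≤ s * w i := mul_le_mul_of_nonneg_right hs.1 hwi
      nlinarith
    · have : s₁ * w i ≤ s * w i := mul_le_mul_of_nonpos_right hs.2 hwi.le
      nlinarith
  have hsplit : ∀ s, ∑ i, w i * (log (x i + s * w i) + q i)
      = ∑ i, w i * log (x i + s * w i) + A := by
    intro s
    rw [hA, ← Finset.sum_add_distrib]
    exact Finset.sum_congr rfl (fun i _ => by ring)
  have hcont : ContinuousOn (fun s => ∑ i, w i * (log (x i + s * w i) + q i))
      (Set.Icc (-s₂) s₁) := by
    apply continuousOn_finsetSum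
    intro i _
    apply ContinuousOn.mul continuousOn_const
    apply ContinuousOn.add _ continuousOn_const
    apply ContinuousOn.log
    · fun_prop
    · intro s hs
      exact (hposI s hs i).ne'
  have hlow : ∑ i, w i * (log (x i + (-s₂) * w i) + q i) ≤ 0 := by
    have : ∑ i, w i * log (x i + (-s₂) * w i)
        = - ∑ i, (- w i) * log (x i + s₂ * (- w i)) := by
      rw [← Finset.sum_neg_distrib]
      apply Finset.sum_congr rfl
      intro i _
      have : x i + -s₂ * w i = x i + s₂ * - w i := by ring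
      rw [this]; ring
    rw [hsplit, this]
    linarith
  have hhigh : 0 ≤ ∑ i, w i * (log (x i + s₁ * w i) + q i) := by
    rw [hsplit]; linarith
  obtain ⟨s, hs, hs0⟩ := intermediate_value_Icc hle hcont ⟨hlow, hhigh⟩
  exact ⟨s, hposI s hs, hs0⟩

open Classical in
/-- The shift to the tilted orthogonal point. -/
noncomputable def shiftT (q w x : Fin d → ℝ) : ℝ :=
  if h : ∃ s : ℝ, (∀ i, 0 < x i + s * w i) ∧ ∑ i, w i * (log (x i + s * w i) + q i) = 0
  then h.choose else 0

/-- The tilted orthogonal point on the line through `x` with direction `w`. -/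
noncomputable def projT (q w x : Fin d → ℝ) : Fin d → ℝ := fun i => x i + shiftT q w x * w i

lemma projT_pos (q : Fin d → ℝ) {w x : Fin d → ℝ} (hw : w ≠ 0) (hx : ∀ i, 0 < x i) :
    ∀ i, 0 < projT q w x i := by
  have h := exists_orth_pointT q hw hx
  unfold projT shiftT
  rw [dif_pos h]
  exact h.choose_spec.1

lemma projT_orth (q : Fin d → ℝ) {w x : Fin d → ℝ} (hw : w ≠ 0) (hx : ∀ i, 0 < x i) :
    dot w (gr q (projT q w x)) = 0 := by
  have h := exists_orth_pointT q hw hx
  unfold dot gr projT shiftT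
  rw [dif_pos h]
  exact h.choose_spec.2

lemma dot_gr_projT (q : Fin d → ℝ) {w x : Fin d → ℝ} (hw : w ≠ 0) (hx : ∀ i, 0 < x i) :
    dot (gr q (projT q w x)) w = 0 := by
  rw [dot_comm]; exact projT_orth q hw hx

lemma entT_projT_eq_PhiT (q : Fin d → ℝ) {w x : Fin d → ℝ} (hw : w ≠ 0) (hx : ∀ i, 0 < x i) :
    entT q (projT q w x) = PhiT q (gr q (projT q w x)) x := by
  rw [← PhiT_gr_self q (projT_pos q hw hx)]
  exact PhiT_add_of_orth _ _ x w _ (dot_gr_projT q hw hx)

lemma PhiT_le_entT_projT (q : Fin d → ℝ) {w x g : Fin d → ℝ} (hw : w ≠ 0) (hx : ∀ i, 0 < x i)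
    (hg : dot g w = 0) : PhiT q g x ≤ entT q (projT q w x) := by
  have h1 := PhiT_le_entT q g (projT_pos q hw hx)
  have h2 : PhiT q g (projT q w x) = PhiT q g x := PhiT_add_of_orth q g x w _ hg
  linarith

/-- The tilted orthogonal point minimizes the tilted entropy on its line. -/
lemma entT_projT_le (q : Fin d → ℝ) {w x : Fin d → ℝ} (hw : w ≠ 0) (hx : ∀ i, 0 < x i) {s : ℝ}
    (hs : ∀ i, 0 < x i + s * w i) : entT q (projT q w x) ≤ entT q (fun i => x i + s * w i) := by
  rw [entT_projT_eq_PhiT q hw hx]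
  rw [← PhiT_add_of_orth _ _ x w s (dot_gr_projT q hw hx)]
  exact PhiT_le_entT _ _ hs

/-- `w` maximizes the tilted entropy of the orthogonal point at `x` among the directions in `W`. -/
def ActiveT (q : Fin d → ℝ) (W : Finset (Fin d → ℝ)) (w x : Fin d → ℝ) : Prop :=
  w ∈ W ∧ ∀ w' ∈ W, entT q (projT q w' x) ≤ entT q (projT q w x)

lemma KL_activeT_le {q : Fin d → ℝ} {W : Finset (Fin d → ℝ)} (hW : ∀ u ∈ W, u ≠ 0)
    {w x w' z : Fin d → ℝ} (hx : ∀ i, 0 < x i) (ha : ActiveT q W w x) (hw' : w' ∈ W)
    (hz : ∀ i, 0 < z i) (hzw : dot (gr q z) w' = 0) : KL x (projT q w x) ≤ KL x z := by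
  have h1 := PhiT_le_entT_projT q (hW w' hw') hx hzw
  have h2 := ha.2 w' hw'
  have h3 := entT_projT_eq_PhiT q (hW w ha.1) hx
  have h4 := entT_sub_PhiT q (x := x) hz
  have h5 := entT_sub_PhiT q (x := x) (projT_pos q (hW w ha.1) hx)
  linarith

lemma dot_gr_eq (q w z : Fin d → ℝ) : dot w (gr q z) = dot w (lv z) + dot w q := by
  unfold dot gr lv
  rw [← Finset.sum_add_distrib]
  exact Finset.sum_congr rfl (fun i _ => by ring)

/-- Sign compatibility for the tilted logarithm. -/
lemma sign_activeT {q : Fin d → ℝ} {W : Finset (Fin d → ℝ)} (hW : ∀ u ∈ W, u ≠ 0)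
    {w x w' : Fin d → ℝ} (hx : ∀ i, 0 < x i) (ha : ActiveT q W w x) (hw' : w' ∈ W)
    (hle : dot w' (gr q x) ≤ 0) : dot w' (gr q (projT q w x)) ≤ 0 := by
  by_contra hcon
  push Not at hcon
  set y := projT q w x with hy
  have hypos : ∀ i, 0 < y i := projT_pos q (hW w ha.1) hx
  have hposI : ∀ t ∈ Set.Icc (0 : ℝ) 1, ∀ i, 0 < x i + t * (y i - x i) := by
    intro t ht i
    have h1 : x i + t * (y i - x i) = (1 - t) * x i + t * y i := by ring
    rw [h1]
    rcases eq_or_lt_of_le ht.1 with h0 | h0
    · rw [← h0]; simpa using hx i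
    · have := mul_pos h0 (hypos i)
      have h2 : 0 ≤ (1 - t) * x i := mul_nonneg (by linarith [ht.2]) (hx i).le
      linarith
  have hcont : ContinuousOn (fun t : ℝ => ∑ i, w' i * (log (x i + t * (y i - x i)) + q i))
      (Set.Icc 0 1) := by
    apply continuousOn_finsetSum
    intro i _
    apply ContinuousOn.mul continuousOn_const
    apply ContinuousOn.add _ continuousOn_const
    apply ContinuousOn.log
    · fun_prop
    · intro t ht
      exact (hposI t ht i).ne'
  have h0val : ∑ i, w' i * (log (x i + (0 : ℝ) * (y i - x i)) + q i) ≤ 0 := by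
    simpa [dot, gr] using hle
  have h1val : 0 ≤ ∑ i, w' i * (log (x i + (1 : ℝ) * (y i - x i)) + q i) := by
    have : ∀ i, x i + (1 : ℝ) * (y i - x i) = y i := fun i => by ring
    simp only [this]
    exact hcon.le
  obtain ⟨t, ht, ht0⟩ := intermediate_value_Icc (zero_le_one) hcont ⟨h0val, h1val⟩
  simp only at ht0
  have ht1 : t < 1 := by
    refine lt_of_le_of_ne ht.2 ?_
    intro h1
    rw [h1] at ht0
    have : ∀ i, x i + (1 : ℝ) * (y i - x i) = y i := fun i => by ring
    simp only [this] at ht0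
    have : dot w' (gr q y) = 0 := ht0
    linarith
  have hzpos : ∀ i, 0 < (fun i => x i + t * (y i - x i)) i := hposI t ht
  have hzw : dot (gr q (fun i => x i + t * (y i - x i))) w' = 0 := by
    rw [dot_comm]; exact ht0
  have h1 := KL_activeT_le hW hx ha hw' hzpos hzw
  have h2 := KL_segment_le hx hypos ht.1 ht.2
  obtain ⟨i, hi⟩ : ∃ i, log (y i) ≠ log (x i) := by
    by_contra hall
    push Not at hall
    have : dot w' (gr q y) = dot w' (gr q x) := by
      unfold dot gr
      exact Finset.sum_congr rfl (fun i _ => by rw [hall i])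
    linarith
  have hKLpos : 0 < KL x y := by
    unfold KL
    apply Finset.sum_pos'
    · intro j _
      exact KL_term_nonneg (hx j) (hypos j)
    · exact ⟨i, Finset.mem_univ i, KL_term_pos (hx i) (hypos i) hi⟩
  have : KL x y ≤ t * KL x y := h1.trans h2
  nlinarith

/-- The quantitative estimate in the tilted setting. -/
lemma quant_activeT {q : Fin d → ℝ} {W : Finset (Fin d → ℝ)} (hW : ∀ u ∈ W, u ≠ 0)
    {w x w' : Fin d → ℝ} (hx : ∀ i, 0 < x i) (ha : ActiveT q W w x) (hw' : w' ∈ W)
    (hint : ∀ i, w' i = 0 ∨ 1 ≤ |w' i|) {N B : ℝ} (hN : ∀ i, |w' i| ≤ N)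
    (hβ0 : 0 < dot w' (gr q x)) (hβB : dot w' (gr q x) ≤ B)
    (hΓ : B + (d : ℝ) * (B * (exp B - 1) + N + 1) ≤ dot w' (gr q (projT q w x))) : False := by
  have hw'0 : w' ≠ 0 := hW w' hw'
  have hB0 : 0 < B := lt_of_lt_of_le hβ0 hβB
  set y := projT q w x with hy
  have hypos : ∀ i, 0 < y i := projT_pos q (hW w ha.1) hx
  set z := projT q w' x with hz
  have hzpos : ∀ i, 0 < z i := projT_pos q hw'0 hx
  have hzorth : dot w' (gr q z) = 0 := projT_orth q hw'0 hx
  set s := shiftT q w' x with hs
  have hzdef : ∀ i, z i = x i + s * w' i := fun i => rfl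
  have hs0 : s < 0 := by
    by_contra hcon
    push Not at hcon
    have hle : dot w' (gr q x) ≤ dot w' (gr q z) := by
      unfold dot gr
      apply Finset.sum_le_sum
      intro i _
      rcases le_or_gt 0 (w' i) with hwi | hwi
      · apply mul_le_mul_of_nonneg_left _ hwi
        have : log (x i) ≤ log (z i) := by
          apply log_le_log (hx i)
          rw [hzdef]
          have : 0 ≤ s * w' i := mul_nonneg hcon hwi
          linarith
        linarith
      · apply mul_le_mul_of_nonpos_left _ hwi.le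
        have : log (z i) ≤ log (x i) := by
          apply log_le_log (hzpos i)
          rw [hzdef]
          have : s * w' i ≤ 0 := mul_nonpos_of_nonneg_of_nonpos hcon hwi.le
          linarith
        linarith
    linarith
  set a : Fin d → ℝ := fun i => - (w' i * (log (z i) - log (x i))) with ha'
  have hanonneg : ∀ i, 0 ≤ a i := by
    intro i
    simp only [ha']
    rcases lt_trichotomy (w' i) 0 with hwi | hwi | hwi
    · have h1 : x i ≤ z i := by
        rw [hzdef]; nlinarith
      have h2 : log (x i) ≤ log (z i) := log_le_log (hx i) h1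
      nlinarith
    · rw [hwi]; simp
    · have h1 : z i ≤ x i := by
        rw [hzdef]; nlinarith
      have h2 : log (z i) ≤ log (x i) := log_le_log (hzpos i) h1
      nlinarith
  have hasum : ∑ i, a i = dot w' (gr q x) := by
    have h1 : ∑ i, a i = dot w' (gr q x) - dot w' (gr q z) := by
      unfold dot gr
      rw [← Finset.sum_sub_distrib]
      apply Finset.sum_congr rfl
      intro i _
      simp only [ha']
      ring
    rw [h1, hzorth, sub_zero]
  have hale : ∀ i, a i ≤ B := by
    intro i
    have : a i ≤ ∑ i, a i :=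
      Finset.single_le_sum (f := a) (fun j _ => hanonneg j) (Finset.mem_univ i)
    linarith
  have hKLz : KL x z ≤ (-s) * B := by
    have h1 : KL x z ≤ ∑ i, (-s) * a i := by
      unfold KL
      apply Finset.sum_le_sum
      intro i _
      have h2 := KL_term_upper (hx i) (hzpos i)
      have h3 : z i - x i = s * w' i := by rw [hzdef]; ring
      have h4 : (log (z i) - log (x i)) * (z i - x i) = (-s) * a i := by
        rw [h3]; simp only [ha']; ring
      linarith
    rw [← Finset.mul_sum, hasum] at h1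
    have h5 : (-s) * dot w' (gr q x) ≤ (-s) * B :=
      mul_le_mul_of_nonneg_left hβB (by linarith)
    linarith
  have hfin : Nonempty (Fin d) := by
    by_contra hemp
    rw [not_nonempty_iff] at hemp
    exact hw'0 (funext (fun i => hemp.elim i))
  set Q : ℝ := B * (exp B - 1) + N + 1 with hQ
  have hN0 : 0 ≤ N := le_trans (abs_nonneg _) (hN hfin.some)
  have hexpB : B + 1 ≤ exp B := add_one_le_exp B
  have hQpos : 0 < Q := by
    have : 0 ≤ B * (exp B - 1) := mul_nonneg hB0.le (by linarith)
    linarith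
  have hsumu : (d : ℝ) * Q ≤ ∑ i, w' i * (log (y i) - log (x i)) := by
    have h1 : ∑ i, w' i * (log (y i) - log (x i)) = dot w' (gr q y) - dot w' (gr q x) := by
      unfold dot gr
      rw [← Finset.sum_sub_distrib]
      apply Finset.sum_congr rfl
      intro i _
      ring
    rw [h1]
    linarith
  obtain ⟨i, -, hi⟩ : ∃ i ∈ (Finset.univ : Finset (Fin d)), Q ≤ w' i * (log (y i) - log (x i)) := by
    apply Finset.exists_le_of_sum_le (Finset.univ_nonempty)
    simpa [Finset.sum_const, Finset.card_univ, nsmul_eq_mul] using hsumu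
  set u := log (y i) - log (x i) with hu
  have hwi0 : w' i ≠ 0 := by
    intro h0
    rw [h0] at hi
    linarith
  have hwi1 : 1 ≤ |w' i| := (hint i).resolve_left hwi0
  have hwiabs : 0 < |w' i| := by linarith
  have hτ : |log (z i) - log (x i)| ≤ B := by
    have h1 : a i = |w' i| * |log (z i) - log (x i)| := by
      rw [← abs_mul, ha']
      simp only
      rw [abs_of_nonpos]
      have := hanonneg i
      simp only [ha'] at this
      linarith
    have h2 : |log (z i) - log (x i)| ≤ |w' i| * |log (z i) - log (x i)| := by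
      have := abs_nonneg (log (z i) - log (x i))
      nlinarith
    have := hale i
    linarith
  set τ := log (z i) - log (x i) with hτdef
  have hzexp : z i = x i * exp τ := by
    rw [hτdef, exp_sub, exp_log (hzpos i), exp_log (hx i)]
    have := (hx i).ne'
    field_simp
  have hdiff : (-s) * |w' i| ≤ x i * (exp B - 1) := by
    have h1 : z i - x i = s * w' i := by rw [hzdef]; ring
    have h2 : (-s) * |w' i| = |s * w' i| := by
      rw [abs_mul, abs_of_neg hs0]
    rw [h2, ← h1, hzexp]
    have h3 : x i * exp τ - x i = x i * (exp τ - 1) := by ring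
    rw [h3, abs_mul, abs_of_pos (hx i)]
    apply mul_le_mul_of_nonneg_left _ (hx i).le
    have hτ' := abs_le.mp hτ
    rw [abs_le]
    constructor
    · have := add_one_le_exp τ
      linarith [hτ'.1]
    · have : exp τ ≤ exp B := exp_le_exp.mpr hτ'.2
      linarith
  have hKLy : x i * (|u| - 1) ≤ KL x y := by
    have h1 := KL_term_lower (hx i) (hypos i)
    have h2 : y i - x i - x i * (log (y i) - log (x i)) ≤ KL x y :=
      Finset.single_le_sum (f := fun i => y i - x i - x i * (log (y i) - log (x i)))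
        (fun j _ => KL_term_nonneg (hx j) (hypos j)) (Finset.mem_univ i)
    exact h1.trans h2
  have hcmp := KL_activeT_le hW hx ha hw' hzpos (by rw [dot_comm]; exact hzorth)
  have hmain : x i * (|u| - 1) ≤ (-s) * B := hKLy.trans (hcmp.trans hKLz)
  have hmain2 : |w' i| * (|u| - 1) ≤ B * (exp B - 1) := by
    have h1 : |w' i| * (x i * (|u| - 1)) ≤ |w' i| * ((-s) * B) :=
      mul_le_mul_of_nonneg_left hmain hwiabs.le
    have h2 : |w' i| * ((-s) * B) ≤ x i * ((exp B - 1) * B) := by
      have := mul_le_mul_of_nonneg_right hdiff hB0.le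
      nlinarith
    have h3 : x i * (|w' i| * (|u| - 1)) ≤ x i * (B * (exp B - 1)) := by
      nlinarith
    exact le_of_mul_le_mul_left h3 (hx i)
  have hfinal : Q ≤ |w' i| * |u| := by
    calc Q ≤ w' i * u := hi
      _ ≤ |w' i * u| := le_abs_self _
      _ = |w' i| * |u| := abs_mul _ _
  have hNi := hN i
  rw [hQ] at hfinal
  nlinarith

/-- The key comparison in the tilted setting. -/
lemma gap_activeT {q : Fin d → ℝ} {W : Finset (Fin d → ℝ)} (hW : ∀ u ∈ W, u ≠ 0)
    {w x w' : Fin d → ℝ} (hx : ∀ i, 0 < x i) (ha : ActiveT q W w x) (hw' : w' ∈ W)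
    (hint : ∀ i, w' i = 0 ∨ 1 ≤ |w' i|) {N B : ℝ} (hN : ∀ i, |w' i| ≤ N) (hB : 0 ≤ B)
    (hΓ : B + (d : ℝ) * (B * (exp B - 1) + N + 1) ≤ dot w' (gr q (projT q w x))) :
    B ≤ dot w' (gr q x) := by
  by_contra hcon
  push Not at hcon
  have hw'0 : w' ≠ 0 := hW w' hw'
  have hfin : Nonempty (Fin d) := by
    by_contra hemp
    rw [not_nonempty_iff] at hemp
    exact hw'0 (funext (fun i => hemp.elim i))
  rcases le_or_gt (dot w' (gr q x)) 0 with h0 | h0
  · have h1 := sign_activeT hW hx ha hw' h0
    have hN0 : 0 ≤ N := le_trans (abs_nonneg _) (hN hfin.some)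
    have hexpB : B + 1 ≤ exp B := add_one_le_exp B
    have h2 : 0 ≤ B * (exp B - 1) := mul_nonneg hB (by linarith)
    have hd : (1 : ℝ) ≤ d := by
      have : 0 < d := Fin.pos_iff_nonempty.mpr hfin
      exact_mod_cast this
    nlinarith
  · exact quant_activeT hW hx ha hw' hint hN h0 hcon.le hΓ

end Vale.Agent.Lib.P072
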