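import Vale.Agent.Lib.P072.Main
import Vale.Agent.Lib.P072.Tilt

/-! The strict form of the flux lemma and its consequences for a normal vector `g`. -/

namespace Vale.Agent.Lib.P072

open Finset Real Set Filter Topology

variable {d : ℕ}

/-- The strict flux lemma: a downward edge contributes a definite negative amount. -/
theorem flux_strict {R : Finset (Cx d × Cx d)} (hWR : WeaklyReversible R) {ε : ℝ} (hε : 0 < ε) :
    ∃ B₀ : ℝ, ∀ B, B₀ ≤ B → ∀ (h mon : Cx d → ℝ) (κ : Cx d × Cx d → ℝ),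
      (∀ c, 0 < mon c) →
      (∀ s a, Reach R s a → h a < h s → exp B * mon a ≤ mon s) →
      (∀ r, ε ≤ κ r ∧ κ r ≤ ε⁻¹) →
      ∀ e ∈ R, ∑ r ∈ R, κ r * mon r.1 * (h r.2 - h r.1)
        ≤ -(ε * mon e.1 * max (h e.1 - h e.2) 0) / 2 := by
  classical
  obtain ⟨N, hN⟩ := cross_uniform hWR
  set A : ℝ := 2 * ((R.card : ℝ) * (ε⁻¹ * ε⁻¹ * N)) + 1 with hA
  have hApos : 0 < A := by
    have : (0 : ℝ) ≤ (R.card : ℝ) * (ε⁻¹ * ε⁻¹ * N) := by positivity
    linarith
  refine ⟨log A, fun B hB h mon κ hmon hgap hκ e he => ?_⟩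
  have hexpB : A ≤ exp B := by
    calc A = exp (log A) := (exp_log hApos).symm
      _ ≤ exp B := exp_le_exp.mpr hB
  have hexpBpos : 0 < exp B := exp_pos B
  set Dn : ℝ := ∑ e ∈ R, κ e * mon e.1 * max (h e.1 - h e.2) 0 with hDn
  have hκpos : ∀ r, 0 < κ r := fun r => lt_of_lt_of_le hε (hκ r).1
  have hDn0 : 0 ≤ Dn := by
    apply Finset.sum_nonneg
    intro e _
    have := hκpos e
    have := hmon e.1
    have : 0 ≤ max (h e.1 - h e.2) 0 := le_max_right _ _
    positivity
  have hUp : ∀ r ∈ R, κ r * mon r.1 * max (h r.2 - h r.1) 0 * exp B ≤ ε⁻¹ * ε⁻¹ * N * Dn := by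
    intro r hr
    by_cases hup : h r.1 < h r.2
    · have hmax : max (h r.2 - h r.1) 0 = h r.2 - h r.1 := max_eq_left (by linarith)
      rw [hmax]
      have hc := hN r hr h (h r.1) hup (le_refl _)
      have hT : ε * (mon r.1 * exp B) * dropSum R h r.1 (h r.1) ≤ Dn := by
        unfold dropSum
        rw [Finset.mul_sum, hDn]
        apply Finset.sum_le_sum
        intro e _
        have h0 : 0 ≤ max (h e.1 - h e.2) 0 := le_max_right _ _
        have hkm : 0 ≤ κ e * mon e.1 := (mul_pos (hκpos e) (hmon _)).le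
        unfold dropTerm
        split_ifs with hcond
        · have h1 := hgap e.1 r.1 hcond.1 hcond.2
          have h2 : ε * (mon r.1 * exp B) ≤ κ e * mon e.1 := by
            have h3 : ε * (mon r.1 * exp B) ≤ ε * mon e.1 :=
              mul_le_mul_of_nonneg_left (by linarith) hε.le
            have h4 : ε * mon e.1 ≤ κ e * mon e.1 :=
              mul_le_mul_of_nonneg_right (hκ e).1 (hmon _).le
            linarith
          exact mul_le_mul_of_nonneg_right h2 h0
        · simp only [mul_zero]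
          exact mul_nonneg hkm h0
      have hm : 0 < mon r.1 := hmon _
      have hk1 : κ r ≤ ε⁻¹ := (hκ r).2
      have hNn : (0 : ℝ) ≤ N := Nat.cast_nonneg N
      have hTn := dropSum_nonneg R h r.1 (h r.1)
      have hεi : 0 < ε⁻¹ := inv_pos.mpr hε
      have s1 : κ r * mon r.1 * (h r.2 - h r.1) * exp B
          ≤ ε⁻¹ * mon r.1 * (N * dropSum R h r.1 (h r.1)) * exp B := by
        have hd : 0 ≤ h r.2 - h r.1 := by linarith
        have t1 : κ r * mon r.1 * (h r.2 - h r.1) ≤ ε⁻¹ * mon r.1 * (h r.2 - h r.1) :=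
          mul_le_mul_of_nonneg_right (mul_le_mul_of_nonneg_right hk1 hm.le) hd
        have t2 : ε⁻¹ * mon r.1 * (h r.2 - h r.1)
            ≤ ε⁻¹ * mon r.1 * (N * dropSum R h r.1 (h r.1)) :=
          mul_le_mul_of_nonneg_left hc (by positivity)
        exact mul_le_mul_of_nonneg_right (t1.trans t2) hexpBpos.le
      have s2 : ε⁻¹ * mon r.1 * (N * dropSum R h r.1 (h r.1)) * exp B
          = ε⁻¹ * ε⁻¹ * N * (ε * (mon r.1 * exp B) * dropSum R h r.1 (h r.1)) := by
        field_simp
      rw [s2] at s1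
      refine s1.trans ?_
      exact mul_le_mul_of_nonneg_left hT (by positivity)
    · have hmax : max (h r.2 - h r.1) 0 = 0 := max_eq_right (by linarith [not_lt.mp hup])
      rw [hmax]
      simp only [mul_zero, zero_mul]
      have hεi : 0 < ε⁻¹ := inv_pos.mpr hε
      have hNn : (0 : ℝ) ≤ N := Nat.cast_nonneg N
      positivity
  set Up : ℝ := ∑ r ∈ R, κ r * mon r.1 * max (h r.2 - h r.1) 0 with hUpdef
  have hUpsum : Up * exp B ≤ (R.card : ℝ) * (ε⁻¹ * ε⁻¹ * N * Dn) := by
    rw [hUpdef, Finset.sum_mul]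
    calc ∑ r ∈ R, κ r * mon r.1 * max (h r.2 - h r.1) 0 * exp B
        ≤ ∑ _r ∈ R, (ε⁻¹ * ε⁻¹ * N * Dn) := Finset.sum_le_sum hUp
      _ = (R.card : ℝ) * (ε⁻¹ * ε⁻¹ * N * Dn) := by
        rw [Finset.sum_const, nsmul_eq_mul]
  have hUp0 : 0 ≤ Up := by
    apply Finset.sum_nonneg
    intro e _
    have := hκpos e
    have := hmon e.1
    have : 0 ≤ max (h e.2 - h e.1) 0 := le_max_right _ _
    positivity
  have hUpDn : 2 * Up ≤ Dn := by
    have h1 : Up * A ≤ Up * exp B := mul_le_mul_of_nonneg_left hexpB hUp0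
    have h2 : Up * A ≤ (R.card : ℝ) * (ε⁻¹ * ε⁻¹ * N * Dn) := h1.trans hUpsum
    have h3 : (R.card : ℝ) * (ε⁻¹ * ε⁻¹ * N * Dn) = (A - 1) / 2 * Dn := by
      rw [hA]; ring
    rw [h3] at h2
    by_contra hcon
    push Not at hcon
    nlinarith
  have htotal : ∑ r ∈ R, κ r * mon r.1 * (h r.2 - h r.1) = Up - Dn := by
    rw [hUpdef, hDn, ← Finset.sum_sub_distrib]
    apply Finset.sum_congr rfl
    intro r _
    have : h r.2 - h r.1 = max (h r.2 - h r.1) 0 - max (h r.1 - h r.2) 0 := by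
      rcases le_total (h r.1) (h r.2) with hle | hle
      · rw [max_eq_left (by linarith), max_eq_right (by linarith)]; ring
      · rw [max_eq_right (by linarith), max_eq_left (by linarith)]; ring
    linear_combination (κ r * mon r.1) * this
  have hsingle : κ e * mon e.1 * max (h e.1 - h e.2) 0 ≤ Dn :=
    Finset.single_le_sum (f := fun e => κ e * mon e.1 * max (h e.1 - h e.2) 0)
      (fun e _ => by
        have := hκpos e
        have := hmon e.1
        have : 0 ≤ max (h e.1 - h e.2) 0 := le_max_right _ _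
        positivity) he
  have hlow : ε * mon e.1 * max (h e.1 - h e.2) 0 ≤ κ e * mon e.1 * max (h e.1 - h e.2) 0 := by
    have h0 : 0 ≤ max (h e.1 - h e.2) 0 := le_max_right _ _
    apply mul_le_mul_of_nonneg_right _ h0
    exact mul_le_mul_of_nonneg_right (hκ e).1 (hmon _).le
  rw [htotal]
  linarith

lemma exists_down_of_reach {R : Finset (Cx d × Cx d)} {h : Cx d → ℝ} {b a : Cx d}
    (hr : Reach R b a) (hlt : h a < h b) : ∃ e ∈ R, h e.2 < h e.1 := by
  induction hr using Relation.ReflTransGen.head_induction_on with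
  | refl => exact absurd hlt (lt_irrefl _)
  | @head b c hbc _ ih =>
    by_cases hc : h c < h b
    · exact ⟨(b, c), hbc, hc⟩
    · exact ih (lt_of_lt_of_le hlt (not_lt.mp hc))

/-- If `h` is not constant on a reaction, then some reaction goes strictly down. -/
lemma exists_down {R : Finset (Cx d × Cx d)} (hWR : WeaklyReversible R) {h : Cx d → ℝ}
    {r : Cx d × Cx d} (hr : r ∈ R) (hne : h r.2 ≠ h r.1) : ∃ e ∈ R, h e.2 < h e.1 := by
  rcases lt_or_gt_of_ne hne with hlt | hlt
  · exact ⟨r, hr, hlt⟩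
  · exact exists_down_of_reach (hWR r hr) hlt

lemma mono_ge {x : Fin d → ℝ} {δ : ℝ} (hδ0 : 0 < δ) (hx : ∀ i, δ ≤ x i) (y : Cx d) :
    δ ^ (∑ i, y i) ≤ mono x y := by
  unfold mono
  rw [← Finset.prod_pow_eq_pow_sum]
  exact Finset.prod_le_prod (fun i _ => (pow_pos hδ0 _).le)
    (fun i _ => pow_le_pow_left₀ hδ0.le (hx i) _)

/-- The total degree bound of the source complexes. -/
def Dmax (R : Finset (Cx d × Cx d)) : ℕ := R.sup (fun r => ∑ i, r.1 i)

lemma mono_ge_Dmax {R : Finset (Cx d × Cx d)} {x : Fin d → ℝ} {δ : ℝ} (hδ0 : 0 < δ)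
    (hδ1 : δ ≤ 1) (hx : ∀ i, δ ≤ x i) {r : Cx d × Cx d} (hr : r ∈ R) :
    δ ^ (Dmax R) ≤ mono x r.1 := by
  have h1 : ∑ i, r.1 i ≤ Dmax R := Finset.le_sup (f := fun r : Cx d × Cx d => ∑ i, r.1 i) hr
  exact (pow_le_pow_of_le_one hδ0.le hδ1 h1).trans (mono_ge hδ0 hx r.1)

/-- The value of the linear form `g` on a complex. -/
noncomputable def hOf (g : Fin d → ℝ) (c : Cx d) : ℝ := ∑ i, (c i : ℝ) * g i

lemma dot_diffv (s a : Cx d) (g : Fin d → ℝ) : dot (diffv s a) g = hOf g s - hOf g a := by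
  unfold dot hOf diffv
  rw [← Finset.sum_sub_distrib]
  exact Finset.sum_congr rfl (fun i _ => by ring)

lemma diffv_comm_dot (s a : Cx d) (g : Fin d → ℝ) :
    dot (diffv a s) g = - dot (diffv s a) g := by
  rw [dot_diffv, dot_diffv]; ring

/-- The flux bound for a normal vector `g`: if every direction on which `g` is positive has
a value at least `B` at `log x`, then each downward edge gives a definite negative amount. -/
lemma flux_normal {R : Finset (Cx d × Cx d)} {ε B : ℝ}
    (hflux : ∀ (h mon : Cx d → ℝ) (κ : Cx d × Cx d → ℝ),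
      (∀ c, 0 < mon c) →
      (∀ s a, Reach R s a → h a < h s → exp B * mon a ≤ mon s) →
      (∀ r, ε ≤ κ r ∧ κ r ≤ ε⁻¹) →
      ∀ e ∈ R, ∑ r ∈ R, κ r * mon r.1 * (h r.2 - h r.1)
        ≤ -(ε * mon e.1 * max (h e.1 - h e.2) 0) / 2)
    {g x : Fin d → ℝ} {κ : Cx d × Cx d → ℝ} (hx : ∀ i, 0 < x i)
    (hκ : ∀ r, ε ≤ κ r ∧ κ r ≤ ε⁻¹)
    (hg : ∀ w' ∈ dirs R, 0 < dot w' g → B ≤ dot w' (lv x)) {e : Cx d × Cx d} (he : e ∈ R) :
    dot g (massAction R κ x) ≤ -(ε * mono x e.1 * max (hOf g e.1 - hOf g e.2) 0) / 2 := by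
  rw [dot_massAction]
  refine hflux (hOf g) (fun c => mono x c) κ (fun c => mono_pos hx c) ?_ hκ e he
  intro s a hreach hlt
  have hsa : s ≠ a := by
    rintro rfl
    exact lt_irrefl _ hlt
  have hmem : diffv s a ∈ dirs R := mem_dirs hreach hsa
  have hpos : 0 < dot (diffv s a) g := by
    rw [dot_diffv]; linarith
  have h1 := hg _ hmem hpos
  rw [mono_eq_exp hx, mono_eq_exp hx, ← exp_add]
  apply exp_le_exp.mpr
  have h3 : dot (diffv s a) (lv x)
      = (∑ i, (s i : ℝ) * log (x i)) - (∑ i, (a i : ℝ) * log (x i)) := by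
    unfold dot lv diffv
    rw [← Finset.sum_sub_distrib]
    apply Finset.sum_congr rfl
    intro i _
    ring
  linarith

/-- Reversing an edge: the difference of source and target of a reaction is a direction,
unless the reaction is trivial. -/
lemma diffv_edge_mem {R : Finset (Cx d × Cx d)} {e : Cx d × Cx d} (he : e ∈ R) (hne : e.1 ≠ e.2) :
    diffv e.1 e.2 ∈ dirs R :=
  mem_dirs (Relation.ReflTransGen.single (by simpa using he)) hne

lemma hOf_ne_of_lt {g : Fin d → ℝ} {e : Cx d × Cx d} (h : hOf g e.2 < hOf g e.1) : e.1 ≠ e.2 := by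
  intro h2
  rw [h2] at h
  exact lt_irrefl _ h

/-- Some reaction is not parallel to a given direction. -/
lemma exists_reaction_nonpar {R : Finset (Cx d × Cx d)}
    (hdim : Module.finrank ℝ (stoich R) = 2) {w : Fin d → ℝ} (hw : w ≠ 0) :
    ∃ r ∈ R, NonPar w (rxnVec r) := by
  classical
  by_contra hcon
  push Not at hcon
  have hle : stoich R ≤ Submodule.span ℝ {w} := by
    unfold stoich
    rw [Submodule.span_le]
    rintro v ⟨r, hr, rfl⟩
    have hpar := hcon r (Finset.mem_coe.mp hr)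
    unfold NonPar at hpar
    push Not at hpar
    obtain ⟨i, hi⟩ : ∃ i, w i ≠ 0 := by
      by_contra h
      push Not at h
      exact hw (funext h)
    rw [SetLike.mem_coe, Submodule.mem_span_singleton]
    refine ⟨rxnVec r i / w i, ?_⟩
    funext j
    have h1 := hpar i j
    simp only [Pi.smul_apply, smul_eq_mul]
    field_simp
    linarith
  have hfr := Submodule.finrank_mono hle
  rw [hdim] at hfr
  have h2 : Module.finrank ℝ (Submodule.span ℝ {w}) = 1 := finrank_span_singleton hw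
  omega

/-- The symmetry of the directions for weakly reversible networks. -/
lemma reach_symm {R : Finset (Cx d × Cx d)} (hWR : WeaklyReversible R) {a b : Cx d}
    (h : Reach R a b) : Reach R b a := by
  induction h using Relation.ReflTransGen.head_induction_on with
  | refl => exact Relation.ReflTransGen.refl
  | @head b c hbc _ ih =>
    exact ih.trans (hWR (b, c) hbc)

lemma dirs_neg {R : Finset (Cx d × Cx d)} (hWR : WeaklyReversible R) {w : Fin d → ℝ}
    (hw : w ∈ dirs R) : (fun i => - w i) ∈ dirs R := by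
  obtain ⟨s, a, hne, hr, rfl⟩ := dirs_spec hw
  have h1 : (fun i => - diffv s a i) = diffv a s := by
    funext i; simp [diffv]
  rw [h1]
  exact mem_dirs (reach_symm hWR hr) (Ne.symm hne)

/-- The directions are uniformly bounded. -/
lemma dirs_bound (R : Finset (Cx d × Cx d)) :
    ∃ N : ℝ, 1 ≤ N ∧ ∀ u ∈ dirs R, ∀ i, |u i| ≤ N := by
  refine ⟨(∑ u ∈ dirs R, ∑ i, |u i|) + 1, ?_, ?_⟩
  · have : 0 ≤ ∑ u ∈ dirs R, ∑ i, |u i| :=
      Finset.sum_nonneg (fun v _ => Finset.sum_nonneg (fun j _ => abs_nonneg _))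
    linarith
  · intro u hu i
    have h1 : |u i| ≤ ∑ i, |u i| :=
      Finset.single_le_sum (f := fun i => |u i|) (fun j _ => abs_nonneg _) (Finset.mem_univ i)
    have h2 : ∑ i, |u i| ≤ ∑ u ∈ dirs R, ∑ i, |u i| :=
      Finset.single_le_sum (f := fun u : Fin d → ℝ => ∑ i, |u i|)
        (fun v _ => Finset.sum_nonneg (fun j _ => abs_nonneg _)) hu
    linarith

end Vale.Agent.Lib.P072
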