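import Vale.Agent.Lib.P072.Descent

/-! Geometry of a stoichiometric class of dimension two: the two sided core estimate, the
critical pairs of coordinates and their vertices, and the tilted entropies near a vertex. -/

namespace Vale.Agent.Lib.P072

open Finset Real Set Filter Topology

variable {d : ℕ}

/-- `x` lies in the affine stoichiometric class of `c`. -/
def InClass (R : Finset (Cx d × Cx d)) (c x : Fin d → ℝ) : Prop :=
  (fun i => x i - c i) ∈ stoich R

lemma exists_pos_lb {α : Type*} (s : Finset α) (f : α → ℝ) (h : ∀ a ∈ s, 0 < f a) :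
    ∃ ε : ℝ, 0 < ε ∧ ε ≤ 1 ∧ ∀ a ∈ s, ε ≤ f a := by
  by_cases hs : s.Nonempty
  · obtain ⟨a₀, ha₀, hmin⟩ := Finset.exists_min_image s f hs
    refine ⟨min (f a₀) 1, lt_min (h a₀ ha₀) one_pos, min_le_right _ _, fun a ha => ?_⟩
    exact (min_le_left _ _).trans (hmin a ha)
  · refine ⟨1, one_pos, le_refl _, fun a ha => ?_⟩
    exact absurd ⟨a, ha⟩ hs

lemma inClass_add_smul {R : Finset (Cx d × Cx d)} {c x w : Fin d → ℝ} (hx : InClass R c x)
    (hw : w ∈ stoich R) (s : ℝ) : InClass R c (fun i => x i + s * w i) := by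
  unfold InClass at hx ⊢
  have h3 : (fun i => x i + s * w i - c i) = (fun i => x i - c i) + s • w := by
    funext i
    simp only [Pi.add_apply, Pi.smul_apply, smul_eq_mul]
    ring
  rw [h3]
  exact Submodule.add_mem _ hx (Submodule.smul_mem _ _ hw)

lemma inClass_sub {R : Finset (Cx d × Cx d)} {c x y : Fin d → ℝ} (hx : InClass R c x)
    (hy : InClass R c y) : (fun i => x i - y i) ∈ stoich R := by
  unfold InClass at hx hy
  have h3 : (fun i => x i - y i) = (fun i => x i - c i) - (fun i => y i - c i) := by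
    funext i
    simp only [Pi.sub_apply]
    ring
  rw [h3]
  exact Submodule.sub_mem _ hx hy

/-- Cramer's rule for the coefficients of a point of a plane. -/
lemma cramer_bound (c w w' : Fin d → ℝ) (hnp : NonPar w w') :
    ∃ C₁ : ℝ, 0 ≤ C₁ ∧ ∀ (y : Fin d → ℝ) (a a' D : ℝ), (∀ i, y i - c i = a * w i + a' * w' i) →
      (∀ j, |y j - c j| ≤ D) → 0 ≤ D → |a| ≤ C₁ * D ∧ |a'| ≤ C₁ * D := by
  obtain ⟨i₀, j₀, hΔ⟩ := hnp
  set Δ := w i₀ * w' j₀ - w j₀ * w' i₀ with hΔdef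
  have hΔabs : 0 < |Δ| := abs_pos.mpr hΔ
  refine ⟨(|w i₀| + |w j₀| + |w' i₀| + |w' j₀|) / |Δ|, by positivity, ?_⟩
  intro y a a' D hdec hvle hD0
  have ha'Δ : a' * Δ = w i₀ * (y j₀ - c j₀) - w j₀ * (y i₀ - c i₀) := by
    rw [hdec j₀, hdec i₀, hΔdef]; ring
  have haΔ : a * Δ = w' j₀ * (y i₀ - c i₀) - w' i₀ * (y j₀ - c j₀) := by
    rw [hdec j₀, hdec i₀, hΔdef]; ring
  have hgen : ∀ p q r s : ℝ, |p| + |q| ≤ |w i₀| + |w j₀| + |w' i₀| + |w' j₀| →
      ∀ t : ℝ, t * Δ = p * r - q * s → |r| ≤ D → |s| ≤ D →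
      |t| ≤ (|w i₀| + |w j₀| + |w' i₀| + |w' j₀|) / |Δ| * D := by
    intro p q r s hpq t ht hr hs
    rw [div_mul_eq_mul_div, le_div_iff₀ hΔabs, ← abs_mul, ht]
    calc |p * r - q * s| ≤ |p * r| + |q * s| := abs_sub _ _
      _ = |p| * |r| + |q| * |s| := by rw [abs_mul, abs_mul]
      _ ≤ |p| * D + |q| * D :=
          add_le_add (mul_le_mul_of_nonneg_left hr (abs_nonneg _))
            (mul_le_mul_of_nonneg_left hs (abs_nonneg _))
      _ = (|p| + |q|) * D := by ring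
      _ ≤ _ := mul_le_mul_of_nonneg_right hpq hD0
  constructor
  · exact hgen (w' j₀) (w' i₀) (y i₀ - c i₀) (y j₀ - c j₀)
      (by linarith [abs_nonneg (w i₀), abs_nonneg (w j₀)]) a haΔ (hvle _) (hvle _)
  · exact hgen (w i₀) (w j₀) (y j₀ - c j₀) (y i₀ - c i₀)
      (by linarith [abs_nonneg (w' i₀), abs_nonneg (w' j₀)]) a' ha'Δ (hvle _) (hvle _)

lemma sum_log_lower {c y : Fin d → ℝ} (hc : ∀ i, 0 < c i) (hy : ∀ i, 0 < y i) {D : ℝ}
    (hvle : ∀ j, |y j - c j| ≤ D) (hD0 : 0 ≤ D) (l : Fin d) :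
    -(D * ∑ j, |log (c j)|) ≤ ∑ j ∈ Finset.univ.erase l, (y j - c j) * log (y j) := by
  have hterm : ∀ j, -(D * |log (c j)|) ≤ (y j - c j) * log (y j) := by
    intro j
    have h1 : (y j - c j) * log (c j) ≤ (y j - c j) * log (y j) := by
      rcases le_total (c j) (y j) with hle | hle
      · exact mul_le_mul_of_nonneg_left (log_le_log (hc j) hle) (by linarith)
      · exact mul_le_mul_of_nonpos_left (log_le_log (hy j) hle) (by linarith)
    have h2 : -(D * |log (c j)|) ≤ (y j - c j) * log (c j) := by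
      have h3 : |(y j - c j) * log (c j)| ≤ D * |log (c j)| := by
        rw [abs_mul]
        exact mul_le_mul_of_nonneg_right (hvle j) (abs_nonneg _)
      linarith [neg_abs_le ((y j - c j) * log (c j))]
    linarith
  have h1 : ∑ j ∈ Finset.univ.erase l, -(D * |log (c j)|)
      ≤ ∑ j ∈ Finset.univ.erase l, (y j - c j) * log (y j) :=
    Finset.sum_le_sum (fun j _ => hterm j)
  have h2 : ∑ j ∈ Finset.univ.erase l, |log (c j)| ≤ ∑ j, |log (c j)| := by
    apply Finset.sum_le_sum_of_subset_of_nonneg (Finset.erase_subset _ _)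
    intro j _ _
    exact abs_nonneg _
  rw [Finset.sum_neg_distrib, ← Finset.mul_sum] at h1
  have h3 := mul_le_mul_of_nonneg_left h2 hD0
  linarith

lemma sum_log_upper {c y w w' : Fin d → ℝ} {a a' A C₁ D : ℝ}
    (hdec : ∀ i, y i - c i = a * w i + a' * w' i) (hb : |dot w (lv y)| ≤ A)
    (hb' : |dot w' (lv y)| ≤ A) (ha : |a| ≤ C₁ * D) (ha' : |a'| ≤ C₁ * D) (hC : 0 ≤ C₁)
    (hD : 0 ≤ D) (hA : 0 ≤ A) :
    ∑ j, (y j - c j) * log (y j) ≤ 2 * C₁ * A * D := by
  have hid : ∑ j, (y j - c j) * log (y j) = a * dot w (lv y) + a' * dot w' (lv y) := by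
    unfold dot lv
    rw [Finset.mul_sum, Finset.mul_sum, ← Finset.sum_add_distrib]
    apply Finset.sum_congr rfl
    intro j _
    rw [hdec j]; ring
  rw [hid]
  have h1 : a * dot w (lv y) ≤ (C₁ * D) * A := by
    calc a * dot w (lv y) ≤ |a * dot w (lv y)| := le_abs_self _
      _ = |a| * |dot w (lv y)| := abs_mul _ _
      _ ≤ (C₁ * D) * A := mul_le_mul ha hb (abs_nonneg _) (by positivity)
  have h2 : a' * dot w' (lv y) ≤ (C₁ * D) * A := by
    calc a' * dot w' (lv y) ≤ |a' * dot w' (lv y)| := le_abs_self _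
      _ = |a'| * |dot w' (lv y)| := abs_mul _ _
      _ ≤ (C₁ * D) * A := mul_le_mul ha' hb' (abs_nonneg _) (by positivity)
  nlinarith

/-- The upper half of the two sided estimate. -/
lemma core_upper (c w w' : Fin d → ℝ) (hc : ∀ i, 0 < c i) (hnp : NonPar w w') (A : ℝ)
    (hA : 0 ≤ A) : ∃ D₀ E : ℝ, 0 ≤ D₀ ∧ 0 ≤ E ∧ ∀ (y : Fin d → ℝ) (a a' : ℝ), (∀ i, 0 < y i) →
      (∀ i, y i - c i = a * w i + a' * w' i) → |dot w (lv y)| ≤ A → |dot w' (lv y)| ≤ A →
      (∀ j, |y j - c j| ≤ D₀) ∧ ∑ j, (y j - c j) * log (y j) ≤ E * D₀ := by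
  classical
  obtain ⟨C₁, hC₁0, hcr⟩ := cramer_bound c w w' hnp
  set K : ℝ := ∑ j, |log (c j)| with hK
  have hK0 : 0 ≤ K := Finset.sum_nonneg (fun j _ => abs_nonneg _)
  set S₀ : ℝ := ∑ j, c j with hS₀
  have hS₀0 : 0 ≤ S₀ := Finset.sum_nonneg (fun j _ => (hc j).le)
  have hcle : ∀ i, c i ≤ S₀ := fun i =>
    Finset.single_le_sum (f := c) (fun j _ => (hc j).le) (Finset.mem_univ i)
  set E : ℝ := 2 * C₁ * A with hE
  have hE0 : 0 ≤ E := by positivity
  set D₀ : ℝ := S₀ + exp (E + K) with hD₀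
  have hD₀0 : 0 ≤ D₀ := by positivity
  refine ⟨D₀, E, hD₀0, hE0, ?_⟩
  intro y a a' hy hdec hb hb'
  -- the maximal coordinate difference
  have hmain : ∀ j, |y j - c j| ≤ D₀ := by
    intro k
    have hfin : (Finset.univ : Finset (Fin d)).Nonempty := ⟨k, Finset.mem_univ k⟩
    obtain ⟨m, -, hm⟩ := Finset.exists_max_image Finset.univ (fun j => |y j - c j|) hfin
    set D := |y m - c m| with hD
    have hvle : ∀ j, |y j - c j| ≤ D := fun j => hm j (Finset.mem_univ j)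
    have hD0 : 0 ≤ D := abs_nonneg _
    obtain ⟨ha, ha'⟩ := hcr y a a' D hdec hvle hD0
    have hup := sum_log_upper hdec hb hb' ha ha' hC₁0 hD0 hA
    have hrest := sum_log_lower hc hy hvle hD0 m
    have hsplit : ∑ j, (y j - c j) * log (y j)
        = (y m - c m) * log (y m) + ∑ j ∈ Finset.univ.erase m, (y j - c j) * log (y j) :=
      (Finset.add_sum_erase _ _ (Finset.mem_univ m)).symm
    refine (hvle k).trans ?_
    by_contra hcon
    push Not at hcon
    have hexp := exp_pos (E + K)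
    have hDpos : 0 < D := by linarith
    have hvm : y m - c m = D := by
      rcases le_total 0 (y m - c m) with hs | hs
      · rw [hD, abs_of_nonneg hs]
      · exfalso
        have h1 : D = c m - y m := by
          rw [hD, abs_of_nonpos hs]; ring
        have h2 := hcle m
        have h3 := hy m
        linarith
    have hym : exp (E + K) < y m := by
      have := hc m
      linarith
    have hlog : E + K < log (y m) := by
      rw [← log_exp (E + K)]
      exact log_lt_log hexp hym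
    rw [hvm] at hsplit
    have h4 : D * (E + K) < D * log (y m) := mul_lt_mul_of_pos_left hlog hDpos
    nlinarith
  refine ⟨hmain, ?_⟩
  obtain ⟨ha, ha'⟩ := hcr y a a' D₀ hdec hmain hD₀0
  exact sum_log_upper hdec hb hb' ha ha' hC₁0 hD₀0 hA

/-- The two sided estimate: a point of the plane through `c` spanned by two independent
directions, at which both directions have bounded values on `log`, is in a compact set. -/
lemma core_bounds (c w w' : Fin d → ℝ) (hc : ∀ i, 0 < c i) (hnp : NonPar w w') (A : ℝ)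
    (hA : 0 ≤ A) : ∃ ε₀ : ℝ, 0 < ε₀ ∧ ∀ (y : Fin d → ℝ) (a a' : ℝ), (∀ i, 0 < y i) →
      (∀ i, y i - c i = a * w i + a' * w' i) → |dot w (lv y)| ≤ A → |dot w' (lv y)| ≤ A →
      ∀ k, ε₀ ≤ y k := by
  classical
  obtain ⟨D₀, E, hD₀0, hE0, hup⟩ := core_upper c w w' hc hnp A hA
  set K : ℝ := ∑ j, |log (c j)| with hK
  have hK0 : 0 ≤ K := Finset.sum_nonneg (fun j _ => abs_nonneg _)
  have hpos : ∀ k, 0 < min (min (c k / 2) 1) (exp (-(2 / c k * (D₀ * (E + K))))) := by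
    intro k
    exact lt_min (lt_min (by linarith [hc k]) one_pos) (exp_pos _)
  obtain ⟨ε₀, hε₀, -, hε₀le⟩ := exists_pos_lb Finset.univ
    (fun k => min (min (c k / 2) 1) (exp (-(2 / c k * (D₀ * (E + K)))))) (fun k _ => hpos k)
  refine ⟨ε₀, hε₀, ?_⟩
  intro y a a' hy hdec hb hb' k
  obtain ⟨hvle, hsum⟩ := hup y a a' hy hdec hb hb'
  have hrest := sum_log_lower hc hy hvle hD₀0 k
  have hsplit : ∑ j, (y j - c j) * log (y j)
      = (y k - c k) * log (y k) + ∑ j ∈ Finset.univ.erase k, (y j - c j) * log (y j) :=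
    (Finset.add_sum_erase _ _ (Finset.mem_univ k)).symm
  have hmin := hε₀le k (Finset.mem_univ k)
  by_contra hcon
  push Not at hcon
  have hyk : y k < ε₀ := hcon
  have h1 : y k < c k / 2 :=
    lt_of_lt_of_le hyk (hmin.trans ((min_le_left _ _).trans (min_le_left _ _)))
  have h2 : y k < 1 :=
    lt_of_lt_of_le hyk (hmin.trans ((min_le_left _ _).trans (min_le_right _ _)))
  have h3 : y k < exp (-(2 / c k * (D₀ * (E + K)))) :=
    lt_of_lt_of_le hyk (hmin.trans (min_le_right _ _))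
  have hlogneg : log (y k) < 0 := log_neg (hy k) h2
  have h4 : log (y k) < -(2 / c k * (D₀ * (E + K))) := by
    rw [← log_exp (-(2 / c k * (D₀ * (E + K))))]
    exact log_lt_log (hy k) h3
  have hck := hc k
  have h5 : (c k / 2) * (-log (y k)) ≤ (y k - c k) * log (y k) := by
    have : (y k - c k) * log (y k) = (c k - y k) * (-log (y k)) := by ring
    rw [this]
    exact mul_le_mul_of_nonneg_right (by linarith) (by linarith)
  have h8 : (c k / 2) * (-log (y k)) ≤ D₀ * (E + K) := by nlinarith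
  have h10 : 2 / c k * (D₀ * (E + K)) < -log (y k) := by linarith
  have h11 : (c k / 2) * (2 / c k * (D₀ * (E + K))) = D₀ * (E + K) := by
    generalize D₀ * (E + K) = Z
    field_simp
  have h12 : (c k / 2) * (2 / c k * (D₀ * (E + K))) < (c k / 2) * (-log (y k)) :=
    mul_lt_mul_of_pos_left h10 (by linarith)
  linarith

/-- A uniform version of `core_bounds` over the set of directions. -/
lemma core_uniform {R : Finset (Cx d × Cx d)} (hdim : Module.finrank ℝ (stoich R) = 2)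
    {c : Fin d → ℝ} (hc : ∀ i, 0 < c i) (A : ℝ) (hA : 0 ≤ A) :
    ∃ ε₀ : ℝ, 0 < ε₀ ∧ ∀ u ∈ dirs R, ∀ u' ∈ dirs R, NonPar u u' →
      ∀ y : Fin d → ℝ, (∀ i, 0 < y i) → InClass R c y → |dot u (lv y)| ≤ A → |dot u' (lv y)| ≤ A →
      ∀ k, ε₀ ≤ y k := by
  classical
  have key : ∀ p : (Fin d → ℝ) × (Fin d → ℝ), ∃ e : ℝ, 0 < e ∧ (NonPar p.1 p.2 →
      ∀ (y : Fin d → ℝ) (a a' : ℝ), (∀ i, 0 < y i) →
      (∀ i, y i - c i = a * p.1 i + a' * p.2 i) → |dot p.1 (lv y)| ≤ A → |dot p.2 (lv y)| ≤ A →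
      ∀ k, e ≤ y k) := by
    intro p
    by_cases hp : NonPar p.1 p.2
    · obtain ⟨e, he, h⟩ := core_bounds c p.1 p.2 hc hp A hA
      exact ⟨e, he, fun _ => h⟩
    · exact ⟨1, one_pos, fun h => absurd h hp⟩
  choose f hf0 hf using key
  obtain ⟨ε₀, hε₀, -, hle⟩ := exists_pos_lb (dirs R ×ˢ dirs R) f (fun p _ => hf0 p)
  refine ⟨ε₀, hε₀, ?_⟩
  intro u hu u' hu' hnp y hy hcl hb hb' k
  obtain ⟨a, a', hdec⟩ := decompose hdim (dirs_mem_stoich hu) (dirs_mem_stoich hu') hnp hcl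
  have h1 := hf (u, u') hnp y a a' hy hdec hb hb' k
  have h2 := hle (u, u') (Finset.mem_product.mpr ⟨hu, hu'⟩)
  exact h2.trans h1

/-- `w'` decreases the coordinate `i` and increases the coordinate `m`. -/
def Crit (w' : Fin d → ℝ) (i m : Fin d) : Prop := w' i < 0 ∧ 0 < w' m

/-- The case of dependent coordinates on the class. -/
lemma pair_dep {R : Finset (Cx d × Cx d)} (hdim : Module.finrank ℝ (stoich R) = 2)
    {w₁ w₂ w' : Fin d → ℝ} (hw₁ : w₁ ∈ stoich R) (hw₂ : w₂ ∈ stoich R) (hnp : NonPar w₁ w₂)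
    (hw' : w' ∈ stoich R) {i m : Fin d} (hcr : Crit w' i m)
    (hD : w₁ i * w₂ m - w₁ m * w₂ i = 0) {c : Fin d → ℝ} (hc : ∀ i, 0 < c i) :
    ∃ σ : ℝ, 0 < σ ∧ ∀ x : Fin d → ℝ, (∀ k, 0 < x k) → InClass R c x → σ ≤ x i + x m := by
  obtain ⟨e, e', he⟩ := decompose hdim hw₁ hw₂ hnp hw'
  have hf : ∀ u ∈ stoich R, w' m * u i - w' i * u m = 0 := by
    intro u hu
    obtain ⟨a, a', hu'⟩ := decompose hdim hw₁ hw₂ hnp hu
    rw [he m, he i, hu' i, hu' m]
    linear_combination (e' * a - e * a') * hD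
  have hdenom : 0 < w' m - w' i := by linarith [hcr.1, hcr.2]
  have hci := hc i
  have hcm := hc m
  have hF : 0 < w' m * c i - w' i * c m := by
    have h1 := mul_pos hcr.2 hci
    have h2 := mul_pos (neg_pos.mpr hcr.1) hcm
    nlinarith
  refine ⟨(w' m * c i - w' i * c m) / (w' m - w' i), div_pos hF hdenom, ?_⟩
  intro x hx hcl
  have h1 : w' m * (x i - c i) - w' i * (x m - c m) = 0 := hf _ hcl
  rw [div_le_iff₀ hdenom]
  have h2 := mul_pos hcr.2 (hx m)
  have h3 := mul_pos (neg_pos.mpr hcr.1) (hx i)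
  nlinarith

/-- The point of the class with two prescribed vanishing coordinates. -/
lemma pair_indep {R : Finset (Cx d × Cx d)} (hdim : Module.finrank ℝ (stoich R) = 2)
    {w₁ w₂ : Fin d → ℝ} (hw₁ : w₁ ∈ stoich R) (hw₂ : w₂ ∈ stoich R) (hnp : NonPar w₁ w₂)
    {i m : Fin d} (hD : w₁ i * w₂ m - w₁ m * w₂ i ≠ 0) {N : ℝ} (hN : ∀ k, |w₁ k| ≤ N ∧ |w₂ k| ≤ N)
    (c : Fin d → ℝ) :
    ∃ (V : Fin d → ℝ) (C₁ : ℝ), 0 ≤ C₁ ∧ V i = 0 ∧ V m = 0 ∧ InClass R c V ∧
      ∀ x, InClass R c x → ∀ k, |x k - V k| ≤ C₁ * (|x i| + |x m|) := by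
  set D := w₁ i * w₂ m - w₁ m * w₂ i with hDdef
  set a := (-c i * w₂ m + c m * w₂ i) / D with ha
  set a' := (-w₁ i * c m + w₁ m * c i) / D with ha'
  set V : Fin d → ℝ := fun k => c k + a * w₁ k + a' * w₂ k with hV
  have hVi : V i = 0 := by
    simp only [hV, ha, ha']
    field_simp
    rw [hDdef]; ring
  have hVm : V m = 0 := by
    simp only [hV, ha, ha']
    field_simp
    rw [hDdef]; ring
  have hVcl : InClass R c V := by
    unfold InClass
    have : (fun k => V k - c k) = a • w₁ + a' • w₂ := by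
      funext k
      simp only [hV, Pi.add_apply, Pi.smul_apply, smul_eq_mul]
      ring
    rw [this]
    exact Submodule.add_mem _ (Submodule.smul_mem _ _ hw₁) (Submodule.smul_mem _ _ hw₂)
  have hDabs : 0 < |D| := abs_pos.mpr hD
  set T := (|w₁ i| + |w₁ m| + |w₂ i| + |w₂ m|) / |D| with hT
  have hT0 : 0 ≤ T := by positivity
  have hN0 : 0 ≤ N := (abs_nonneg _).trans (hN i).1
  refine ⟨V, T * (2 * N), by positivity, hVi, hVm, hVcl, ?_⟩
  intro x hx k
  obtain ⟨b, b', hdec⟩ := decompose hdim hw₁ hw₂ hnp (inClass_sub hx hVcl)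
  have h1 := hdec i
  have h2 := hdec m
  rw [hVi] at h1
  rw [hVm] at h2
  have hbD : b * D = x i * w₂ m - x m * w₂ i := by
    rw [hDdef]
    have h3 : x i = b * w₁ i + b' * w₂ i := by linarith
    have h4 : x m = b * w₁ m + b' * w₂ m := by linarith
    rw [h3, h4]; ring
  have hb'D : b' * D = w₁ i * x m - w₁ m * x i := by
    rw [hDdef]
    have h3 : x i = b * w₁ i + b' * w₂ i := by linarith
    have h4 : x m = b * w₁ m + b' * w₂ m := by linarith
    rw [h3, h4]; ring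
  have hS0 : 0 ≤ |x i| + |x m| := by positivity
  have hgen : ∀ p q r s t : ℝ, |p| + |q| ≤ |w₁ i| + |w₁ m| + |w₂ i| + |w₂ m| →
      t * D = p * r - q * s → (|r| = |x i| ∧ |s| = |x m| ∨ |r| = |x m| ∧ |s| = |x i|) →
      |t| ≤ T * (|x i| + |x m|) := by
    intro p q r s t hpq ht hrs
    rw [hT, div_mul_eq_mul_div, le_div_iff₀ hDabs, ← abs_mul, ht]
    have hp := abs_nonneg p
    have hq := abs_nonneg q
    have hi := abs_nonneg (x i)
    have hm := abs_nonneg (x m)
    have key : |p| * |r| + |q| * |s| ≤ (|p| + |q|) * (|x i| + |x m|) := by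
      rcases hrs with ⟨h5, h6⟩ | ⟨h5, h6⟩ <;> rw [h5, h6] <;> nlinarith [mul_nonneg hp hi, mul_nonneg hp hm,
        mul_nonneg hq hi, mul_nonneg hq hm]
    calc |p * r - q * s| ≤ |p * r| + |q * s| := abs_sub _ _
      _ = |p| * |r| + |q| * |s| := by rw [abs_mul, abs_mul]
      _ ≤ (|p| + |q|) * (|x i| + |x m|) := key
      _ ≤ _ := mul_le_mul_of_nonneg_right hpq hS0
  have hb : |b| ≤ T * (|x i| + |x m|) := by
    apply hgen (w₂ m) (w₂ i) (x i) (x m) b _ (by rw [hbD]; ring) (Or.inl ⟨rfl, rfl⟩)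
    linarith [abs_nonneg (w₁ i), abs_nonneg (w₁ m)]
  have hb' : |b'| ≤ T * (|x i| + |x m|) := by
    have h6 : b' * D = w₁ i * x m - w₁ m * x i := hb'D
    apply hgen (w₁ i) (w₁ m) (x m) (x i) b' _ h6 (Or.inr ⟨rfl, rfl⟩)
    linarith [abs_nonneg (w₂ i), abs_nonneg (w₂ m)]
  rw [hdec k]
  have hZ0 : 0 ≤ T * (|x i| + |x m|) := by positivity
  calc |b * w₁ k + b' * w₂ k| ≤ |b * w₁ k| + |b' * w₂ k| := abs_add_le _ _
    _ = |b| * |w₁ k| + |b'| * |w₂ k| := by rw [abs_mul, abs_mul]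
    _ ≤ (T * (|x i| + |x m|)) * N + (T * (|x i| + |x m|)) * N :=
        add_le_add (mul_le_mul hb (hN k).1 (abs_nonneg _) hZ0)
          (mul_le_mul hb' (hN k).2 (abs_nonneg _) hZ0)
    _ = T * (2 * N) * (|x i| + |x m|) := by ring

/-- The dichotomy for a critical pair of coordinates: either the pair cannot become small on the
class, or the class has a vertex where both coordinates vanish. -/
lemma pair_dichotomy {R : Finset (Cx d × Cx d)} (hWR : WeaklyReversible R)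
    (hdim : Module.finrank ℝ (stoich R) = 2) {c : Fin d → ℝ} (hc : ∀ i, 0 < c i) {i m : Fin d}
    {w' : Fin d → ℝ} (hw' : w' ∈ dirs R) (hcr : Crit w' i m) :
    (∃ σ : ℝ, 0 < σ ∧ ∀ x : Fin d → ℝ, (∀ k, 0 < x k) → InClass R c x → σ ≤ x i + x m) ∨
    (∃ (V : Fin d → ℝ) (C₁ : ℝ), 0 ≤ C₁ ∧ (∀ k, 0 ≤ V k) ∧ V i = 0 ∧ V m = 0 ∧ InClass R c V ∧
      ∀ x, InClass R c x → ∀ k, |x k - V k| ≤ C₁ * (|x i| + |x m|)) := by
  obtain ⟨w₁, hw₁, w₂, hw₂, hnp⟩ := exists_nonpar hWR hdim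
  obtain ⟨N, -, hN⟩ := dirs_bound R
  by_cases hD : w₁ i * w₂ m - w₁ m * w₂ i = 0
  · left
    exact pair_dep hdim (dirs_mem_stoich hw₁) (dirs_mem_stoich hw₂) hnp (dirs_mem_stoich hw') hcr
      hD hc
  · obtain ⟨V, C₁, hC₁, hVi, hVm, hVcl, hV⟩ := pair_indep hdim (dirs_mem_stoich hw₁)
      (dirs_mem_stoich hw₂) hnp hD (N := N) (fun k => ⟨hN _ hw₁ k, hN _ hw₂ k⟩) c
    by_cases hneg : ∀ k, 0 ≤ V k
    · right
      exact ⟨V, C₁, hC₁, hneg, hVi, hVm, hVcl, hV⟩
    · left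
      push Not at hneg
      obtain ⟨k₀, hk₀⟩ := hneg
      refine ⟨(-V k₀) / (C₁ + 1), div_pos (by linarith) (by linarith), ?_⟩
      intro x hx hcl
      rw [div_le_iff₀ (by linarith)]
      have h1 := hV x hcl k₀
      rw [abs_of_pos (by linarith [hx k₀] : 0 < x k₀ - V k₀), abs_of_pos (hx i),
        abs_of_pos (hx m)] at h1
      have h2 := hx k₀
      have h3 : 0 ≤ x i + x m := by linarith [hx i, hx m]
      nlinarith

/-- The data of critical pairs of a class. -/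
lemma pairs_data {R : Finset (Cx d × Cx d)} (hWR : WeaklyReversible R)
    (hdim : Module.finrank ℝ (stoich R) = 2) {c : Fin d → ℝ} (hc : ∀ i, 0 < c i) :
    ∃ (J : Finset (Fin d × Fin d)) (V : Fin d × Fin d → Fin d → ℝ) (C₁ σ₀ : ℝ),
      0 ≤ C₁ ∧ 0 < σ₀ ∧
      (∀ j ∈ J, (∀ k, 0 ≤ V j k) ∧ V j j.1 = 0 ∧ V j j.2 = 0 ∧ InClass R c (V j) ∧
        ∀ x, InClass R c x → ∀ k, |x k - V j k| ≤ C₁ * (|x j.1| + |x j.2|)) ∧
      (∀ i m, ∀ w' ∈ dirs R, Crit w' i m → (i, m) ∉ J →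
        ∀ x : Fin d → ℝ, (∀ k, 0 < x k) → InClass R c x → σ₀ ≤ x i + x m) := by
  classical
  set Pp : Fin d × Fin d → Prop := fun p =>
    ∃ σ : ℝ, 0 < σ ∧ ∀ x : Fin d → ℝ, (∀ k, 0 < x k) → InClass R c x → σ ≤ x p.1 + x p.2 with hPp
  set J : Finset (Fin d × Fin d) :=
    Finset.univ.filter (fun p => ¬ Pp p ∧ ∃ w' ∈ dirs R, Crit w' p.1 p.2) with hJ
  have key : ∀ p : Fin d × Fin d, ∃ (V : Fin d → ℝ) (C₁ : ℝ), 0 ≤ C₁ ∧ (p ∈ J →
      (∀ k, 0 ≤ V k) ∧ V p.1 = 0 ∧ V p.2 = 0 ∧ InClass R c V ∧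
      ∀ x, InClass R c x → ∀ k, |x k - V k| ≤ C₁ * (|x p.1| + |x p.2|)) := by
    intro p
    by_cases hp : p ∈ J
    · have hp' := (Finset.mem_filter.mp hp).2
      obtain ⟨w', hw', hcr⟩ := hp'.2
      rcases pair_dichotomy hWR hdim hc hw' hcr with h | ⟨V, C₁, hC₁, h1, h2, h3, h4, h5⟩
      · exact absurd h hp'.1
      · exact ⟨V, C₁, hC₁, fun _ => ⟨h1, h2, h3, h4, h5⟩⟩
    · exact ⟨0, 0, le_refl _, fun h => absurd h hp⟩
  choose Vf Cf hCf hVf using key
  have key2 : ∀ p : Fin d × Fin d, ∃ σ : ℝ, 0 < σ ∧ (Pp p →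
      ∀ x : Fin d → ℝ, (∀ k, 0 < x k) → InClass R c x → σ ≤ x p.1 + x p.2) := by
    intro p
    by_cases hp : Pp p
    · obtain ⟨σ, hσ, h⟩ := hp
      exact ⟨σ, hσ, fun _ => h⟩
    · exact ⟨1, one_pos, fun h => absurd h hp⟩
  choose σf hσf hσf2 using key2
  obtain ⟨σ₀, hσ₀, -, hσ₀le⟩ := exists_pos_lb Finset.univ σf (fun p _ => hσf p)
  refine ⟨J, Vf, ∑ p ∈ J, Cf p, σ₀, Finset.sum_nonneg (fun p _ => hCf p), hσ₀, ?_, ?_⟩
  · intro j hj
    obtain ⟨h1, h2, h3, h4, h5⟩ := hVf j hj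
    refine ⟨h1, h2, h3, h4, fun x hx k => ?_⟩
    have h6 := h5 x hx k
    have h7 : Cf j ≤ ∑ p ∈ J, Cf p :=
      Finset.single_le_sum (f := Cf) (fun p _ => hCf p) hj
    exact h6.trans (mul_le_mul_of_nonneg_right h7 (by positivity))
  · intro i m w' hw' hcr hnot x hx hcl
    have hP : Pp (i, m) := by
      by_contra hnP
      apply hnot
      rw [hJ, Finset.mem_filter]
      exact ⟨Finset.mem_univ _, hnP, w', hw', hcr⟩
    have h1 := hσf2 (i, m) hP x hx hcl
    have h2 := hσ₀le (i, m) (Finset.mem_univ _)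
    exact h2.trans h1

/-! ### Tilted entropies near a vertex -/

/-- The tilt for the pair `j`. -/
noncomputable def tq (M : ℝ) (j : Fin d × Fin d) : Fin d → ℝ :=
  fun k => (if k = j.1 then -M else 0) + (if k = j.2 then -M else 0)

lemma dot_tq (M : ℝ) (j : Fin d × Fin d) (z : Fin d → ℝ) :
    dot (tq M j) z = -M * (z j.1 + z j.2) := by
  unfold dot tq
  have h : ∀ k, ((if k = j.1 then -M else 0) + (if k = j.2 then -M else 0)) * z k
      = (if k = j.1 then -M * z k else 0) + (if k = j.2 then -M * z k else 0) := by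
    intro k
    split_ifs <;> ring
  simp only [h]
  rw [Finset.sum_add_distrib]
  simp only [Finset.sum_ite_eq', Finset.mem_univ, if_true]
  ring

lemma h_sub_le {u V Rx : ℝ} (hu : 0 < u) (huR : u ≤ Rx) (hV : 0 ≤ V) (hR : 1 ≤ Rx) :
    u * (log u - 1) - V * (log V - 1) ≤ (log Rx + 1 + |log V|) * |u - V| := by
  have hlogR : 0 ≤ log Rx := log_nonneg hR
  have hloguR : log u ≤ log Rx := log_le_log hu huR
  rcases eq_or_lt_of_le hV with h0 | hVpos
  · rw [← h0]
    simp only [log_zero, abs_zero, add_zero, mul_zero, sub_zero, zero_mul]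
    rw [abs_of_pos hu]
    nlinarith
  · have habs := abs_nonneg (log V)
    rcases le_or_gt V u with hle | hlt
    · rw [abs_of_nonneg (by linarith : 0 ≤ u - V)]
      have h1 := log_le_sub_one_of_pos (div_pos hu hVpos)
      rw [log_div hu.ne' hVpos.ne'] at h1
      have h2 : V * (u / V) = u := by field_simp
      have h3 : V * (log u - log V) ≤ u - V := by nlinarith
      have h4 : log u * (u - V) ≤ log Rx * (u - V) :=
        mul_le_mul_of_nonneg_right hloguR (by linarith)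
      nlinarith
    · rw [abs_of_neg (by linarith : u - V < 0)]
      have h1 : log u ≤ log V := log_le_log hu hlt.le
      have h2 : u * log u ≤ u * log V := mul_le_mul_of_nonneg_left h1 hu.le
      have h3 : (V - u) * (-log V) ≤ (V - u) * |log V| :=
        mul_le_mul_of_nonneg_left (neg_le_abs _) (by linarith)
      have h4 : 0 ≤ (V - u) * log Rx := mul_nonneg (by linarith) hlogR
      nlinarith

lemma ent_sub_le_vertex {V z : Fin d → ℝ} {Rx : ℝ} (hV : ∀ k, 0 ≤ V k) (hR : 1 ≤ Rx)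
    (hz : ∀ k, 0 < z k) (hzR : ∀ k, z k ≤ Rx) :
    ent z - ent V ≤ (log Rx + 1 + ∑ k, |log (V k)|) * ∑ k, |z k - V k| := by
  unfold ent
  rw [← Finset.sum_sub_distrib, Finset.mul_sum]
  apply Finset.sum_le_sum
  intro k _
  refine (h_sub_le (hz k) (hzR k) (hV k) hR).trans ?_
  apply mul_le_mul_of_nonneg_right _ (abs_nonneg _)
  have h1 : |log (V k)| ≤ ∑ k, |log (V k)| :=
    Finset.single_le_sum (f := fun k => |log (V k)|) (fun _ _ => abs_nonneg _) (Finset.mem_univ k)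
  linarith

/-- With a large tilt, the tilted entropy is below its value at the vertex, on bounded parts of
the class. -/
lemma tilt_upper {R : Finset (Cx d × Cx d)} {c : Fin d → ℝ} {J : Finset (Fin d × Fin d)}
    {V : Fin d × Fin d → Fin d → ℝ} {C₁ : ℝ} (hC₁ : 0 ≤ C₁)
    (hV : ∀ j ∈ J, (∀ k, 0 ≤ V j k) ∧ (∀ x, InClass R c x → ∀ k,
      |x k - V j k| ≤ C₁ * (|x j.1| + |x j.2|))) {Rx : ℝ} (hR : 1 ≤ Rx) :
    ∃ M₀ : ℝ, 0 ≤ M₀ ∧ ∀ M, M₀ ≤ M → ∀ j ∈ J, ∀ z : Fin d → ℝ, (∀ k, 0 < z k) → InClass R c z →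
      (∀ k, z k ≤ Rx) → entT (tq M j) z ≤ ent (V j) - (z j.1 + z j.2) := by
  classical
  have hlogR : 0 ≤ log Rx := log_nonneg hR
  set f : Fin d × Fin d → ℝ := fun j =>
    (log Rx + 1 + ∑ k, |log (V j k)|) * ((d : ℝ) * C₁) with hf
  have hf0 : ∀ j, 0 ≤ f j := by
    intro j
    have : 0 ≤ ∑ k, |log (V j k)| := Finset.sum_nonneg (fun _ _ => abs_nonneg _)
    simp only [hf]
    positivity
  refine ⟨∑ j ∈ J, f j + 1, by
    have := Finset.sum_nonneg (s := J) (fun j _ => hf0 j)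
    linarith, ?_⟩
  intro M hM j hj z hz hcl hzR
  obtain ⟨hV0, hVx⟩ := hV j hj
  rw [entT_eq, dot_tq]
  have h1 := ent_sub_le_vertex hV0 hR hz hzR
  have hS : 0 ≤ z j.1 + z j.2 := by linarith [hz j.1, hz j.2]
  have h2 : ∑ k, |z k - V j k| ≤ (d : ℝ) * C₁ * (z j.1 + z j.2) := by
    calc ∑ k, |z k - V j k| ≤ ∑ _k : Fin d, C₁ * (z j.1 + z j.2) := by
          apply Finset.sum_le_sum
          intro k _
          have := hVx z hcl k
          rwa [abs_of_pos (hz j.1), abs_of_pos (hz j.2)] at this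
      _ = (d : ℝ) * C₁ * (z j.1 + z j.2) := by
          rw [Finset.sum_const, Finset.card_univ, Fintype.card_fin, nsmul_eq_mul]; ring
  have hC' : 0 ≤ log Rx + 1 + ∑ k, |log (V j k)| := by
    have : 0 ≤ ∑ k, |log (V j k)| := Finset.sum_nonneg (fun _ _ => abs_nonneg _)
    linarith
  have h3 : ent z - ent (V j) ≤ f j * (z j.1 + z j.2) := by
    refine h1.trans ?_
    simp only [hf]
    have := mul_le_mul_of_nonneg_left h2 hC'
    linarith [this]
  have h4 : f j ≤ ∑ j ∈ J, f j := Finset.single_le_sum (f := f) (fun j _ => hf0 j) hj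
  have h5 : (f j + 1) * (z j.1 + z j.2) ≤ M * (z j.1 + z j.2) :=
    mul_le_mul_of_nonneg_right (by linarith) hS
  nlinarith

lemma entT_tq_vertex (M : ℝ) (j : Fin d × Fin d) {V : Fin d → ℝ} (h1 : V j.1 = 0) (h2 : V j.2 = 0) :
    entT (tq M j) V = ent V := by
  rw [entT_eq, dot_tq, h1, h2]
  ring

/-- The cut near a vertex: on a line with a critical direction through a point near the vertex,
the tilted entropy stays near its value at the vertex. -/
lemma cut_lemma {R : Finset (Cx d × Cx d)} {c : Fin d → ℝ} {J : Finset (Fin d × Fin d)}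
    {V : Fin d × Fin d → Fin d → ℝ} {C₁ : ℝ} (hC₁ : 0 ≤ C₁)
    (hV : ∀ j ∈ J, V j j.1 = 0 ∧ V j j.2 = 0 ∧ (∀ x, InClass R c x → ∀ k,
      |x k - V j k| ≤ C₁ * (|x j.1| + |x j.2|))) (M : ℝ) {τ : ℝ} (hτ : 0 < τ) :
    ∃ σ : ℝ, 0 < σ ∧ ∀ j ∈ J, ∀ w' ∈ dirs R, Crit w' j.1 j.2 → ∀ x : Fin d → ℝ, (∀ k, 0 < x k) →
      InClass R c x → x j.1 ≤ σ → x j.2 ≤ σ → ent (V j) - τ < Gp (tq M j) w' x := by
  classical
  obtain ⟨N, hN1, hN⟩ := dirs_bound R
  have key : ∀ j : Fin d × Fin d, ∃ σ : ℝ, 0 < σ ∧ (j ∈ J → ∀ w' ∈ dirs R, Crit w' j.1 j.2 →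
      ∀ x : Fin d → ℝ, (∀ k, 0 < x k) → InClass R c x → x j.1 ≤ σ → x j.2 ≤ σ →
      ent (V j) - τ < Gp (tq M j) w' x) := by
    intro j
    by_cases hj : j ∈ J
    · obtain ⟨hVi, hVm, hVx⟩ := hV j hj
      have hca : ContinuousAt (entT (tq M j)) (V j) := (continuous_entT _).continuousAt
      obtain ⟨δ, hδ, hcont⟩ := Metric.continuousAt_iff.mp hca τ hτ
      set Y : ℝ := 2 * (C₁ + 1) * (1 + N) with hY
      have hY0 : 0 < Y := by positivity
      refine ⟨δ / (2 * Y), by positivity, fun _ w' hw' hcr x hx hcl hxi hxm => ?_⟩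
      set σ := δ / (2 * Y) with hσ
      have hσ0 : 0 < σ := by positivity
      have hw0 : w' ≠ 0 := dirs_ne w' hw'
      have hy := projT_pos (tq M j) hw0 hx
      set s := shiftT (tq M j) w' x with hs
      have hyi : ∀ k, projT (tq M j) w' x k = x k + s * w' k := fun k => rfl
      have hwi : 1 ≤ -w' j.1 := by
        have h1 := (dirs_int hw' j.1).resolve_left hcr.1.ne
        rwa [abs_of_neg hcr.1] at h1
      have hwm : 1 ≤ w' j.2 := by
        have h1 := (dirs_int hw' j.2).resolve_left hcr.2.ne'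
        rwa [abs_of_pos hcr.2] at h1
      have hyi' := hy j.1
      have hym' := hy j.2
      rw [hyi] at hyi' hym'
      have hsabs : |s| ≤ σ := by
        rw [abs_le]
        constructor
        · by_contra hlt
          push Not at hlt
          nlinarith
        · by_contra hlt
          push Not at hlt
          nlinarith
      have hbi := hN w' hw' j.1
      have hbm := hN w' hw' j.2
      have hprod : ∀ l, |s * w' l| ≤ σ * N := by
        intro l
        rw [abs_mul]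
        exact mul_le_mul hsabs (hN w' hw' l) (abs_nonneg _) hσ0.le
      have h1 : projT (tq M j) w' x j.1 ≤ σ * (1 + N) := by
        rw [hyi]
        have := le_abs_self (s * w' j.1)
        have := hprod j.1
        linarith
      have h2 : projT (tq M j) w' x j.2 ≤ σ * (1 + N) := by
        rw [hyi]
        have := le_abs_self (s * w' j.2)
        have := hprod j.2
        linarith
      have hcly : InClass R c (projT (tq M j) w' x) :=
        inClass_add_smul hcl (dirs_mem_stoich hw') s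
      have hdist : dist (projT (tq M j) w' x) (V j) < δ := by
        rw [dist_pi_lt_iff hδ]
        intro k
        rw [Real.dist_eq]
        have h3 := hVx _ hcly k
        rw [abs_of_pos (hy j.1), abs_of_pos (hy j.2)] at h3
        have h4 : C₁ * (projT (tq M j) w' x j.1 + projT (tq M j) w' x j.2)
            ≤ (C₁ + 1) * (σ * (1 + N) + σ * (1 + N)) := by
          apply mul_le_mul (by linarith) (by linarith) (by linarith [hy j.1, hy j.2]) (by linarith)
        have h5 : (C₁ + 1) * (σ * (1 + N) + σ * (1 + N)) = σ * Y := by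
          rw [hY]; ring
        have h6 : σ * Y = δ / 2 := by
          rw [hσ]; field_simp
        linarith
      have h7 := hcont hdist
      rw [Real.dist_eq, entT_tq_vertex M j hVi hVm] at h7
      have h8 := (abs_lt.mp h7).1
      have h9 : Gp (tq M j) w' x = entT (tq M j) (projT (tq M j) w' x) := rfl
      rw [h9]
      linarith
    · exact ⟨1, one_pos, fun h => absurd h hj⟩
  choose σf hσf hσf2 using key
  obtain ⟨σ, hσ, -, hσle⟩ := exists_pos_lb J σf (fun j _ => hσf j)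
  refine ⟨σ, hσ, fun j hj w' hw' hcr x hx hcl h1 h2 => ?_⟩
  exact hσf2 j hj w' hw' hcr x hx hcl (h1.trans (hσle j hj)) (h2.trans (hσle j hj))

end Vale.Agent.Lib.P072
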