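import Vale.Agent.Lib.P072.Geometry

/-! The layers: maxima of minima of entropy, of tilted entropies near the vertices and of
logarithmic barriers, and the flux estimate at their active pieces. -/

namespace Vale.Agent.Lib.P072

open Finset Real Set Filter Topology

variable {d : ℕ}

/-- The gap constant. -/
noncomputable def Gam (d : ℕ) (B N : ℝ) : ℝ := B + (d : ℝ) * (B * (exp B - 1) + N + 1)

lemma one_le_Gam {B N : ℝ} (hB : 0 ≤ B) (hN : 0 ≤ N) (hd : Nonempty (Fin d)) : 1 ≤ Gam d B N := by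
  have h1 : B + 1 ≤ exp B := add_one_le_exp B
  have h2 : 0 ≤ B * (exp B - 1) := mul_nonneg hB (by linarith)
  have hd1 : (1 : ℝ) ≤ d := by
    have : 0 < d := Fin.pos_iff_nonempty.mpr hd
    exact_mod_cast this
  unfold Gam
  nlinarith

lemma nonempty_fin_of_dirs {R : Finset (Cx d × Cx d)} {w : Fin d → ℝ} (hw : w ∈ dirs R) :
    Nonempty (Fin d) := by
  by_contra hemp
  rw [not_nonempty_iff] at hemp
  exact dirs_ne w hw (funext (fun i => hemp.elim i))

/-- The flux estimate at an active piece of a tilted entropy, away from the core. -/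
lemma flux_of_notCore {R : Finset (Cx d × Cx d)} (hWR : WeaklyReversible R)
    (hdim : Module.finrank ℝ (stoich R) = 2) {ε B N : ℝ} (hε : 0 < ε) (hB : 0 ≤ B)
    (hWN : ∀ u ∈ dirs R, ∀ i, |u i| ≤ N)
    (hflux : ∀ (h mon : Cx d → ℝ) (κ : Cx d × Cx d → ℝ),
      (∀ c, 0 < mon c) →
      (∀ s a, Reach R s a → h a < h s → exp B * mon a ≤ mon s) →
      (∀ r, ε ≤ κ r ∧ κ r ≤ ε⁻¹) →
      ∀ e ∈ R, ∑ r ∈ R, κ r * mon r.1 * (h r.2 - h r.1)
        ≤ -(ε * mon e.1 * max (h e.1 - h e.2) 0) / 2)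
    {q : Fin d → ℝ} {Q : ℝ} (hQ0 : 0 ≤ Q) (hQ : ∀ w' ∈ dirs R, |dot w' q| ≤ Q)
    {w x : Fin d → ℝ} (hw : w ∈ dirs R) (hx : ∀ i, 0 < x i) (hact : ActiveT q (dirs R) w x)
    (hnc : ∀ w' ∈ dirs R, NonPar w w' → Gam d (B + Q) N ≤ |dot w' (gr q (projT q w x))|)
    {a : ℝ} (ha : 0 < a) {δ : ℝ} (hδ0 : 0 < δ) (hδ1 : δ ≤ 1) (hδ : ∀ i, δ ≤ x i)
    {κ : Cx d × Cx d → ℝ} (hκ : ∀ r, ε ≤ κ r ∧ κ r ≤ ε⁻¹) :
    dot (fun i => a * gr q (projT q w x) i) (massAction R κ x) ≤ -(ε * δ ^ (Dmax R) * a) / 2 := by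
  have hw0 : w ≠ 0 := dirs_ne w hw
  have hfin := nonempty_fin_of_dirs hw
  have hN0 : 0 ≤ N := (abs_nonneg _).trans (hWN w hw hfin.some)
  have hB' : 0 ≤ B + Q := by linarith
  have hGam1 : 1 ≤ Gam d (B + Q) N := one_le_Gam hB' hN0 hfin
  set g₀ := gr q (projT q w x) with hg₀
  set g : Fin d → ℝ := fun i => a * g₀ i with hg
  have hg₀w : dot g₀ w = 0 := dot_gr_projT q hw0 hx
  have hdotg : ∀ u, dot u g = a * dot u g₀ := fun u => dot_smul_right u g₀ a
  have key : ∀ w' ∈ dirs R, 0 < dot w' g₀ → Gam d (B + Q) N ≤ dot w' g₀ ∧ B ≤ dot w' (lv x) := by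
    intro w' hw' hpos
    have hnp : NonPar w w' := by
      by_contra hpar
      have h1 := dot_eq_zero_of_par hw0 hpar hg₀w
      rw [dot_comm] at h1
      linarith
    have h1 := hnc w' hw' hnp
    rw [abs_of_pos hpos] at h1
    refine ⟨h1, ?_⟩
    have h2 := gap_activeT dirs_ne hx hact hw' (dirs_int hw') (hWN w' hw') hB' h1
    rw [dot_gr_eq] at h2
    have h3 := (abs_le.mp (hQ w' hw')).2
    linarith
  have hg' : ∀ w' ∈ dirs R, 0 < dot w' g → B ≤ dot w' (lv x) := by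
    intro w' hw' hpos
    rw [hdotg] at hpos
    exact (key w' hw' ((mul_pos_iff_of_pos_left ha).mp hpos)).2
  obtain ⟨r, hr, hnpr⟩ := exists_reaction_nonpar hdim hw0
  have hne : r.2 ≠ r.1 := by
    intro h
    obtain ⟨i, j, hij⟩ := hnpr
    apply hij
    simp [rxnVec, h]
  have hmemr : diffv r.2 r.1 ∈ dirs R := mem_dirs (hWR r hr) hne
  have hnz : hOf g r.2 ≠ hOf g r.1 := by
    intro heq
    have h1 : dot (diffv r.2 r.1) g = 0 := by
      rw [dot_diffv, heq]; ring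
    rw [hdotg] at h1
    have h2 : dot (diffv r.2 r.1) g₀ = 0 := (mul_eq_zero.mp h1).resolve_left ha.ne'
    have h3 := hnc _ hmemr hnpr
    rw [h2, abs_zero] at h3
    linarith
  obtain ⟨e, he, hlt⟩ := exists_down hWR hr hnz
  have hmeme : diffv e.1 e.2 ∈ dirs R := diffv_edge_mem he (hOf_ne_of_lt hlt)
  have hpose : 0 < dot (diffv e.1 e.2) g₀ := by
    have h1 : 0 < dot (diffv e.1 e.2) g := by
      rw [dot_diffv]; linarith
    rw [hdotg] at h1
    exact (mul_pos_iff_of_pos_left ha).mp h1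
  have hbig := (key _ hmeme hpose).1
  have hdrop : a ≤ max (hOf g e.1 - hOf g e.2) 0 := by
    apply le_max_of_le_left
    rw [← dot_diffv, hdotg]
    nlinarith
  have hfl := flux_normal hflux hx hκ hg' he
  have hmono := mono_ge_Dmax (R := R) hδ0 hδ1 hδ he
  have hδp : 0 < δ ^ Dmax R := pow_pos hδ0 _
  have h5 : ε * δ ^ Dmax R * a ≤ ε * mono x e.1 * max (hOf g e.1 - hOf g e.2) 0 := by
    apply mul_le_mul _ hdrop ha.le (by positivity [mono_pos hx e.1])
    exact mul_le_mul_of_nonneg_left hmono hε.le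
  linarith

/-- The data attached to a class and a level of the maximum of minima of entropy. -/
structure Ctx (R : Finset (Cx d × Cx d)) (ε : ℝ) (c₀ : Fin d → ℝ) (c₁ : ℝ) where
  B : ℝ
  N : ℝ
  X : ℝ
  M : ℝ
  C₁ : ℝ
  σ₀ : ℝ
  ε₀ : ℝ
  τ₀ : ℝ
  J : Finset (Fin d × Fin d)
  V : Fin d × Fin d → Fin d → ℝ
  hWne : (dirs R).Nonempty
  hB : 0 ≤ B
  hN : 1 ≤ N
  hX : 1 ≤ X
  hM : 0 ≤ M
  hC₁ : 0 ≤ C₁
  hσ₀ : 0 < σ₀
  hε₀ : 0 < ε₀
  hτ₀ : 0 < τ₀
  hτε : τ₀ < ε₀
  hτC : 2 * C₁ * τ₀ < 1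
  hWN : ∀ u ∈ dirs R, ∀ i, |u i| ≤ N
  hflux : ∀ (h mon : Cx d → ℝ) (κ : Cx d × Cx d → ℝ),
      (∀ c, 0 < mon c) →
      (∀ s a, Reach R s a → h a < h s → exp B * mon a ≤ mon s) →
      (∀ r, ε ≤ κ r ∧ κ r ≤ ε⁻¹) →
      ∀ e ∈ R, ∑ r ∈ R, κ r * mon r.1 * (h r.2 - h r.1)
        ≤ -(ε * mon e.1 * max (h e.1 - h e.2) 0) / 2
  hcore₀ : ∀ u ∈ dirs R, ∀ u' ∈ dirs R, NonPar u u' → ∀ y : Fin d → ℝ, (∀ i, 0 < y i) →
      InClass R c₀ y → dot u (lv y) = 0 → |dot u' (lv y)| < Gam d B N → ent y < c₁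
  hXb : ∀ x : Fin d → ℝ, (∀ i, 0 < x i) → (∀ w ∈ dirs R, Gp 0 w x ≤ c₁ + 1) → ∀ i, x i ≤ X
  hJ : ∀ j ∈ J, (∀ k, 0 ≤ V j k) ∧ V j j.1 = 0 ∧ V j j.2 = 0 ∧ InClass R c₀ (V j) ∧
        ∀ x, InClass R c₀ x → ∀ k, |x k - V j k| ≤ C₁ * (|x j.1| + |x j.2|)
  hnJ : ∀ i m, ∀ w' ∈ dirs R, Crit w' i m → (i, m) ∉ J →
        ∀ x : Fin d → ℝ, (∀ k, 0 < x k) → InClass R c₀ x → σ₀ ≤ x i + x m
  hup : ∀ j ∈ J, ∀ z : Fin d → ℝ, (∀ k, 0 < z k) → InClass R c₀ z →
      (∀ k, z k ≤ X + 1) → entT (tq M j) z ≤ ent (V j) - (z j.1 + z j.2)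
  hcoret : ∀ u ∈ dirs R, ∀ u' ∈ dirs R, NonPar u u' → ∀ y : Fin d → ℝ, (∀ i, 0 < y i) →
      InClass R c₀ y → |dot u (lv y)| ≤ Gam d (B + 2 * M * N) N + 2 * M * N →
      |dot u' (lv y)| ≤ Gam d (B + 2 * M * N) N + 2 * M * N → ∀ k, ε₀ ≤ y k

variable {R : Finset (Cx d × Cx d)} {ε : ℝ} {c₀ : Fin d → ℝ} {c₁ : ℝ}

lemma abs_dot_tq_le (C : Ctx R ε c₀ c₁) (j : Fin d × Fin d) {w' : Fin d → ℝ} (hw' : w' ∈ dirs R) :
    |dot w' (tq C.M j)| ≤ 2 * C.M * C.N := by
  rw [dot_comm, dot_tq, abs_mul, abs_neg, abs_of_nonneg C.hM]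
  have h1 := C.hWN w' hw' j.1
  have h2 := C.hWN w' hw' j.2
  have h3 : |w' j.1 + w' j.2| ≤ 2 * C.N := by
    have := abs_add_le (w' j.1) (w' j.2)
    linarith
  have := mul_le_mul_of_nonneg_left h3 C.hM
  linarith

/-- The box lemma: if the minimum of the tilted entropy on a line through a bounded point `x` is
near the value at the vertex, then the minimizer is near the vertex. -/
lemma tilt_box (C : Ctx R ε c₀ c₁) {j : Fin d × Fin d} (hj : j ∈ C.J) {w x : Fin d → ℝ}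
    (hw : w ∈ dirs R) (hx : ∀ i, 0 < x i) (hcl : InClass R c₀ x) (hXb : ∀ k, x k ≤ C.X)
    {τ : ℝ} (hτ : τ ≤ C.τ₀) (hG : ent (C.V j) - τ ≤ Gp (tq C.M j) w x) :
    projT (tq C.M j) w x j.1 + projT (tq C.M j) w x j.2 ≤ τ := by
  classical
  set q := tq C.M j with hq
  set H := ent (C.V j) with hH
  have hw0 : w ≠ 0 := dirs_ne w hw
  obtain ⟨-, -, -, -, hVx⟩ := C.hJ j hj
  have hup := C.hup j hj
  have hwS := dirs_mem_stoich hw
  set s := shiftT q w x with hs
  have hy : ∀ k, 0 < x k + s * w k := projT_pos q hw0 hx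
  have hxup : x j.1 + x j.2 ≤ τ := by
    have h1 := hup x hx hcl (fun k => by linarith [hXb k])
    have h2 := Gp_le_self q hw0 hx
    linarith
  have hC₁ := C.hC₁
  -- the minimizer is in the box
  have hbox : ∀ k, x k + s * w k ≤ C.X + 1 := by
    by_contra hcon
    push Not at hcon
    obtain ⟨k₁, hk₁⟩ := hcon
    have hfin : (Finset.univ : Finset (Fin d)).Nonempty := ⟨k₁, Finset.mem_univ k₁⟩
    obtain ⟨k₂, -, hk₂⟩ := Finset.exists_max_image Finset.univ (fun k => |s * w k|) hfin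
    set ρ := |s * w k₂| with hρ
    have hρ1 : 1 < ρ := by
      have h1 : 1 < s * w k₁ := by linarith [hXb k₁]
      have h2 : |s * w k₁| ≤ ρ := hk₂ k₁ (Finset.mem_univ _)
      have h3 := le_abs_self (s * w k₁)
      linarith
    have hρ0 : 0 < ρ := by linarith
    set θ := ρ⁻¹ with hθ
    have hθ0 : 0 < θ := inv_pos.mpr hρ0
    have hθ1 : θ ≤ 1 := inv_le_one_of_one_le₀ hρ1.le
    have hθρ : θ * ρ = 1 := inv_mul_cancel₀ hρ0.ne'
    have hzpos : ∀ k, 0 < x k + (θ * s) * w k := by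
      intro k
      have h1 : x k + (θ * s) * w k = (1 - θ) * x k + θ * (x k + s * w k) := by ring
      rw [h1]
      have h2 := mul_pos hθ0 (hy k)
      have h3 : 0 ≤ (1 - θ) * x k := mul_nonneg (by linarith) (hx k).le
      linarith
    have hzdiff : ∀ k, |(θ * s) * w k| ≤ 1 := by
      intro k
      have h1 : (θ * s) * w k = θ * (s * w k) := by ring
      rw [h1, abs_mul, abs_of_pos hθ0]
      have h2 : |s * w k| ≤ ρ := hk₂ k (Finset.mem_univ _)
      have := mul_le_mul_of_nonneg_left h2 hθ0.le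
      linarith
    have hzk₂ : |(θ * s) * w k₂| = 1 := by
      have h1 : (θ * s) * w k₂ = θ * (s * w k₂) := by ring
      rw [h1, abs_mul, abs_of_pos hθ0, ← hρ, hθρ]
    have hzcl : InClass R c₀ (fun k => x k + (θ * s) * w k) := inClass_add_smul hcl hwS _
    have hzX : ∀ k, x k + (θ * s) * w k ≤ C.X + 1 := by
      intro k
      have h1 := le_abs_self ((θ * s) * w k)
      linarith [hzdiff k, hXb k]
    have h1 := hup _ hzpos hzcl hzX
    have h2 := Gp_le q hw0 hx hzpos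
    have hzup : (x j.1 + (θ * s) * w j.1) + (x j.2 + (θ * s) * w j.2) ≤ τ := by
      linarith
    -- both points are near the vertex
    have h3 := hVx _ hzcl k₂
    have h4 := hVx x hcl k₂
    rw [abs_of_pos (hzpos j.1), abs_of_pos (hzpos j.2)] at h3
    rw [abs_of_pos (hx j.1), abs_of_pos (hx j.2)] at h4
    have h5 : C.C₁ * ((x j.1 + (θ * s) * w j.1) + (x j.2 + (θ * s) * w j.2)) ≤ C.C₁ * C.τ₀ :=
      mul_le_mul_of_nonneg_left (hzup.trans hτ) hC₁
    have h6 : C.C₁ * (x j.1 + x j.2) ≤ C.C₁ * C.τ₀ :=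
      mul_le_mul_of_nonneg_left (hxup.trans hτ) hC₁
    have h7 : |(θ * s) * w k₂| ≤ |x k₂ + (θ * s) * w k₂ - C.V j k₂| + |x k₂ - C.V j k₂| := by
      have h8 := abs_sub (x k₂ + (θ * s) * w k₂ - C.V j k₂) (x k₂ - C.V j k₂)
      have h10 : (x k₂ + (θ * s) * w k₂ - C.V j k₂) - (x k₂ - C.V j k₂) = (θ * s) * w k₂ := by ring
      rwa [h10] at h8
    have h9 := C.hτC
    rw [hzk₂] at h7
    nlinarith
  have h1 := hup _ hy (inClass_add_smul hcl hwS s) hbox
  have h2 : Gp q w x = entT q (fun k => x k + s * w k) := rfl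
  have h3 : projT q w x j.1 = x j.1 + s * w j.1 := rfl
  have h4 : projT q w x j.2 = x j.2 + s * w j.2 := rfl
  rw [h3, h4]
  linarith

/-- The values of the directions are bounded below at a point with small coordinate `i`. -/
lemma facet_bound (C : Ctx R ε c₀ c₁) {τ' σ' v : ℝ}
    (hσ1 : σ' ≤ 1) (hσ0 : 0 < σ') (hσ2 : σ' ≤ C.σ₀ / 2) (hvσ : exp (-v) ≤ σ')
    (hvB : C.B + (d : ℝ) * C.N * (|log σ'| + log C.X) ≤ v)
    (hcut : ∀ j ∈ C.J, ∀ w' ∈ dirs R, Crit w' j.1 j.2 → ∀ x : Fin d → ℝ, (∀ k, 0 < x k) →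
      InClass R c₀ x → x j.1 ≤ σ' → x j.2 ≤ σ' → ent (C.V j) - τ' < Gp (tq C.M j) w' x)
    {x : Fin d → ℝ} (hx : ∀ i, 0 < x i) (hcl : InClass R c₀ x) (hXb : ∀ k, x k ≤ C.X)
    (hT : ∀ j ∈ C.J, ∀ w ∈ dirs R, Gp (tq C.M j) w x ≤ ent (C.V j) - τ') {i : Fin d}
    (hi : x i ≤ exp (-v)) {w' : Fin d → ℝ} (hw' : w' ∈ dirs R) (hneg : w' i < 0) :
    C.B ≤ dot w' (lv x) := by
  classical
  have hN0 : 0 ≤ C.N := by linarith [C.hN]
  have hlogX : 0 ≤ log C.X := log_nonneg C.hX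
  have hxσ : x i ≤ σ' := hi.trans hvσ
  have hv0 : 0 ≤ v := by
    by_contra h
    push Not at h
    have : 1 < exp (-v) := one_lt_exp_iff.mpr (by linarith)
    linarith
  have hlogi : v ≤ -log (x i) := by
    have h1 : log (x i) ≤ -v := by
      rw [← log_exp (-v)]
      exact log_le_log (hx i) hi
    linarith
  -- the other coordinates with a positive coefficient are not small
  have hother : ∀ k, 0 < w' k → σ' ≤ x k := by
    intro k hk
    by_contra hlt
    push Not at hlt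
    have hcr : Crit w' i k := ⟨hneg, hk⟩
    by_cases hJ : (i, k) ∈ C.J
    · have h1 := hcut (i, k) hJ w' hw' hcr x hx hcl hxσ hlt.le
      have h2 := hT (i, k) hJ w' hw'
      linarith
    · have h1 := C.hnJ i k w' hw' hcr hJ x hx hcl
      linarith
  have hterm : ∀ k, k ≠ i → -(C.N * (|log σ'| + log C.X)) ≤ w' k * log (x k) := by
    intro k _
    have hbd := C.hWN w' hw' k
    have habs := abs_nonneg (log σ')
    rcases lt_trichotomy (w' k) 0 with hk | hk | hk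
    · have h1 : log (x k) ≤ log C.X := log_le_log (hx k) (hXb k)
      have h2 : w' k * log C.X ≤ w' k * log (x k) := mul_le_mul_of_nonpos_left h1 hk.le
      have h3 : -C.N ≤ w' k := (abs_le.mp hbd).1
      have h4 : -C.N * log C.X ≤ w' k * log C.X := mul_le_mul_of_nonneg_right h3 hlogX
      nlinarith
    · rw [hk, zero_mul]
      have : 0 ≤ C.N * (|log σ'| + log C.X) := by positivity
      linarith
    · have h1 : log σ' ≤ log (x k) := log_le_log hσ0 (hother k hk)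
      have h2 : w' k * log σ' ≤ w' k * log (x k) := mul_le_mul_of_nonneg_left h1 hk.le
      have h3 : w' k ≤ C.N := (abs_le.mp hbd).2
      have h4 : -|log σ'| ≤ log σ' := neg_abs_le _
      have h5 : w' k * (-|log σ'|) ≤ w' k * log σ' := mul_le_mul_of_nonneg_left h4 hk.le
      have h6 : w' k * |log σ'| ≤ C.N * |log σ'| := mul_le_mul_of_nonneg_right h3 habs
      nlinarith [mul_nonneg hN0 hlogX]
  have hsplit : dot w' (lv x) = w' i * log (x i) + ∑ k ∈ Finset.univ.erase i, w' k * log (x k) := by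
    unfold dot lv
    exact (Finset.add_sum_erase _ _ (Finset.mem_univ i)).symm
  have hrest : -((d : ℝ) * (C.N * (|log σ'| + log C.X)))
      ≤ ∑ k ∈ Finset.univ.erase i, w' k * log (x k) := by
    have h1 : ∑ k ∈ Finset.univ.erase i, -(C.N * (|log σ'| + log C.X))
        ≤ ∑ k ∈ Finset.univ.erase i, w' k * log (x k) :=
      Finset.sum_le_sum (fun k hk => hterm k (Finset.ne_of_mem_erase hk))
    rw [Finset.sum_const, nsmul_eq_mul] at h1
    have h2 : ((Finset.univ.erase i).card : ℝ) ≤ d := by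
      have := Finset.card_le_univ (Finset.univ.erase i)
      rw [Fintype.card_fin] at this
      exact_mod_cast this
    have h3 : 0 ≤ C.N * (|log σ'| + log C.X) := by positivity
    have h4 := mul_le_mul_of_nonneg_right h2 h3
    linarith
  have hwi : 1 ≤ -w' i := by
    have h1 := (dirs_int hw' i).resolve_left hneg.ne
    rwa [abs_of_neg hneg] at h1
  have hfirst : v ≤ w' i * log (x i) := by
    have h1 : w' i * log (x i) = (-w' i) * (-log (x i)) := by ring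
    rw [h1]
    nlinarith
  rw [hsplit]
  have h5 : (d : ℝ) * (C.N * (|log σ'| + log C.X)) = (d : ℝ) * C.N * (|log σ'| + log C.X) := by ring
  linarith

/-- The flux estimate at an active barrier piece. -/
lemma flux_facet {C : Ctx R ε c₀ c₁} (hWR : WeaklyReversible R) (hε : 0 < ε) {b : ℝ} (hb : 0 < b)
    {x : Fin d → ℝ} (hx : ∀ i, 0 < x i) (hcl : InClass R c₀ x) (hXb : ∀ k, x k ≤ C.X)
    {i : Fin d} (hi : x i < c₀ i)
    (hbd : ∀ w' ∈ dirs R, w' i < 0 → C.B ≤ dot w' (lv x))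
    {δ : ℝ} (hδ0 : 0 < δ) (hδ1 : δ ≤ 1) (hδ : ∀ i, δ ≤ x i)
    {κ : Cx d × Cx d → ℝ} (hκ : ∀ r, ε ≤ κ r ∧ κ r ≤ ε⁻¹) :
    dot (fun k => if k = i then -(b / x i) else 0) (massAction R κ x)
      ≤ -(ε * δ ^ (Dmax R) * (b / C.X)) / 2 := by
  classical
  set g : Fin d → ℝ := fun k => if k = i then -(b / x i) else 0 with hg
  have hdotg : ∀ u : Fin d → ℝ, dot u g = u i * (-(b / x i)) := by
    intro u
    unfold dot
    simp only [hg, mul_ite, mul_zero, Finset.sum_ite_eq', Finset.mem_univ, if_true]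
  have hbx : 0 < b / x i := div_pos hb (hx i)
  have hg' : ∀ w' ∈ dirs R, 0 < dot w' g → C.B ≤ dot w' (lv x) := by
    intro w' hw' hpos
    rw [hdotg] at hpos
    apply hbd w' hw'
    by_contra hnn
    push Not at hnn
    have : w' i * (-(b / x i)) ≤ 0 := mul_nonpos_of_nonneg_of_nonpos hnn (by linarith)
    linarith
  -- a reaction moves the coordinate i
  have hexr : ∃ r ∈ R, rxnVec r i ≠ 0 := by
    by_contra hall
    push Not at hall
    have hle : stoich R ≤ LinearMap.ker (LinearMap.proj i : (Fin d → ℝ) →ₗ[ℝ] ℝ) := by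
      unfold stoich
      rw [Submodule.span_le]
      rintro v ⟨r, hr, rfl⟩
      simp only [SetLike.mem_coe, LinearMap.mem_ker, LinearMap.proj_apply]
      exact hall r (Finset.mem_coe.mp hr)
    have h1 := hle hcl
    simp only [LinearMap.mem_ker, LinearMap.proj_apply] at h1
    linarith
  obtain ⟨r, hr, hri⟩ := hexr
  have hnz : hOf g r.2 ≠ hOf g r.1 := by
    intro heq
    have h1 : dot (diffv r.2 r.1) g = 0 := by
      rw [dot_diffv, heq]; ring
    rw [hdotg] at h1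
    have h2 : diffv r.2 r.1 i = 0 := by
      have h3 := (mul_eq_zero.mp h1)
      rcases h3 with h3 | h3
      · exact h3
      · linarith
    exact hri h2
  obtain ⟨e, he, hlt⟩ := exists_down hWR hr hnz
  have hmeme : diffv e.1 e.2 ∈ dirs R := diffv_edge_mem he (hOf_ne_of_lt hlt)
  have hdrop : b / C.X ≤ max (hOf g e.1 - hOf g e.2) 0 := by
    apply le_max_of_le_left
    rw [← dot_diffv, hdotg]
    have hpos : 0 < diffv e.1 e.2 i * (-(b / x i)) := by
      rw [← hdotg, dot_diffv]; linarith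
    have hneg : diffv e.1 e.2 i < 0 := by
      by_contra hnn
      push Not at hnn
      have : diffv e.1 e.2 i * (-(b / x i)) ≤ 0 :=
        mul_nonpos_of_nonneg_of_nonpos hnn (by linarith)
      linarith
    have h1 : 1 ≤ -diffv e.1 e.2 i := by
      have h2 := (dirs_int hmeme i).resolve_left hneg.ne
      rwa [abs_of_neg hneg] at h2
    have h2 : b / C.X ≤ b / x i :=
      div_le_div_of_nonneg_left hb.le (hx i) (hXb i)
    nlinarith
  have hfl := flux_normal C.hflux hx hκ hg' he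
  have hmono := mono_ge_Dmax (R := R) hδ0 hδ1 hδ he
  have hδp : 0 < δ ^ Dmax R := pow_pos hδ0 _
  have hXpos : 0 < C.X := by linarith [C.hX]
  have h5 : ε * δ ^ Dmax R * (b / C.X) ≤ ε * mono x e.1 * max (hOf g e.1 - hOf g e.2) 0 := by
    apply mul_le_mul _ hdrop (by positivity) (by positivity [mono_pos hx e.1])
    exact mul_le_mul_of_nonneg_left hmono hε.le
  linarith

end Vale.Agent.Lib.P072
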