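import Vale.Agent.Lib.P072.Layer

/-! The function of a layer and the flux estimate at its active pieces. -/

namespace Vale.Agent.Lib.P072

open Finset Real Set Filter Topology

variable {d : ℕ}

/-- The parameters of a layer. -/
structure Lay where
  τ : ℝ
  τ' : ℝ
  a : ℝ
  v : ℝ
  b : ℝ
  σ' : ℝ

variable {R : Finset (Cx d × Cx d)} {ε : ℝ} {c₀ : Fin d → ℝ} {c₁ : ℝ}

/-- The conditions on the parameters of a layer. -/
structure LayOK (C : Ctx R ε c₀ c₁) (L : Lay) : Prop where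
  hτ'0 : 0 < L.τ'
  hτ' : L.τ' ≤ L.τ
  hτ : L.τ ≤ C.τ₀
  ha : 0 < L.a
  haτ : L.a * (L.τ - L.τ') = 1
  hb : 0 < L.b
  hσ0 : 0 < L.σ'
  hσ1 : L.σ' ≤ 1
  hσ2 : L.σ' ≤ C.σ₀ / 2
  hvσ : exp (-L.v) ≤ L.σ'
  hvB : C.B + (d : ℝ) * C.N * (|log L.σ'| + log C.X) ≤ L.v
  hvc : ∀ i, exp (-L.v) < c₀ i
  hcut : ∀ j ∈ C.J, ∀ w' ∈ dirs R, Crit w' j.1 j.2 → ∀ x : Fin d → ℝ, (∀ k, 0 < x k) →
      InClass R c₀ x → x j.1 ≤ L.σ' → x j.2 ≤ L.σ' → ent (C.V j) - L.τ' < Gp (tq C.M j) w' x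

/-- The index type of the pieces of a layer. -/
abbrev PIdx (d : ℕ) := (Fin d → ℝ) ⊕ (((Fin d × Fin d) × (Fin d → ℝ)) ⊕ Fin d)

/-- The index set of the pieces of a layer. -/
noncomputable def pIdx (R : Finset (Cx d × Cx d)) (J : Finset (Fin d × Fin d)) : Finset (PIdx d) :=
  (dirs R).disjSum ((J ×ˢ dirs R).disjSum Finset.univ)

/-- The pieces of a layer. -/
noncomputable def piece (C : Ctx R ε c₀ c₁) (L : Lay) : PIdx d → (Fin d → ℝ) → ℝ
  | Sum.inl w, x => Gp 0 w x - c₁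
  | Sum.inr (Sum.inl jw), x => L.a * (Gp (tq C.M jw.1) jw.2 x - ent (C.V jw.1) + L.τ)
  | Sum.inr (Sum.inr i), x => L.b * (-log (x i) - L.v)

lemma pIdx_nonempty (C : Ctx R ε c₀ c₁) : (pIdx R C.J).Nonempty := by
  obtain ⟨w, hw⟩ := C.hWne
  exact ⟨Sum.inl w, Finset.inl_mem_disjSum.mpr hw⟩

/-- The function of a layer. -/
noncomputable def Uf (C : Ctx R ε c₀ c₁) (L : Lay) (x : Fin d → ℝ) : ℝ :=
  (pIdx R C.J).sup' (pIdx_nonempty C) (fun p => piece C L p x)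

lemma piece_le_Uf (C : Ctx R ε c₀ c₁) (L : Lay) (x : Fin d → ℝ) {p : PIdx d}
    (hp : p ∈ pIdx R C.J) : piece C L p x ≤ Uf C L x :=
  Finset.le_sup' (fun p => piece C L p x) hp

lemma Uf_L (C : Ctx R ε c₀ c₁) (L : Lay) (x : Fin d → ℝ) {w : Fin d → ℝ} (hw : w ∈ dirs R) :
    Gp 0 w x - c₁ ≤ Uf C L x :=
  piece_le_Uf C L x (p := Sum.inl w) (Finset.inl_mem_disjSum.mpr hw)

lemma Uf_T (C : Ctx R ε c₀ c₁) (L : Lay) (x : Fin d → ℝ) {j : Fin d × Fin d} (hj : j ∈ C.J)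
    {w : Fin d → ℝ} (hw : w ∈ dirs R) :
    L.a * (Gp (tq C.M j) w x - ent (C.V j) + L.τ) ≤ Uf C L x :=
  piece_le_Uf C L x (p := Sum.inr (Sum.inl (j, w)))
    (Finset.inr_mem_disjSum.mpr (Finset.inl_mem_disjSum.mpr (Finset.mem_product.mpr ⟨hj, hw⟩)))

lemma Uf_F (C : Ctx R ε c₀ c₁) (L : Lay) (x : Fin d → ℝ) (i : Fin d) :
    L.b * (-log (x i) - L.v) ≤ Uf C L x :=
  piece_le_Uf C L x (p := Sum.inr (Sum.inr i))
    (Finset.inr_mem_disjSum.mpr (Finset.inr_mem_disjSum.mpr (Finset.mem_univ i)))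

/-- An upper bound for the function of a layer. -/
lemma Uf_le (C : Ctx R ε c₀ c₁) (L : Lay) (x : Fin d → ℝ) {κ : ℝ}
    (h1 : ∀ w ∈ dirs R, Gp 0 w x - c₁ ≤ κ)
    (h2 : ∀ j ∈ C.J, ∀ w ∈ dirs R, L.a * (Gp (tq C.M j) w x - ent (C.V j) + L.τ) ≤ κ)
    (h3 : ∀ i, L.b * (-log (x i) - L.v) ≤ κ) : Uf C L x ≤ κ := by
  apply Finset.sup'_le
  intro p hp
  rcases p with w | jw | i
  · exact h1 w (Finset.inl_mem_disjSum.mp hp)
  · have h4 := Finset.inl_mem_disjSum.mp (Finset.inr_mem_disjSum.mp hp)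
    obtain ⟨h5, h6⟩ := Finset.mem_product.mp h4
    exact h2 jw.1 h5 jw.2 h6
  · exact h3 i

/-- The rate of decrease in a layer. -/
noncomputable def eta (R : Finset (Cx d × Cx d)) (ε : ℝ) (C : Ctx R ε c₀ c₁) (L : Lay) : ℝ :=
  ε * (exp (-L.v - 1 / L.b)) ^ (Dmax R) * min 1 (min L.a (L.b / C.X)) / 2

lemma eta_pos {C : Ctx R ε c₀ c₁} {L : Lay} (hε : 0 < ε) (hL : LayOK C L) : 0 < eta R ε C L := by
  unfold eta
  have hX : 0 < C.X := by linarith [C.hX]
  have h1 : 0 < min 1 (min L.a (L.b / C.X)) :=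
    lt_min one_pos (lt_min hL.ha (div_pos hL.hb hX))
  have h2 : 0 < (exp (-L.v - 1 / L.b)) ^ (Dmax R) := pow_pos (exp_pos _) _
  positivity

lemma v_nonneg {C : Ctx R ε c₀ c₁} {L : Lay} (hL : LayOK C L) : 0 ≤ L.v := by
  by_contra h
  push Not at h
  have : 1 < exp (-L.v) := one_lt_exp_iff.mpr (by linarith)
  linarith [hL.hvσ, hL.hσ1]

lemma delta_le_one {C : Ctx R ε c₀ c₁} {L : Lay} (hL : LayOK C L) : exp (-L.v - 1 / L.b) ≤ 1 := by
  rw [exp_le_one_iff]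
  have h1 := v_nonneg hL
  have h2 : 0 < 1 / L.b := div_pos one_pos hL.hb
  linarith

section compat

variable (hWR : WeaklyReversible R) (hdim : Module.finrank ℝ (stoich R) = 2) (hε : 0 < ε)
include hWR hdim hε

/-- The estimate at an active piece of the maximum of minima of entropy. -/
lemma compat_L (C : Ctx R ε c₀ c₁) {L : Lay} (hL : LayOK C L) {κ : Cx d × Cx d → ℝ}
    (hκ : ∀ r, ε ≤ κ r ∧ κ r ≤ ε⁻¹) {x : Fin d → ℝ} (hx : ∀ i, 0 < x i) (hcl : InClass R c₀ x)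
    (h0 : 0 ≤ Uf C L x) {w : Fin d → ℝ} (hw : w ∈ dirs R) (hpe : Uf C L x = Gp 0 w x - c₁)
    (hδ : ∀ i, exp (-L.v - 1 / L.b) ≤ x i) :
    ∃ g : Fin d → ℝ, (∀ x' : Fin d → ℝ, (∀ i, 0 < x' i) →
      Uf C L x - Uf C L x' ≤ dot g x - dot g x') ∧
      dot g (massAction R κ x) ≤ -eta R ε C L := by
  have hw0 : w ≠ 0 := dirs_ne w hw
  set y := projT 0 w x with hy
  have hypos : ∀ i, 0 < y i := projT_pos 0 hw0 hx
  have hycl : InClass R c₀ y := inClass_add_smul hcl (dirs_mem_stoich hw) _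
  have hact : ActiveT 0 (dirs R) w x := by
    refine ⟨hw, fun w' hw' => ?_⟩
    have h1 := Uf_L C L x hw'
    rw [hpe] at h1
    have h2 : Gp 0 w' x ≤ Gp 0 w x := by linarith
    exact h2
  have hlev : c₁ ≤ ent y := by
    have h1 : Gp 0 w x = ent y := entT_zero y
    linarith
  have hnc : ∀ w' ∈ dirs R, NonPar w w' → Gam d (C.B + 0) C.N ≤ |dot w' (gr 0 y)| := by
    intro w' hw' hnp
    by_contra hlt
    push Not at hlt
    rw [add_zero, gr_zero] at *
    have h1 : dot w (lv y) = 0 := by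
      have := projT_orth 0 hw0 hx
      rwa [gr_zero] at this
    have h2 := C.hcore₀ w hw w' hw' hnp y hypos hycl h1 hlt
    linarith
  have hfl := flux_of_notCore hWR hdim hε C.hB C.hWN C.hflux (q := 0) (Q := 0) (le_refl _)
    (fun w' _ => by simp [dot]) hw hx hact hnc one_pos (exp_pos _) (delta_le_one hL) hδ hκ
  refine ⟨fun i => 1 * gr 0 y i, ?_, ?_⟩
  · intro x' hx'
    have h1 := Uf_L C L x' hw
    have h2 := Gp_sub 0 hw0 hx hx'
    rw [dot_smul_left, dot_smul_left, hpe]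
    linarith
  · refine hfl.trans ?_
    unfold eta
    have h1 : min 1 (min L.a (L.b / C.X)) ≤ 1 := min_le_left _ _
    have h2 : 0 < (exp (-L.v - 1 / L.b)) ^ (Dmax R) := pow_pos (exp_pos _) _
    have h3 : 0 < ε * (exp (-L.v - 1 / L.b)) ^ (Dmax R) := mul_pos hε h2
    nlinarith

/-- The estimate at an active tilted piece. -/
lemma compat_T (C : Ctx R ε c₀ c₁) {L : Lay} (hL : LayOK C L) {κ : Cx d × Cx d → ℝ}
    (hκ : ∀ r, ε ≤ κ r ∧ κ r ≤ ε⁻¹) {x : Fin d → ℝ} (hx : ∀ i, 0 < x i) (hcl : InClass R c₀ x)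
    (h0 : 0 ≤ Uf C L x) {j : Fin d × Fin d} (hj : j ∈ C.J) {w : Fin d → ℝ} (hw : w ∈ dirs R)
    (hpe : Uf C L x = L.a * (Gp (tq C.M j) w x - ent (C.V j) + L.τ))
    (hXb : ∀ k, x k ≤ C.X) (hδ : ∀ i, exp (-L.v - 1 / L.b) ≤ x i) :
    ∃ g : Fin d → ℝ, (∀ x' : Fin d → ℝ, (∀ i, 0 < x' i) →
      Uf C L x - Uf C L x' ≤ dot g x - dot g x') ∧
      dot g (massAction R κ x) ≤ -eta R ε C L := by
  have hw0 : w ≠ 0 := dirs_ne w hw
  have ha := hL.ha
  set q := tq C.M j with hq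
  set y := projT q w x with hy
  have hypos : ∀ i, 0 < y i := projT_pos q hw0 hx
  have hycl : InClass R c₀ y := inClass_add_smul hcl (dirs_mem_stoich hw) _
  have hact : ActiveT q (dirs R) w x := by
    refine ⟨hw, fun w' hw' => ?_⟩
    have h1 := Uf_T C L x hj hw'
    rw [hpe] at h1
    have h2 := le_of_mul_le_mul_left h1 ha
    have h3 : Gp (tq C.M j) w' x ≤ Gp (tq C.M j) w x := by linarith
    exact h3
  have hlev : ent (C.V j) - L.τ ≤ Gp q w x := by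
    rw [hpe] at h0
    have := nonneg_of_mul_nonneg_right h0 ha
    linarith
  have hbox := tilt_box C hj hw hx hcl hXb hL.hτ hlev
  have hsmall : y j.1 < C.ε₀ := by
    have h1 := hypos j.2
    have h2 := hL.hτ
    have h3 := C.hτε
    linarith
  have hQ0 : 0 ≤ 2 * C.M * C.N := by
    have := C.hM
    have := C.hN
    positivity
  have hnc : ∀ w' ∈ dirs R, NonPar w w' →
      Gam d (C.B + 2 * C.M * C.N) C.N ≤ |dot w' (gr q y)| := by
    intro w' hw' hnp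
    by_contra hlt
    push Not at hlt
    have h1 : dot w (gr q y) = 0 := projT_orth q hw0 hx
    have h2 := abs_dot_tq_le C j hw
    have h3 := abs_dot_tq_le C j hw'
    have hG0 : 0 ≤ Gam d (C.B + 2 * C.M * C.N) C.N := by
      have := one_le_Gam (d := d) (B := C.B + 2 * C.M * C.N) (N := C.N)
        (by linarith [C.hB]) (by linarith [C.hN]) (nonempty_fin_of_dirs hw)
      linarith
    rw [dot_gr_eq] at h1
    have h4 : |dot w (lv y)| ≤ Gam d (C.B + 2 * C.M * C.N) C.N + 2 * C.M * C.N := by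
      have : dot w (lv y) = - dot w q := by linarith
      rw [this, abs_neg]
      linarith
    have h5 : |dot w' (lv y)| ≤ Gam d (C.B + 2 * C.M * C.N) C.N + 2 * C.M * C.N := by
      rw [dot_gr_eq] at hlt
      have h6 : dot w' (lv y) = (dot w' (lv y) + dot w' q) - dot w' q := by ring
      rw [h6]
      have h7 := abs_sub (dot w' (lv y) + dot w' q) (dot w' q)
      linarith
    have h8 := C.hcoret w hw w' hw' hnp y hypos hycl h4 h5 j.1
    linarith
  have hfl := flux_of_notCore hWR hdim hε C.hB C.hWN C.hflux hQ0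
    (fun w' hw' => abs_dot_tq_le C j hw') hw hx hact hnc ha (exp_pos _) (delta_le_one hL) hδ hκ
  refine ⟨fun i => L.a * gr q y i, ?_, ?_⟩
  · intro x' hx'
    have h1 := Uf_T C L x' hj hw
    have h2 := Gp_sub q hw0 hx hx'
    rw [dot_smul_left, dot_smul_left, hpe]
    have h3 : L.a * (Gp q w x - Gp q w x') ≤ L.a * (dot (gr q y) x - dot (gr q y) x') :=
      mul_le_mul_of_nonneg_left h2 ha.le
    nlinarith
  · refine hfl.trans ?_
    unfold eta
    have h1 : min 1 (min L.a (L.b / C.X)) ≤ L.a := (min_le_right _ _).trans (min_le_left _ _)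
    have h2 : 0 < (exp (-L.v - 1 / L.b)) ^ (Dmax R) := pow_pos (exp_pos _) _
    have h3 : 0 < ε * (exp (-L.v - 1 / L.b)) ^ (Dmax R) := mul_pos hε h2
    nlinarith

omit hdim in
/-- The estimate at an active barrier piece. -/
lemma compat_F (C : Ctx R ε c₀ c₁) {L : Lay} (hL : LayOK C L) {κ : Cx d × Cx d → ℝ}
    (hκ : ∀ r, ε ≤ κ r ∧ κ r ≤ ε⁻¹) {x : Fin d → ℝ} (hx : ∀ i, 0 < x i) (hcl : InClass R c₀ x)
    (h0 : 0 ≤ Uf C L x) {i : Fin d} (hpe : Uf C L x = L.b * (-log (x i) - L.v))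
    (hXb : ∀ k, x k ≤ C.X) (hδ : ∀ i, exp (-L.v - 1 / L.b) ≤ x i)
    (hT : ∀ j ∈ C.J, ∀ w ∈ dirs R, Gp (tq C.M j) w x ≤ ent (C.V j) - L.τ') :
    ∃ g : Fin d → ℝ, (∀ x' : Fin d → ℝ, (∀ i, 0 < x' i) →
      Uf C L x - Uf C L x' ≤ dot g x - dot g x') ∧
      dot g (massAction R κ x) ≤ -eta R ε C L := by
  classical
  have hb := hL.hb
  have hi : x i ≤ exp (-L.v) := by
    rw [hpe] at h0
    have h1 := nonneg_of_mul_nonneg_right h0 hb
    rw [← exp_log (hx i)]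
    exact exp_le_exp.mpr (by linarith)
  have hic : x i < c₀ i := lt_of_le_of_lt hi (hL.hvc i)
  have hbd : ∀ w' ∈ dirs R, w' i < 0 → C.B ≤ dot w' (lv x) := fun w' hw' hneg =>
    facet_bound C hL.hσ1 hL.hσ0 hL.hσ2 hL.hvσ hL.hvB hL.hcut hx hcl hXb hT hi hw' hneg
  have hfl := flux_facet (C := C) hWR hε hb hx hcl hXb hic hbd (exp_pos _) (delta_le_one hL) hδ hκ
  refine ⟨fun k => if k = i then -(L.b / x i) else 0, ?_, ?_⟩
  · intro x' hx'
    have hdot : ∀ u : Fin d → ℝ,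
        dot (fun k => if k = i then -(L.b / x i) else 0) u = -(L.b / x i) * u i := by
      intro u
      unfold dot
      simp only [ite_mul, zero_mul, Finset.sum_ite_eq', Finset.mem_univ, if_true]
    rw [hdot, hdot, hpe]
    have h1 := Uf_F C L x' i
    have h2 := log_le_sub_one_of_pos (div_pos (hx' i) (hx i))
    rw [log_div (hx' i).ne' (hx i).ne'] at h2
    have h3 : L.b * (log (x' i) - log (x i)) ≤ L.b * (x' i / x i - 1) :=
      mul_le_mul_of_nonneg_left h2 hb.le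
    have h4 : -(L.b / x i) * x i = -L.b := by
      have := (hx i).ne'
      field_simp
    have h5 : -(L.b / x i) * x' i = -(L.b * (x' i / x i)) := by ring
    rw [h4, h5]
    nlinarith
  · refine hfl.trans ?_
    unfold eta
    have h1 : min 1 (min L.a (L.b / C.X)) ≤ L.b / C.X := (min_le_right _ _).trans (min_le_right _ _)
    have h2 : 0 < (exp (-L.v - 1 / L.b)) ^ (Dmax R) := pow_pos (exp_pos _) _
    have h3 : 0 < ε * (exp (-L.v - 1 / L.b)) ^ (Dmax R) := mul_pos hε h2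
    nlinarith

/-- The flux estimate for a layer. -/
theorem layer_compat (C : Ctx R ε c₀ c₁) {L : Lay} (hL : LayOK C L) {κ : Cx d × Cx d → ℝ}
    (hκ : ∀ r, ε ≤ κ r ∧ κ r ≤ ε⁻¹) {x : Fin d → ℝ} (hx : ∀ i, 0 < x i) (hcl : InClass R c₀ x)
    (h0 : 0 ≤ Uf C L x) (h1 : Uf C L x ≤ 1) :
    ∃ g : Fin d → ℝ, (∀ x' : Fin d → ℝ, (∀ i, 0 < x' i) →
      Uf C L x - Uf C L x' ≤ dot g x - dot g x') ∧
      dot g (massAction R κ x) ≤ -eta R ε C L := by
  have hLb : ∀ w ∈ dirs R, Gp 0 w x ≤ c₁ + 1 := by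
    intro w hw
    have := Uf_L C L x hw
    linarith
  have hXb := C.hXb x hx hLb
  have hT : ∀ j ∈ C.J, ∀ w ∈ dirs R, Gp (tq C.M j) w x ≤ ent (C.V j) - L.τ' := by
    intro j hj w hw
    have h2 := (Uf_T C L x hj hw).trans h1
    rw [← hL.haτ] at h2
    have h3 := le_of_mul_le_mul_left h2 hL.ha
    linarith
  have hδ : ∀ i, exp (-L.v - 1 / L.b) ≤ x i := by
    intro i
    have h2 := (Uf_F C L x i).trans h1
    have hb := hL.hb
    have h3 : -log (x i) - L.v ≤ 1 / L.b := by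
      rw [le_div_iff₀ hb]
      linarith
    rw [← exp_log (hx i)]
    exact exp_le_exp.mpr (by linarith)
  obtain ⟨p, hp, hpe⟩ := Finset.exists_mem_eq_sup' (pIdx_nonempty C) (fun p => piece C L p x)
  have hpe' : Uf C L x = piece C L p x := hpe
  rcases p with w | jw | i
  · exact compat_L hWR hdim hε C hL hκ hx hcl h0 (Finset.inl_mem_disjSum.mp hp) hpe' hδ
  · have h4 := Finset.inl_mem_disjSum.mp (Finset.inr_mem_disjSum.mp hp)
    obtain ⟨h5, h6⟩ := Finset.mem_product.mp h4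
    exact compat_T hWR hdim hε C hL hκ hx hcl h0 h5 h6 hpe' hXb hδ
  · exact compat_F hWR hε C hL hκ hx hcl h0 hpe' hXb hδ hT

end compat

/-- The continuity of the function of a layer along a positive curve. -/
lemma continuousOn_Uf (C : Ctx R ε c₀ c₁) (L : Lay) {x : ℝ → Fin d → ℝ} {s : Set ℝ}
    (hpos : ∀ t ∈ s, ∀ i, 0 < x t i) (hcont : ContinuousOn x s) :
    ContinuousOn (fun t => Uf C L (x t)) s := by
  unfold Uf
  apply ContinuousOn.finset_sup'_apply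
  intro p hp
  rcases p with w | jw | i
  · have hw0 : w ≠ 0 := dirs_ne w (Finset.inl_mem_disjSum.mp hp)
    apply ContinuousOn.sub _ continuousOn_const
    intro t ht
    exact (continuousAt_Gp 0 hw0 (hpos t ht)).comp_continuousWithinAt (hcont t ht)
  · have h4 := Finset.inl_mem_disjSum.mp (Finset.inr_mem_disjSum.mp hp)
    obtain ⟨-, h6⟩ := Finset.mem_product.mp h4
    have hw0 : jw.2 ≠ 0 := dirs_ne _ h6
    apply ContinuousOn.mul continuousOn_const
    apply ContinuousOn.add _ continuousOn_const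
    apply ContinuousOn.sub _ continuousOn_const
    intro t ht
    exact (continuousAt_Gp _ hw0 (hpos t ht)).comp_continuousWithinAt (hcont t ht)
  · apply ContinuousOn.mul continuousOn_const
    apply ContinuousOn.sub _ continuousOn_const
    apply ContinuousOn.neg
    apply ContinuousOn.log
    · exact (continuous_apply i).comp_continuousOn hcont
    · intro t ht
      exact (hpos t ht i).ne'

lemma inClass_solution {k : ℝ → Cx d × Cx d → ℝ} {T : ℝ} {x : ℝ → Fin d → ℝ}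
    (hsol : IsPosSolution R k T x) (hcl0 : InClass R c₀ (x 0)) {t : ℝ} (ht : t ∈ Ico 0 T) :
    InClass R c₀ (x t) := by
  have h1 := solution_mem_stoich hsol ht
  unfold InClass at hcl0 ⊢
  have h2 : (fun i => x t i - c₀ i) = (fun i => x t i - x 0 i) + (fun i => x 0 i - c₀ i) := by
    funext i
    simp only [Pi.add_apply]
    ring
  rw [h2]
  exact Submodule.add_mem _ h1 hcl0

/-- The descent in a layer along a solution. -/
theorem layer_step (hWR : WeaklyReversible R) (hdim : Module.finrank ℝ (stoich R) = 2)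
    (hε : 0 < ε) (C : Ctx R ε c₀ c₁) {L : Lay} (hL : LayOK C L) {k : ℝ → Cx d × Cx d → ℝ} {T : ℝ}
    {x : ℝ → Fin d → ℝ} (hk : ∀ t r, ε ≤ k t r ∧ k t r ≤ ε⁻¹) (hsol : IsPosSolution R k T x)
    (hcl0 : InClass R c₀ (x 0)) {t₀ : ℝ} (ht₀ : t₀ ∈ Ico 0 T) (hφ0 : Uf C L (x t₀) < 1) :
    ∀ t ∈ Ico t₀ T, Uf C L (x t) ≤ max 0 (Uf C L (x t₀) - eta R ε C L * (t - t₀)) := by
  have hsub : Ico t₀ T ⊆ Ico 0 T := fun t ht => ⟨ht₀.1.trans ht.1, ht.2⟩
  apply descent (x := x) (v := fun t => massAction R (k t) (x t)) (φ := fun t => Uf C L (x t))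
    (eta_pos hε hL).le
  · intro t ht
    exact hsol.deriv t ⟨lt_of_le_of_lt ht₀.1 ht.1, ht.2⟩
  · exact continuousOn_Uf C L (fun t ht => hsol.pos t (hsub ht)) (hsol.cont.mono hsub)
  · exact hφ0
  · intro t ht h0 h1
    have htI : t ∈ Ico 0 T := hsub ⟨ht.1.le, ht.2⟩
    obtain ⟨g, hg1, hg2⟩ := layer_compat hWR hdim hε C hL (hk t) (hsol.pos t htI)
      (inClass_solution hsol hcl0 htI) h0 h1
    exact ⟨g, fun s hs => hg1 _ (hsol.pos s (hsub hs)), hg2⟩

end Vale.Agent.Lib.P072
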