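import Vale.Agent.Lib.P072.Barrier
import Vale.Agent.Lib.P072.Cut

/-! Boundedness of positive trajectories for stoichiometric subspaces of dimension two. -/

namespace Vale.Agent.Lib.P072

open Finset Real Set Filter Topology

variable {d : ℕ}

/-- The difference of two complexes as a real vector. -/
def diffv (s a : Cx d) : Fin d → ℝ := fun i => (s i : ℝ) - (a i : ℝ)

open Classical in
/-- The complexes occurring in the network. -/
noncomputable def cplxs (R : Finset (Cx d × Cx d)) : Finset (Cx d) :=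
  R.image Prod.fst ∪ R.image Prod.snd

open Classical in
/-- The directions: differences of distinct complexes joined by a directed path. -/
noncomputable def dirs (R : Finset (Cx d × Cx d)) : Finset (Fin d → ℝ) :=
  ((cplxs R ×ˢ cplxs R).filter (fun p => p.1 ≠ p.2 ∧ Reach R p.1 p.2)).image
    (fun p => diffv p.1 p.2)

lemma mem_dirs {R : Finset (Cx d × Cx d)} {s a : Cx d} (hr : Reach R s a) (hne : s ≠ a) :
    diffv s a ∈ dirs R := by
  classical
  unfold dirs
  rw [Finset.mem_image]
  refine ⟨(s, a), ?_, rfl⟩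
  rw [Finset.mem_filter, Finset.mem_product]
  refine ⟨⟨?_, ?_⟩, hne, hr⟩
  · rcases Relation.ReflTransGen.cases_head hr with h | ⟨c, hc, -⟩
    · exact absurd h hne
    · unfold cplxs
      rw [Finset.mem_union]
      left
      exact Finset.mem_image.mpr ⟨(s, c), hc, rfl⟩
  · rcases Relation.ReflTransGen.cases_tail hr with h | ⟨c, -, hc⟩
    · exact absurd h.symm hne
    · unfold cplxs
      rw [Finset.mem_union]
      right
      exact Finset.mem_image.mpr ⟨(c, a), hc, rfl⟩

lemma diffv_ne_zero {s a : Cx d} (hne : s ≠ a) : diffv s a ≠ 0 := by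
  intro h
  apply hne
  funext i
  have := congrFun h i
  simp only [diffv, Pi.zero_apply] at this
  have h2 : (s i : ℝ) = a i := by linarith
  exact_mod_cast h2

lemma dirs_spec {R : Finset (Cx d × Cx d)} {w : Fin d → ℝ} (hw : w ∈ dirs R) :
    ∃ s a, s ≠ a ∧ Reach R s a ∧ w = diffv s a := by
  classical
  unfold dirs at hw
  rw [Finset.mem_image] at hw
  obtain ⟨p, hp, rfl⟩ := hw
  rw [Finset.mem_filter] at hp
  exact ⟨p.1, p.2, hp.2.1, hp.2.2, rfl⟩

lemma dirs_ne {R : Finset (Cx d × Cx d)} : ∀ w ∈ dirs R, w ≠ 0 := by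
  intro w hw
  obtain ⟨s, a, hne, -, rfl⟩ := dirs_spec hw
  exact diffv_ne_zero hne

lemma diffv_int (s a : Cx d) (i : Fin d) : diffv s a i = 0 ∨ 1 ≤ |diffv s a i| := by
  by_cases h : s i = a i
  · left
    simp [diffv, h]
  · right
    have h1 : ((s i : ℤ) - (a i : ℤ)) ≠ 0 := by
      intro h2
      apply h
      have : (s i : ℤ) = a i := by linarith
      exact_mod_cast this
    have h2 : 1 ≤ |(s i : ℤ) - (a i : ℤ)| := Int.one_le_abs h1
    have h3 : ((1 : ℤ) : ℝ) ≤ ((|(s i : ℤ) - (a i : ℤ)| : ℤ) : ℝ) := by exact_mod_cast h2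
    simpa [diffv] using h3

lemma dirs_int {R : Finset (Cx d × Cx d)} {w : Fin d → ℝ} (hw : w ∈ dirs R) (i : Fin d) :
    w i = 0 ∨ 1 ≤ |w i| := by
  obtain ⟨s, a, -, -, rfl⟩ := dirs_spec hw
  exact diffv_int s a i

lemma rxnVec_eq_diffv (r : Cx d × Cx d) : rxnVec r = diffv r.2 r.1 := rfl

lemma rxnVec_mem {R : Finset (Cx d × Cx d)} {r : Cx d × Cx d} (hr : r ∈ R) :
    rxnVec r ∈ stoich R :=
  Submodule.subset_span (Set.mem_image_of_mem _ (Finset.mem_coe.mpr hr))

lemma reach_diffv_mem {R : Finset (Cx d × Cx d)} {s a : Cx d} (hr : Reach R s a) :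
    diffv s a ∈ stoich R := by
  induction hr using Relation.ReflTransGen.head_induction_on with
  | refl =>
    have : diffv a a = (0 : Fin d → ℝ) := by
      funext i; simp [diffv]
    rw [this]
    exact Submodule.zero_mem _
  | @head b c hbc _ ih =>
    have h1 : rxnVec (b, c) ∈ stoich R := rxnVec_mem hbc
    have h2 : diffv b a = diffv c a - rxnVec (b, c) := by
      funext i
      simp only [diffv, rxnVec, Pi.sub_apply]
      ring
    rw [h2]
    exact Submodule.sub_mem _ ih h1

lemma dirs_mem_stoich {R : Finset (Cx d × Cx d)} {w : Fin d → ℝ} (hw : w ∈ dirs R) :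
    w ∈ stoich R := by
  obtain ⟨s, a, -, hr, rfl⟩ := dirs_spec hw
  exact reach_diffv_mem hr

lemma exists_nonpar {R : Finset (Cx d × Cx d)} (hWR : WeaklyReversible R)
    (hdim : Module.finrank ℝ (stoich R) = 2) :
    ∃ w₁ ∈ dirs R, ∃ w₂ ∈ dirs R, NonPar w₁ w₂ := by
  classical
  by_contra hcon
  push Not at hcon
  -- a nonzero reaction vector
  have hex : ∃ r ∈ R, r.2 ≠ r.1 := by
    by_contra hall
    push Not at hall
    have : stoich R = ⊥ := by
      unfold stoich
      rw [Submodule.span_eq_bot]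
      rintro v ⟨r, hr, rfl⟩
      funext i
      have h := hall r (Finset.mem_coe.mp hr)
      simp [rxnVec, h]
    rw [this] at hdim
    simp at hdim
  obtain ⟨r₀, hr₀, hr₀ne⟩ := hex
  set w₀ := rxnVec r₀ with hw₀
  have hw₀mem : w₀ ∈ dirs R := mem_dirs (hWR r₀ hr₀) hr₀ne
  have hw₀ne : w₀ ≠ 0 := diffv_ne_zero hr₀ne
  have hle : stoich R ≤ Submodule.span ℝ {w₀} := by
    unfold stoich
    rw [Submodule.span_le]
    rintro v ⟨r, hr, rfl⟩
    by_cases hrr : r.2 = r.1
    · have : rxnVec r = (0 : Fin d → ℝ) := by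
        funext i
        simp [rxnVec, hrr]
      rw [this]
      exact Submodule.zero_mem _
    · have hmem : rxnVec r ∈ dirs R := mem_dirs (hWR r (Finset.mem_coe.mp hr)) hrr
      have hpar := hcon w₀ hw₀mem (rxnVec r) hmem
      unfold NonPar at hpar
      push Not at hpar
      obtain ⟨i, hi⟩ : ∃ i, w₀ i ≠ 0 := by
        by_contra h
        push Not at h
        exact hw₀ne (funext h)
      rw [SetLike.mem_coe, Submodule.mem_span_singleton]
      refine ⟨rxnVec r i / w₀ i, ?_⟩
      funext j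
      have h1 := hpar i j
      simp only [Pi.smul_apply, smul_eq_mul]
      field_simp
      linarith
  have hfr := Submodule.finrank_mono hle
  rw [hdim] at hfr
  have h2 : Module.finrank ℝ (Submodule.span ℝ {w₀}) = 1 := finrank_span_singleton hw₀ne
  omega

lemma decompose {S : Submodule ℝ (Fin d → ℝ)} (hdim : Module.finrank ℝ S = 2)
    {w w' : Fin d → ℝ} (hw : w ∈ S) (hw' : w' ∈ S) (hnp : NonPar w w') {v : Fin d → ℝ}
    (hv : v ∈ S) : ∃ a a' : ℝ, ∀ i, v i = a * w i + a' * w' i := by
  obtain ⟨i₀, j₀, hΔ⟩ := hnp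
  have hli : LinearIndependent ℝ ![w, w'] := by
    rw [LinearIndependent.pair_iff]
    intro s t hst
    have h1 := congrFun hst i₀
    have h2 := congrFun hst j₀
    simp only [Pi.add_apply, Pi.smul_apply, smul_eq_mul, Pi.zero_apply] at h1 h2
    have hs : s * (w i₀ * w' j₀ - w j₀ * w' i₀) = 0 := by
      linear_combination (w' j₀) * h1 - (w' i₀) * h2
    have ht : t * (w i₀ * w' j₀ - w j₀ * w' i₀) = 0 := by
      linear_combination (w i₀) * h2 - (w j₀) * h1
    exact ⟨(mul_eq_zero.mp hs).resolve_right hΔ, (mul_eq_zero.mp ht).resolve_right hΔ⟩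
  have hspan : Submodule.span ℝ (Set.range ![w, w']) ≤ S := by
    rw [Submodule.span_le]
    rintro u ⟨k, rfl⟩
    fin_cases k
    · exact hw
    · exact hw'
  have hfr : Module.finrank ℝ (Submodule.span ℝ (Set.range ![w, w'])) = 2 := by
    rw [finrank_span_eq_card hli]
    simp
  have heq : Submodule.span ℝ (Set.range ![w, w']) = S :=
    Submodule.eq_of_le_of_finrank_eq hspan (by rw [hfr, hdim])
  rw [← heq] at hv
  have hrange : Set.range ![w, w'] = {w, w'} := by
    simp [Matrix.range_cons, Matrix.range_empty, Set.pair_comm, Set.singleton_union]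
  rw [hrange, Submodule.mem_span_pair] at hv
  obtain ⟨a, a', rfl⟩ := hv
  exact ⟨a, a', fun i => by simp⟩

/-- Solutions stay in their stoichiometric class. -/
lemma solution_mem_stoich {R : Finset (Cx d × Cx d)} {k : ℝ → Cx d × Cx d → ℝ} {T : ℝ}
    {x : ℝ → Fin d → ℝ} (hx : IsPosSolution R k T x) {t : ℝ} (ht : t ∈ Ico 0 T) :
    (fun i => x t i - x 0 i) ∈ stoich R := by
  classical
  by_contra hcon
  obtain ⟨f, hfv, hf⟩ := Submodule.exists_le_ker_of_notMem hcon
  rcases eq_or_lt_of_le ht.1 with h0 | h0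
  · apply hfv
    have : (fun i => x t i - x 0 i) = (0 : Fin d → ℝ) := by
      funext i; rw [← h0]; simp
    rw [this, map_zero]
  set q : Fin d → ℝ := fun i => f (Pi.single i 1) with hq
  have hfform : ∀ u : Fin d → ℝ, f u = dot q u := by
    intro u
    have := LinearMap.pi_apply_eq_sum_univ f u
    rw [this]
    unfold dot
    apply Finset.sum_congr rfl
    intro i _
    simp only [hq, smul_eq_mul]
    have : (fun j => if i = j then (1 : ℝ) else 0) = Pi.single i 1 := by
      funext j
      by_cases hij : i = j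
      · subst hij; simp
      · simp [hij, Pi.single_apply, Ne.symm hij]
    rw [this]
    ring
  have hT0 : (0 : ℝ) < T := lt_of_le_of_lt ht.1 ht.2
  have hIcc : Icc 0 t ⊆ Ico 0 T := fun u hu => ⟨hu.1, lt_of_le_of_lt hu.2 ht.2⟩
  have hcont : ContinuousOn (fun τ => dot q (x τ)) (Icc 0 t) := by
    unfold dot
    apply continuousOn_finsetSum
    intro i _
    apply ContinuousOn.mul continuousOn_const
    exact (continuous_apply i).comp_continuousOn (hx.cont.mono hIcc)
  have hder : ∀ τ ∈ Ioo 0 t, HasDerivAt (fun τ => dot q (x τ)) 0 τ := by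
    intro τ hτ
    have h1 := hasDerivAt_dot q (hx.deriv τ ⟨hτ.1, lt_trans hτ.2 ht.2⟩)
    have h2 : dot q (massAction R (k τ) (x τ)) = 0 := by
      rw [← hfform]
      have : massAction R (k τ) (x τ)
          = ∑ r ∈ R, (k τ r * mono (x τ) r.1) • rxnVec r := by
        funext i
        simp [massAction, Finset.sum_apply]
      rw [this, map_sum]
      apply Finset.sum_eq_zero
      intro r hr
      rw [map_smul]
      have h3 : rxnVec r ∈ LinearMap.ker f := hf (rxnVec_mem hr)
      rw [LinearMap.mem_ker] at h3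
      rw [h3, smul_zero]
    rwa [h2] at h1
  obtain ⟨c, hc, hc2⟩ := exists_hasDerivAt_eq_slope (fun τ => dot q (x τ)) (fun _ => 0) h0 hcont hder
  have h4 : dot q (x t) = dot q (x 0) := by
    have hne : t - 0 ≠ 0 := by simpa using h0.ne'
    field_simp at hc2
    linarith
  apply hfv
  rw [hfform]
  have h5 : (fun i => x t i - x 0 i) = fun i => x t i + (-1) * x 0 i := by
    funext i; ring
  rw [h5, dot_add_right, dot_smul_right, h4]
  ring

lemma mono_eq_exp {x : Fin d → ℝ} (hx : ∀ i, 0 < x i) (y : Cx d) :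
    mono x y = exp (∑ i, (y i : ℝ) * log (x i)) := by
  unfold mono
  rw [exp_sum]
  apply Finset.prod_congr rfl
  intro i _
  rw [exp_nat_mul, exp_log (hx i)]

lemma mono_pos {x : Fin d → ℝ} (hx : ∀ i, 0 < x i) (y : Cx d) : 0 < mono x y :=
  Finset.prod_pos (fun i _ => pow_pos (hx i) _)

/-- The flux identity for the dot product with the vector field. -/
lemma dot_massAction (R : Finset (Cx d × Cx d)) (κ : Cx d × Cx d → ℝ) (x g : Fin d → ℝ) :
    dot g (massAction R κ x) = ∑ r ∈ R, κ r * mono x r.1 *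
      ((∑ i, (r.2 i : ℝ) * g i) - (∑ i, (r.1 i : ℝ) * g i)) := by
  unfold dot massAction
  simp only [Finset.mul_sum]
  rw [Finset.sum_comm]
  apply Finset.sum_congr rfl
  intro r _
  rw [← Finset.sum_sub_distrib, Finset.mul_sum]
  apply Finset.sum_congr rfl
  intro i _
  simp only [rxnVec]
  ring

/-- Main theorem: boundedness for stoichiometric subspaces of dimension two, uniformly over
rates in `[ε, 1/ε]` and depending only on the initial point. -/
theorem bounded_of_finrank_two {R : Finset (Cx d × Cx d)} (hWR : WeaklyReversible R)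
    (hdim : Module.finrank ℝ (stoich R) = 2) {ε : ℝ} (hε : 0 < ε) {x₀ : Fin d → ℝ}
    (hx₀ : ∀ i, 0 < x₀ i) :
    ∃ C : ℝ, ∀ (k : ℝ → Cx d × Cx d → ℝ) (T : ℝ) (x : ℝ → Fin d → ℝ),
      (∀ t r, ε ≤ k t r ∧ k t r ≤ ε⁻¹) → x 0 = x₀ → IsPosSolution R k T x →
      ∀ t ∈ Ico 0 T, ∀ i, x t i ≤ C := by
  classical
  obtain ⟨w₁, hw₁, w₂, hw₂, hnp⟩ := exists_nonpar hWR hdim
  set W := dirs R with hWdef
  have hWne : W.Nonempty := ⟨w₁, hw₁⟩
  have hW0 : ∀ u ∈ W, u ≠ 0 := dirs_ne
  -- constants
  set N : ℝ := ∑ u ∈ W, ∑ i, |u i| with hN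
  have hNbd : ∀ u ∈ W, ∀ i, |u i| ≤ N := by
    intro u hu i
    have h1 : |u i| ≤ ∑ i, |u i| :=
      Finset.single_le_sum (f := fun i => |u i|) (fun j _ => abs_nonneg _) (Finset.mem_univ i)
    have h2 : ∑ i, |u i| ≤ N :=
      Finset.single_le_sum (f := fun u : Fin d → ℝ => ∑ i, |u i|)
        (fun v _ => Finset.sum_nonneg (fun j _ => abs_nonneg _)) hu
    linarith
  have hN0 : 0 ≤ N := Finset.sum_nonneg (fun v _ => Finset.sum_nonneg (fun j _ => abs_nonneg _))
  obtain ⟨B₀, hflux⟩ := flux_le_zero hWR hε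
  set B : ℝ := max B₀ 0 with hB
  have hBB₀ : B₀ ≤ B := le_max_left _ _
  have hB0 : 0 ≤ B := le_max_right _ _
  set Γ : ℝ := B + (d : ℝ) * (B * (exp B - 1) + N + 1) with hΓ
  have hΓ0 : 0 ≤ Γ := by
    have h1 : B + 1 ≤ exp B := add_one_le_exp B
    have h2 : 0 ≤ B * (exp B - 1) := mul_nonneg hB0 (by linarith)
    have h3 : (0 : ℝ) ≤ d := Nat.cast_nonneg d
    have h4 : 0 ≤ (d : ℝ) * (B * (exp B - 1) + N + 1) := mul_nonneg h3 (by linarith)
    linarith
  -- the margin constant
  have hmargin : ∃ M₀ : ℝ, ∀ u ∈ W, ∀ u' ∈ W, NonPar u u' → ∀ (y : Fin d → ℝ) (a a' : ℝ),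
      (∀ i, 0 < y i) → (∀ i, y i - x₀ i = a * u i + a' * u' i) → dot u (lv y) = 0 →
      |dot u' (lv y)| ≤ Γ → ent y ≤ M₀ := by
    have key : ∀ p : (Fin d → ℝ) × (Fin d → ℝ), NonPar p.1 p.2 → ∃ M₀ : ℝ,
        ∀ (y : Fin d → ℝ) (a a' : ℝ),
        (∀ i, 0 < y i) → (∀ i, y i - x₀ i = a * p.1 i + a' * p.2 i) → dot p.1 (lv y) = 0 →
        |dot p.2 (lv y)| ≤ Γ → ent y ≤ M₀ := by
      intro p hp
      obtain ⟨Rb, hRb⟩ := margin_bound x₀ p.1 p.2 hx₀ hp Γ hΓ0
      exact ⟨(d : ℝ) * (max Rb 1 * log (max Rb 1)), fun y a a' hy hdec horth hbd =>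
        ent_le_of_coord_le hy (hRb y a a' hy hdec horth hbd)⟩
    choose! M₁ hM₁ using key
    obtain ⟨M₀, hM₀⟩ := Finset.exists_le ((W ×ˢ W).image M₁)
    refine ⟨M₀, fun u hu u' hu' hnp' y a a' hy hdec horth hbd => ?_⟩
    have h1 := hM₁ (u, u') hnp' y a a' hy hdec horth hbd
    have h2 : M₁ (u, u') ∈ (W ×ˢ W).image M₁ :=
      Finset.mem_image.mpr ⟨(u, u'), Finset.mem_product.mpr ⟨hu, hu'⟩, rfl⟩
    exact h1.trans (hM₀ _ h2)
  obtain ⟨M₀, hM₀⟩ := hmargin
  set M₁ : ℝ := M₀ + 1 with hM₁
  set M₂ : ℝ := max (Lmax W hWne x₀) M₁ with hM₂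
  set Rb : ℝ := max (max (exp 2) (M₂ + d)) 0 with hRb
  have hRb0 : 0 ≤ Rb := le_max_right _ _
  obtain ⟨C, hC⟩ := coord_le_of_two_proj hnp Rb hRb0
  refine ⟨C, fun k T x hk hx0 hx t ht i => ?_⟩
  have hT0 : (0 : ℝ) ∈ Ico 0 T := ⟨le_refl _, lt_of_le_of_lt ht.1 ht.2⟩
  -- the barrier
  have hbar := barrier (T := T) (M := M₁) (x := x) (v := fun t => massAction R (k t) (x t))
    (φ := fun t => Lmax W hWne (x t)) hx.deriv
    (fun T₀ hT₀ e c => closed_level hWne hW0 hx.pos hx.cont hT₀ e c) ?_ t ht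
  · -- conclusion from the barrier
    have hxpos := hx.pos t ht
    simp only [hx0] at hbar
    have hbound : ∀ u ∈ W, ∀ j, 0 < proj u (x t) j ∧ proj u (x t) j ≤ Rb := by
      intro u hu j
      refine ⟨proj_pos (hW0 u hu) hxpos j, ?_⟩
      have h1 : ent (proj u (x t)) ≤ Lmax W hWne (x t) :=
        Finset.le_sup' (fun w => ent (proj w (x t))) hu
      have h2 := coord_le_of_ent_le (proj_pos (hW0 u hu) hxpos) (h1.trans hbar) j
      exact h2.trans (le_max_left _ _)
    exact hC (x t) (hbound w₁ hw₁) (hbound w₂ hw₂) i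
  · -- the subgradient and flux condition
    intro τ hτ hMτ
    have hτT : τ ∈ Ico 0 T := ⟨hτ.1.le, hτ.2⟩
    have hXpos := hx.pos τ hτT
    set X := x τ with hX
    obtain ⟨w, hwW, hwsup⟩ := Finset.exists_mem_eq_sup' hWne (fun w => ent (proj w X))
    have hact : Active W w X := by
      refine ⟨hwW, fun w' hw' => ?_⟩
      have := Finset.le_sup' (fun w => ent (proj w X)) hw'
      rw [hwsup] at this
      exact this
    have hw0 := hW0 w hwW
    set y := proj w X with hy
    have hypos : ∀ i, 0 < y i := proj_pos hw0 hXpos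
    set g := lv y with hg
    have hLeq : Lmax W hWne X = ent y := hwsup
    have hent : M₁ ≤ ent y := by
      rw [← hLeq]; exact hMτ
    refine ⟨g, ?_, ?_⟩
    · -- subgradient
      intro s hs
      have h1 : ent y = Phi g X := ent_proj_eq_Phi hw0 hXpos
      have h2 : Phi g (x s) ≤ ent (proj w (x s)) :=
        Phi_le_ent_proj hw0 (hx.pos s hs) (dot_lv_proj hw0 hXpos)
      have h3 : ent (proj w (x s)) ≤ Lmax W hWne (x s) :=
        Finset.le_sup' (fun w => ent (proj w (x s))) hwW
      show Lmax W hWne X - Lmax W hWne (x s) ≤ dot g X - dot g (x s)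
      rw [hLeq, h1]
      unfold Phi at h2 ⊢
      linarith
    · -- flux
      show dot g (massAction R (k τ) X) ≤ 0
      rw [dot_massAction]
      apply hflux B hBB₀ (fun c => ∑ i, (c i : ℝ) * g i) (fun c => mono X c) (k τ)
        (fun c => mono_pos hXpos c) ?_ (fun r => hk τ r)
      intro s a hreach hlt
      have hsa : s ≠ a := by
        rintro rfl
        exact lt_irrefl _ hlt
      set w' := diffv s a with hw'def
      have hw'W : w' ∈ W := mem_dirs hreach hsa
      have hdot : dot w' g = (∑ i, (s i : ℝ) * g i) - (∑ i, (a i : ℝ) * g i) := by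
        unfold dot
        rw [← Finset.sum_sub_distrib]
        apply Finset.sum_congr rfl
        intro i _
        simp only [hw'def, diffv]
        ring
      have hdotpos : 0 < dot w' g := by
        rw [hdot]; linarith
      have horth : dot w (lv y) = 0 := proj_orth hw0 hXpos
      have hnpw : NonPar w w' := by
        by_contra hpar
        have h1 : dot g w = 0 := by rw [dot_comm]; exact horth
        have h2 := dot_eq_zero_of_par hw0 hpar h1
        rw [dot_comm] at h2
        linarith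
      -- the stoichiometric class of y
      have hyclass : (fun i => y i - x₀ i) ∈ stoich R := by
        have h1 := solution_mem_stoich hx hτT
        rw [hx0] at h1
        have h2 := dirs_mem_stoich hwW
        have h3 : (fun i => y i - x₀ i)
            = (fun i => X i - x₀ i) + (shiftOf w X) • w := by
          funext i
          simp only [Pi.add_apply, Pi.smul_apply, smul_eq_mul, hy, proj]
          ring
        rw [h3]
        exact Submodule.add_mem _ h1 (Submodule.smul_mem _ _ h2)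
      obtain ⟨c₁, c₂, hdec⟩ := decompose hdim (dirs_mem_stoich hwW) (dirs_mem_stoich hw'W) hnpw
        hyclass
      have hΓle : Γ ≤ dot w' (lv y) := by
        by_contra hlt2
        push Not at hlt2
        have habs : |dot w' (lv y)| ≤ Γ := by
          rw [abs_of_pos hdotpos]; exact hlt2.le
        have h1 := hM₀ w hwW w' hw'W hnpw y c₁ c₂ hypos hdec horth habs
        linarith
      have hgap := gap_active hW0 hXpos hact hw'W (dirs_int hw'W) (hNbd w' hw'W) hB0 hΓle
      -- conclude for the monomials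
      show exp B * mono X a ≤ mono X s
      rw [mono_eq_exp hXpos, mono_eq_exp hXpos, ← exp_add]
      apply exp_le_exp.mpr
      have h3 : dot w' (lv X) = (∑ i, (s i : ℝ) * log (X i)) - (∑ i, (a i : ℝ) * log (X i)) := by
        unfold dot lv
        rw [← Finset.sum_sub_distrib]
        apply Finset.sum_congr rfl
        intro i _
        simp only [hw'def, diffv]
        ring
      linarith

end Vale.Agent.Lib.P072
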