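import Vale.Agent.Lib.P072.Active

/-! Boundedness estimates that use two independent directions. -/

namespace Vale.Agent.Lib.P072

open Finset Real

variable {d : ℕ}

/-- Two vectors are not parallel: some two by two minor does not vanish. -/
def NonPar (w w' : Fin d → ℝ) : Prop := ∃ i j, w i * w' j - w j * w' i ≠ 0

lemma dot_eq_zero_of_par {w w' g : Fin d → ℝ} (hw : w ≠ 0) (hpar : ¬ NonPar w w')
    (h : dot g w = 0) : dot g w' = 0 := by
  unfold NonPar at hpar
  push Not at hpar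
  obtain ⟨i, hi⟩ : ∃ i, w i ≠ 0 := by
    by_contra hcon
    push Not at hcon
    exact hw (funext hcon)
  have h1 : w i * dot g w' = w' i * dot g w := by
    unfold dot
    rw [Finset.mul_sum, Finset.mul_sum]
    apply Finset.sum_congr rfl
    intro j _
    have := hpar i j
    linear_combination (g j) * this
  rw [h, mul_zero] at h1
  exact (mul_eq_zero.mp h1).resolve_left hi

/-- The margin bound: a point of the affine plane through `c` spanned by `w, w'`, with logarithm
orthogonal to `w` and with a bounded value of `w'`, has bounded coordinates. -/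
lemma margin_bound (c w w' : Fin d → ℝ) (hc : ∀ i, 0 < c i) (hnp : NonPar w w') (Γ : ℝ)
    (hΓ : 0 ≤ Γ) : ∃ Rb : ℝ, ∀ (y : Fin d → ℝ) (a a' : ℝ), (∀ i, 0 < y i) →
      (∀ i, y i - c i = a * w i + a' * w' i) → dot w (lv y) = 0 → |dot w' (lv y)| ≤ Γ →
      ∀ i, y i ≤ Rb := by
  classical
  obtain ⟨i₀, j₀, hΔ⟩ := hnp
  set Δ := w i₀ * w' j₀ - w j₀ * w' i₀ with hΔdef
  have hΔabs : 0 < |Δ| := abs_pos.mpr hΔ
  set C₁ := (|w i₀| + |w j₀|) / |Δ| with hC₁
  have hC₁0 : 0 ≤ C₁ := by positivity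
  set K : ℝ := ∑ j, |log (c j)| with hK
  have hK0 : 0 ≤ K := Finset.sum_nonneg (fun j _ => abs_nonneg _)
  set S₀ : ℝ := ∑ j, c j with hS₀
  have hS₀0 : 0 ≤ S₀ := Finset.sum_nonneg (fun j _ => (hc j).le)
  have hcle : ∀ i, c i ≤ S₀ := fun i =>
    Finset.single_le_sum (f := c) (fun j _ => (hc j).le) (Finset.mem_univ i)
  refine ⟨S₀ + (S₀ + exp (C₁ * Γ + K)), ?_⟩
  intro y a a' hy hdec horth hbd i
  have hfin : (Finset.univ : Finset (Fin d)).Nonempty := ⟨i, Finset.mem_univ i⟩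
  obtain ⟨m, -, hm⟩ := Finset.exists_max_image Finset.univ (fun j => |y j - c j|) hfin
  set D := |y m - c m| with hD
  have hvle : ∀ j, |y j - c j| ≤ D := fun j => hm j (Finset.mem_univ j)
  have hD0 : 0 ≤ D := abs_nonneg _
  -- the bound on `a'`
  have ha'Δ : a' * Δ = w i₀ * (y j₀ - c j₀) - w j₀ * (y i₀ - c i₀) := by
    rw [hdec j₀, hdec i₀, hΔdef]; ring
  have ha'abs : |a'| ≤ C₁ * D := by
    rw [hC₁, div_mul_eq_mul_div, le_div_iff₀ hΔabs, ← abs_mul, ha'Δ]
    calc |w i₀ * (y j₀ - c j₀) - w j₀ * (y i₀ - c i₀)|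
        ≤ |w i₀ * (y j₀ - c j₀)| + |w j₀ * (y i₀ - c i₀)| := abs_sub _ _
      _ = |w i₀| * |y j₀ - c j₀| + |w j₀| * |y i₀ - c i₀| := by rw [abs_mul, abs_mul]
      _ ≤ |w i₀| * D + |w j₀| * D := by
          exact add_le_add (mul_le_mul_of_nonneg_left (hvle _) (abs_nonneg _))
            (mul_le_mul_of_nonneg_left (hvle _) (abs_nonneg _))
      _ = (|w i₀| + |w j₀|) * D := by ring
  -- the basic identity
  have hid : ∑ j, (y j - c j) * log (y j) = a' * dot w' (lv y) := by
    have h1 : ∑ j, (y j - c j) * log (y j) = a * dot w (lv y) + a' * dot w' (lv y) := by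
      unfold dot lv
      rw [Finset.mul_sum, Finset.mul_sum, ← Finset.sum_add_distrib]
      apply Finset.sum_congr rfl
      intro j _
      rw [hdec j]; ring
    rw [h1, horth]; ring
  have hup : ∑ j, (y j - c j) * log (y j) ≤ C₁ * D * Γ := by
    rw [hid]
    calc a' * dot w' (lv y) ≤ |a' * dot w' (lv y)| := le_abs_self _
      _ = |a'| * |dot w' (lv y)| := abs_mul _ _
      _ ≤ (C₁ * D) * Γ := mul_le_mul ha'abs hbd (abs_nonneg _) (by positivity)
  -- termwise lower bounds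
  have hterm : ∀ j, -(D * |log (c j)|) ≤ (y j - c j) * log (y j) := by
    intro j
    have h1 : (y j - c j) * log (c j) ≤ (y j - c j) * log (y j) := by
      rcases le_total (c j) (y j) with hle | hle
      · exact mul_le_mul_of_nonneg_left (log_le_log (hc j) hle) (by linarith)
      · exact mul_le_mul_of_nonpos_left (log_le_log (hy j) hle) (by linarith)
    have h2 : -(D * |log (c j)|) ≤ (y j - c j) * log (c j) := by
      have h3 : |(y j - c j) * log (c j)| ≤ D * |log (c j)| := by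
        rw [abs_mul]
        exact mul_le_mul_of_nonneg_right (hvle j) (abs_nonneg _)
      linarith [neg_abs_le ((y j - c j) * log (c j))]
    linarith
  -- the bound on `D`
  have hDbd : D ≤ S₀ + exp (C₁ * Γ + K) := by
    by_contra hcon
    push Not at hcon
    have hexp := exp_pos (C₁ * Γ + K)
    have hDpos : 0 < D := by linarith
    have hvm : y m - c m = D := by
      rcases le_total 0 (y m - c m) with hs | hs
      · rw [hD, abs_of_nonneg hs]
      · exfalso
        have h1 : D = c m - y m := by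
          rw [hD, abs_of_nonpos hs]; ring
        have h2 := hcle m
        have h3 := hy m
        linarith
    have hym : exp (C₁ * Γ + K) < y m := by
      have := hc m
      linarith
    have hlog : C₁ * Γ + K < log (y m) := by
      rw [← log_exp (C₁ * Γ + K)]
      exact log_lt_log hexp hym
    have hsplit : ∑ j, (y j - c j) * log (y j)
        = (y m - c m) * log (y m) + ∑ j ∈ Finset.univ.erase m, (y j - c j) * log (y j) :=
      (Finset.add_sum_erase _ _ (Finset.mem_univ m)).symm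
    have hrest : -(D * K) ≤ ∑ j ∈ Finset.univ.erase m, (y j - c j) * log (y j) := by
      have h1 : ∑ j ∈ Finset.univ.erase m, -(D * |log (c j)|)
          ≤ ∑ j ∈ Finset.univ.erase m, (y j - c j) * log (y j) :=
        Finset.sum_le_sum (fun j _ => hterm j)
      have h2 : ∑ j ∈ Finset.univ.erase m, |log (c j)| ≤ K := by
        rw [hK]
        apply Finset.sum_le_sum_of_subset_of_nonneg (Finset.erase_subset _ _)
        intro j _ _
        exact abs_nonneg _
      rw [Finset.sum_neg_distrib, ← Finset.mul_sum] at h1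
      have h3 := mul_le_mul_of_nonneg_left h2 hD0
      linarith
    rw [hsplit, hvm] at hup
    have h4 : D * (C₁ * Γ + K) < D * log (y m) := mul_lt_mul_of_pos_left hlog hDpos
    nlinarith
  have h5 : y i - c i ≤ D := (le_abs_self _).trans (hvle i)
  have h6 := hcle i
  linarith

/-- Bounded coordinates give bounded entropy. -/
lemma ent_le_of_coord_le {y : Fin d → ℝ} (hy : ∀ i, 0 < y i) {Rb : ℝ} (hb : ∀ i, y i ≤ Rb) :
    ent y ≤ (d : ℝ) * (max Rb 1 * log (max Rb 1)) := by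
  set R' := max Rb 1 with hR'
  have hR1 : 1 ≤ R' := le_max_right _ _
  have hlog0 : 0 ≤ log R' := log_nonneg hR1
  unfold ent
  calc ∑ i, y i * (log (y i) - 1) ≤ ∑ _i : Fin d, R' * log R' := by
        apply Finset.sum_le_sum
        intro i _
        have h1 : y i ≤ R' := (hb i).trans (le_max_left _ _)
        have h2 : log (y i) ≤ log R' := log_le_log (hy i) h1
        have h3 : y i * (log (y i) - 1) ≤ y i * log R' :=
          mul_le_mul_of_nonneg_left (by linarith) (hy i).le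
        have h4 : y i * log R' ≤ R' * log R' := mul_le_mul_of_nonneg_right h1 hlog0
        linarith
    _ = (d : ℝ) * (R' * log R') := by
        rw [Finset.sum_const, Finset.card_univ, Fintype.card_fin, nsmul_eq_mul]

/-- Bounded entropy gives bounded coordinates. -/
lemma coord_le_of_ent_le {y : Fin d → ℝ} (hy : ∀ i, 0 < y i) {M' : ℝ} (hb : ent y ≤ M') (i : Fin d) :
    y i ≤ max (exp 2) (M' + d) := by
  have hterm : ∀ j, 0 ≤ y j * (log (y j) - 1) + 1 := by
    intro j
    have h := one_sub_inv_le_log_of_pos (hy j)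
    have h2 : y j * (1 - (y j)⁻¹) = y j - 1 := by
      have := (hy j).ne'
      field_simp
    have h3 := mul_le_mul_of_nonneg_left h (hy j).le
    nlinarith
  have h1 : y i * (log (y i) - 1) + 1 ≤ ∑ j, (y j * (log (y j) - 1) + 1) :=
    Finset.single_le_sum (f := fun j => y j * (log (y j) - 1) + 1)
      (fun j _ => hterm j) (Finset.mem_univ i)
  have h2 : ∑ j, (y j * (log (y j) - 1) + 1) = ent y + d := by
    rw [Finset.sum_add_distrib]
    simp [ent]
  rcases le_or_gt (y i) (exp 2) with h3 | h3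
  · exact h3.trans (le_max_left _ _)
  · apply le_trans _ (le_max_right _ _)
    have h4 : 2 < log (y i) := by
      rw [← log_exp 2]
      exact log_lt_log (exp_pos 2) h3
    have h5 := hy i
    nlinarith

/-- Two independent directions: if both orthogonal points are bounded, then `x` is bounded. -/
lemma coord_le_of_two_proj {w₁ w₂ : Fin d → ℝ} (hnp : NonPar w₁ w₂) (Rb : ℝ) (hRb : 0 ≤ Rb) :
    ∃ C : ℝ, ∀ x : Fin d → ℝ, (∀ i, 0 < proj w₁ x i ∧ proj w₁ x i ≤ Rb) →
      (∀ i, 0 < proj w₂ x i ∧ proj w₂ x i ≤ Rb) → ∀ i, x i ≤ C := by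
  obtain ⟨i₀, j₀, hΔ⟩ := hnp
  set Δ := w₁ i₀ * w₂ j₀ - w₁ j₀ * w₂ i₀ with hΔdef
  have hΔabs : 0 < |Δ| := abs_pos.mpr hΔ
  refine ⟨Rb + Rb * ((|w₂ j₀| + |w₂ i₀|) / |Δ|) * (∑ j, |w₁ j|), ?_⟩
  intro x h₁ h₂ i
  set s₁ := shiftOf w₁ x with hs₁
  set s₂ := shiftOf w₂ x with hs₂
  have hy₁ : ∀ j, proj w₁ x j = x j + s₁ * w₁ j := fun j => rfl
  have hy₂ : ∀ j, proj w₂ x j = x j + s₂ * w₂ j := fun j => rfl
  have hu : ∀ j, |proj w₁ x j - proj w₂ x j| ≤ Rb := by
    intro j
    rw [abs_le]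
    constructor
    · linarith [(h₁ j).1, (h₂ j).2]
    · linarith [(h₂ j).1, (h₁ j).2]
  have hsΔ : s₁ * Δ = (proj w₁ x i₀ - proj w₂ x i₀) * w₂ j₀
      - (proj w₁ x j₀ - proj w₂ x j₀) * w₂ i₀ := by
    rw [hy₁, hy₁, hy₂, hy₂, hΔdef]; ring
  have hs₁abs : |s₁| ≤ Rb * ((|w₂ j₀| + |w₂ i₀|) / |Δ|) := by
    rw [mul_div_assoc', le_div_iff₀ hΔabs, ← abs_mul, hsΔ]
    calc |(proj w₁ x i₀ - proj w₂ x i₀) * w₂ j₀ - (proj w₁ x j₀ - proj w₂ x j₀) * w₂ i₀|
        ≤ |(proj w₁ x i₀ - proj w₂ x i₀) * w₂ j₀|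
          + |(proj w₁ x j₀ - proj w₂ x j₀) * w₂ i₀| := abs_sub _ _
      _ = |proj w₁ x i₀ - proj w₂ x i₀| * |w₂ j₀|
          + |proj w₁ x j₀ - proj w₂ x j₀| * |w₂ i₀| := by rw [abs_mul, abs_mul]
      _ ≤ Rb * |w₂ j₀| + Rb * |w₂ i₀| :=
          add_le_add (mul_le_mul_of_nonneg_right (hu _) (abs_nonneg _))
            (mul_le_mul_of_nonneg_right (hu _) (abs_nonneg _))
      _ = Rb * (|w₂ j₀| + |w₂ i₀|) := by ring
  have hw₁i : |w₁ i| ≤ ∑ j, |w₁ j| :=
    Finset.single_le_sum (f := fun j => |w₁ j|) (fun j _ => abs_nonneg _) (Finset.mem_univ i)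
  have hxi : x i = proj w₁ x i - s₁ * w₁ i := by rw [hy₁]; ring
  have hprod : -(s₁ * w₁ i) ≤ Rb * ((|w₂ j₀| + |w₂ i₀|) / |Δ|) * (∑ j, |w₁ j|) := by
    calc -(s₁ * w₁ i) ≤ |s₁ * w₁ i| := neg_le_abs _
      _ = |s₁| * |w₁ i| := abs_mul _ _
      _ ≤ _ := mul_le_mul hs₁abs hw₁i (abs_nonneg _) (by positivity)
  rw [hxi]
  linarith [(h₁ i).2]

end Vale.Agent.Lib.P072
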