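import Vale.Agent.Lib.P072.Layer2

/-! Construction of the layers, invariant compact sets and the absorbing compact set. -/

namespace Vale.Agent.Lib.P072

open Finset Real Set Filter Topology

variable {d : ℕ}

/-- Two independent directions: if two points on the lines through `x` are bounded, then `x` is
bounded. -/
lemma coord_le_two_shifts {w₁ w₂ : Fin d → ℝ} (hnp : NonPar w₁ w₂) (Rb : ℝ) (hRb : 0 ≤ Rb) :
    ∃ C : ℝ, ∀ (x : Fin d → ℝ) (s₁ s₂ : ℝ), (∀ i, 0 < x i + s₁ * w₁ i ∧ x i + s₁ * w₁ i ≤ Rb) →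
      (∀ i, 0 < x i + s₂ * w₂ i ∧ x i + s₂ * w₂ i ≤ Rb) → ∀ i, x i ≤ C := by
  obtain ⟨i₀, j₀, hΔ⟩ := hnp
  set Δ := w₁ i₀ * w₂ j₀ - w₁ j₀ * w₂ i₀ with hΔdef
  have hΔabs : 0 < |Δ| := abs_pos.mpr hΔ
  refine ⟨Rb + Rb * ((|w₂ j₀| + |w₂ i₀|) / |Δ|) * (∑ j, |w₁ j|), ?_⟩
  intro x s₁ s₂ h₁ h₂ i
  have hu : ∀ j, |(x j + s₁ * w₁ j) - (x j + s₂ * w₂ j)| ≤ Rb := by
    intro j
    rw [abs_le]
    constructor
    · linarith [(h₁ j).1, (h₂ j).2]
    · linarith [(h₂ j).1, (h₁ j).2]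
  have hsΔ : s₁ * Δ = ((x i₀ + s₁ * w₁ i₀) - (x i₀ + s₂ * w₂ i₀)) * w₂ j₀
      - ((x j₀ + s₁ * w₁ j₀) - (x j₀ + s₂ * w₂ j₀)) * w₂ i₀ := by
    rw [hΔdef]; ring
  have hs₁abs : |s₁| ≤ Rb * ((|w₂ j₀| + |w₂ i₀|) / |Δ|) := by
    rw [mul_div_assoc', le_div_iff₀ hΔabs, ← abs_mul, hsΔ]
    refine (abs_sub _ _).trans ?_
    rw [abs_mul, abs_mul]
    have h1 := mul_le_mul_of_nonneg_right (hu i₀) (abs_nonneg (w₂ j₀))
    have h2 := mul_le_mul_of_nonneg_right (hu j₀) (abs_nonneg (w₂ i₀))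
    linarith
  have hw₁i : |w₁ i| ≤ ∑ j, |w₁ j| :=
    Finset.single_le_sum (f := fun j => |w₁ j|) (fun j _ => abs_nonneg _) (Finset.mem_univ i)
  have hprod : -(s₁ * w₁ i) ≤ Rb * ((|w₂ j₀| + |w₂ i₀|) / |Δ|) * (∑ j, |w₁ j|) := by
    calc -(s₁ * w₁ i) ≤ |s₁ * w₁ i| := neg_le_abs _
      _ = |s₁| * |w₁ i| := abs_mul _ _
      _ ≤ _ := mul_le_mul hs₁abs hw₁i (abs_nonneg _) (by positivity)
  have h3 := (h₁ i).2
  linarith

variable {R : Finset (Cx d × Cx d)} {ε : ℝ} {c₀ : Fin d → ℝ}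

/-- The bound of the entropy at the points of a bounded part of the core. -/
lemma exists_margin (hdim : Module.finrank ℝ (stoich R) = 2) (hc₀ : ∀ i, 0 < c₀ i) (Γ : ℝ)
    (hΓ0 : 0 ≤ Γ) : ∃ M₀ : ℝ, ∀ u ∈ dirs R, ∀ u' ∈ dirs R, NonPar u u' → ∀ y : Fin d → ℝ,
      (∀ i, 0 < y i) → InClass R c₀ y → dot u (lv y) = 0 → |dot u' (lv y)| ≤ Γ → ent y ≤ M₀ := by
  classical
  have key : ∀ p : (Fin d → ℝ) × (Fin d → ℝ), NonPar p.1 p.2 → ∃ M₀ : ℝ,
      ∀ (y : Fin d → ℝ) (a a' : ℝ),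
      (∀ i, 0 < y i) → (∀ i, y i - c₀ i = a * p.1 i + a' * p.2 i) → dot p.1 (lv y) = 0 →
      |dot p.2 (lv y)| ≤ Γ → ent y ≤ M₀ := by
    intro p hp
    obtain ⟨Rb, hRb⟩ := margin_bound c₀ p.1 p.2 hc₀ hp Γ hΓ0
    exact ⟨(d : ℝ) * (max Rb 1 * log (max Rb 1)), fun y a a' hy hdec horth hbd =>
      ent_le_of_coord_le hy (hRb y a a' hy hdec horth hbd)⟩
  choose! M₁ hM₁ using key
  obtain ⟨M₀, hM₀⟩ := Finset.exists_le ((dirs R ×ˢ dirs R).image M₁)
  refine ⟨M₀, fun u hu u' hu' hnp' y hy hcl horth hbd => ?_⟩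
  obtain ⟨a, a', hdec⟩ := decompose hdim (dirs_mem_stoich hu) (dirs_mem_stoich hu') hnp' hcl
  have h1 := hM₁ (u, u') hnp' y a a' hy hdec horth hbd
  have h2 : M₁ (u, u') ∈ (dirs R ×ˢ dirs R).image M₁ :=
    Finset.mem_image.mpr ⟨(u, u'), Finset.mem_product.mpr ⟨hu, hu'⟩, rfl⟩
  exact h1.trans (hM₀ _ h2)

/-- The bound of the coordinates on a level of the maximum of minima of entropy. -/
lemma exists_X (hWR : WeaklyReversible R) (hdim : Module.finrank ℝ (stoich R) = 2) (c : ℝ) :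
    ∃ X : ℝ, 1 ≤ X ∧ ∀ x : Fin d → ℝ, (∀ i, 0 < x i) → (∀ w ∈ dirs R, Gp 0 w x ≤ c) →
      ∀ i, x i ≤ X := by
  obtain ⟨w₁, hw₁, w₂, hw₂, hnp⟩ := exists_nonpar hWR hdim
  set Rb : ℝ := max (max (exp 2) (c + d)) 0 with hRb
  have hRb0 : 0 ≤ Rb := le_max_right _ _
  obtain ⟨C, hC⟩ := coord_le_two_shifts hnp Rb hRb0
  refine ⟨max C 1, le_max_right _ _, ?_⟩
  intro x hx hb i
  have hbd : ∀ w ∈ dirs R, ∀ j, 0 < x j + shiftT 0 w x * w j ∧ x j + shiftT 0 w x * w j ≤ Rb := by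
    intro w hw j
    have hw0 := dirs_ne w hw
    have hpos := projT_pos 0 hw0 hx
    refine ⟨hpos j, ?_⟩
    have h1 : ent (projT 0 w x) ≤ c := by
      rw [← entT_zero]
      exact hb w hw
    have h2 := coord_le_of_ent_le hpos h1 j
    exact h2.trans (le_max_left _ _)
  exact (hC x _ _ (hbd w₁ hw₁) (hbd w₂ hw₂) i).trans (le_max_left _ _)

/-- The existence of the data of a class and a level. -/
theorem exists_ctx (hWR : WeaklyReversible R) (hdim : Module.finrank ℝ (stoich R) = 2)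
    (hε : 0 < ε) (hc₀ : ∀ i, 0 < c₀ i) :
    ∃ M₀ : ℝ, ∀ c₁, M₀ + 1 ≤ c₁ → Nonempty (Ctx R ε c₀ c₁) := by
  classical
  obtain ⟨w₁, hw₁, w₂, hw₂, hnp⟩ := exists_nonpar hWR hdim
  have hfin := nonempty_fin_of_dirs hw₁
  obtain ⟨N, hN1, hWN⟩ := dirs_bound R
  obtain ⟨B₀, hflux⟩ := flux_strict hWR hε
  set B : ℝ := max B₀ 0 with hB
  have hBB₀ : B₀ ≤ B := le_max_left _ _
  have hB0 : 0 ≤ B := le_max_right _ _
  have hG0 : 0 ≤ Gam d B N := by
    have := one_le_Gam (d := d) hB0 (by linarith : 0 ≤ N) hfin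
    linarith
  obtain ⟨M₀, hM₀⟩ := exists_margin (R := R) hdim hc₀ (Gam d B N) hG0
  refine ⟨M₀, fun c₁ hc₁ => ?_⟩
  obtain ⟨X, hX1, hXb⟩ := exists_X hWR hdim (c₁ + 1)
  obtain ⟨J, V, C₁, σ₀, hC₁, hσ₀, hJ, hnJ⟩ := pairs_data hWR hdim hc₀
  obtain ⟨Mt, hMt0, hMt⟩ := tilt_upper (R := R) (c := c₀) (J := J) (V := V) hC₁
    (fun j hj => ⟨(hJ j hj).1, (hJ j hj).2.2.2.2⟩) (Rx := X + 1) (by linarith)
  have hup := hMt Mt (le_refl _)
  have hQ0 : 0 ≤ 2 * Mt * N := by positivity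
  have hG1 : 0 ≤ Gam d (B + 2 * Mt * N) N := by
    have := one_le_Gam (d := d) (B := B + 2 * Mt * N) (N := N) (by linarith)
      (by linarith) hfin
    linarith
  obtain ⟨ε₀, hε₀, hcore⟩ := core_uniform (R := R) hdim hc₀
    (Gam d (B + 2 * Mt * N) N + 2 * Mt * N) (by linarith)
  set τ₀ : ℝ := min (ε₀ / 2) (1 / (4 * (C₁ + 1))) with hτ₀
  have hτ₀pos : 0 < τ₀ := lt_min (by linarith) (by positivity)
  have hτ₁ : τ₀ ≤ ε₀ / 2 := min_le_left _ _
  have hτ₂ : τ₀ ≤ 1 / (4 * (C₁ + 1)) := min_le_right _ _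
  have hτC : 2 * C₁ * τ₀ < 1 := by
    have h1 : 2 * C₁ * τ₀ ≤ 2 * C₁ * (1 / (4 * (C₁ + 1))) :=
      mul_le_mul_of_nonneg_left hτ₂ (by positivity)
    have h2 : 2 * C₁ * (1 / (4 * (C₁ + 1))) < 1 := by
      rw [mul_one_div, div_lt_one (by positivity)]
      linarith
    linarith
  exact ⟨{
    B := B, N := N, X := X, M := Mt, C₁ := C₁, σ₀ := σ₀, ε₀ := ε₀, τ₀ := τ₀, J := J, V := V
    hWne := ⟨w₁, hw₁⟩
    hB := hB0
    hN := hN1
    hX := hX1
    hM := hMt0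
    hC₁ := hC₁
    hσ₀ := hσ₀
    hε₀ := hε₀
    hτ₀ := hτ₀pos
    hτε := by linarith
    hτC := hτC
    hWN := hWN
    hflux := hflux B hBB₀
    hcore₀ := fun u hu u' hu' hnp' y hy hcl h1 h2 =>
      lt_of_le_of_lt (hM₀ u hu u' hu' hnp' y hy hcl h1 h2.le) (by linarith)
    hXb := hXb
    hJ := hJ
    hnJ := hnJ
    hup := hup
    hcoret := hcore }⟩

variable {c₁ : ℝ}

/-- The nested family of layers. -/
theorem exists_nest (C : Ctx R ε c₀ c₁) (hc₀ : ∀ i, 0 < c₀ i) :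
    ∃ L : ℕ → Lay, (∀ n, LayOK C (L n)) ∧
      (∀ n x, Uf C (L (n + 1)) x ≤ 0 → Uf C (L n) x ≤ 1 / 2) ∧
      (∀ x : Fin d → ℝ, (∀ i, 0 < x i) → InClass R c₀ x → (∀ w ∈ dirs R, Gp 0 w x ≤ c₁) →
        ∃ n, Uf C (L n) x ≤ 0) := by
  classical
  set τs : ℕ → ℝ := fun n => C.τ₀ * (3 / 4) ^ n with hτs
  have hτs0 : ∀ n, 0 < τs n := fun n => mul_pos C.hτ₀ (by positivity)
  have hcutfam : ∀ n, ∃ σ : ℝ, 0 < σ ∧ ∀ j ∈ C.J, ∀ w' ∈ dirs R, Crit w' j.1 j.2 →
      ∀ x : Fin d → ℝ, (∀ k, 0 < x k) → InClass R c₀ x → x j.1 ≤ σ → x j.2 ≤ σ →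
      ent (C.V j) - τs n / 2 < Gp (tq C.M j) w' x := by
    intro n
    exact cut_lemma (R := R) (c := c₀) (J := C.J) (V := C.V) C.hC₁
      (fun j hj => ⟨(C.hJ j hj).2.1, (C.hJ j hj).2.2.1, (C.hJ j hj).2.2.2.2⟩) C.M
      (by linarith [hτs0 n])
  choose σ hσ0 hσcut using hcutfam
  set σ' : ℕ → ℝ := fun n => min (σ n) (min 1 (C.σ₀ / 2)) with hσ'
  have hσ'0 : ∀ n, 0 < σ' n := fun n =>
    lt_min (hσ0 n) (lt_min one_pos (by linarith [C.hσ₀]))
  set vreq : ℕ → ℝ := fun n => |log (σ' n)|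
    + |C.B + (d : ℝ) * C.N * (|log (σ' n)| + log C.X)| + ∑ i, |log (c₀ i)| + 1 with hvreq
  have hsum0 : 0 ≤ ∑ i, |log (c₀ i)| := Finset.sum_nonneg (fun _ _ => abs_nonneg _)
  have hvreq1 : ∀ n, 1 ≤ vreq n := by
    intro n
    simp only [hvreq]
    have h1 := abs_nonneg (log (σ' n))
    have h2 := abs_nonneg (C.B + (d : ℝ) * C.N * (|log (σ' n)| + log C.X))
    linarith
  set vs : ℕ → ℝ := fun n => ∑ k ∈ Finset.range (n + 1), vreq k with hvs
  have hvs_succ : ∀ n, vs (n + 1) = vs n + vreq (n + 1) := by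
    intro n
    simp only [hvs]
    rw [Finset.sum_range_succ]
  have hvs_ge : ∀ n, vreq n ≤ vs n := by
    intro n
    simp only [hvs]
    rw [Finset.sum_range_succ]
    have : 0 ≤ ∑ k ∈ Finset.range n, vreq k :=
      Finset.sum_nonneg (fun k _ => by linarith [hvreq1 k])
    linarith
  have hvs_nat : ∀ n : ℕ, (n : ℝ) ≤ vs n := by
    intro n
    induction n with
    | zero =>
      have := hvs_ge 0
      have := hvreq1 0
      simp only [Nat.cast_zero]
      linarith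
    | succ n ih =>
      rw [hvs_succ]
      have := hvreq1 (n + 1)
      push_cast
      linarith
  have hvs_mono : Monotone vs := by
    apply monotone_nat_of_le_succ
    intro n
    rw [hvs_succ]
    linarith [hvreq1 (n + 1)]
  refine ⟨fun n => ⟨τs n, τs n / 2, 2 / τs n, vs n, 1 / (2 * (vs (n + 1) - vs n)), σ' n⟩,
    ?_, ?_, ?_⟩
  · intro n
    have hτ := hτs0 n
    have hv := hvs_ge n
    have hdiff : vs (n + 1) - vs n = vreq (n + 1) := by rw [hvs_succ]; ring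
    have hlogσ := abs_nonneg (log (σ' n))
    have hsB := abs_nonneg (C.B + (d : ℝ) * C.N * (|log (σ' n)| + log C.X))
    refine ⟨by simp only; linarith, by simp only; linarith, ?_, by simp only; positivity, ?_, ?_,
      hσ'0 n, ?_, ?_, ?_, ?_, ?_, ?_⟩
    · simp only [hτs]
      have h1 : ((3 : ℝ) / 4) ^ n ≤ 1 := pow_le_one₀ (by norm_num) (by norm_num)
      have := mul_le_mul_of_nonneg_left h1 C.hτ₀.le
      linarith
    · simp only
      field_simp
      ring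
    · simp only
      rw [hdiff]
      have := hvreq1 (n + 1)
      positivity
    · exact (min_le_right _ _).trans (min_le_left _ _)
    · exact (min_le_right _ _).trans (min_le_right _ _)
    · simp only
      rw [← exp_log (hσ'0 n)]
      apply exp_le_exp.mpr
      have h1 := neg_abs_le (log (σ' n))
      have h2 : |log (σ' n)| ≤ vreq n := by
        simp only [hvreq]
        linarith
      linarith
    · simp only
      have h1 := le_abs_self (C.B + (d : ℝ) * C.N * (|log (σ' n)| + log C.X))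
      have h2 : |C.B + (d : ℝ) * C.N * (|log (σ' n)| + log C.X)| ≤ vreq n := by
        simp only [hvreq]
        linarith
      linarith
    · intro i
      simp only
      rw [← exp_log (hc₀ i)]
      apply exp_lt_exp.mpr
      have h1 := neg_abs_le (log (c₀ i))
      have h2 : |log (c₀ i)| ≤ ∑ i, |log (c₀ i)| :=
        Finset.single_le_sum (f := fun i => |log (c₀ i)|) (fun _ _ => abs_nonneg _)
          (Finset.mem_univ i)
      have h3 : ∑ i, |log (c₀ i)| + 1 ≤ vreq n := by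
        simp only [hvreq]
        linarith
      linarith
    · intro j hj w' hw' hcr x hx hcl h1 h2
      have hle : σ' n ≤ σ n := min_le_left _ _
      exact hσcut n j hj w' hw' hcr x hx hcl (h1.trans hle) (h2.trans hle)
  · intro n x hU
    simp only at hU
    have hτ := hτs0 n
    have hτ1 := hτs0 (n + 1)
    have hdiff : vs (n + 1) - vs n = vreq (n + 1) := by rw [hvs_succ]; ring
    have hvpos : 0 < vreq (n + 1) := by linarith [hvreq1 (n + 1)]
    have hb1 : 0 < 1 / (2 * (vs (n + 1) - vs n)) := by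
      rw [hdiff]; positivity
    have ha1 : 0 < 2 / τs (n + 1) := by positivity
    have hstep : τs (n + 1) = τs n * (3 / 4) := by
      simp only [hτs]
      rw [pow_succ]; ring
    apply Uf_le
    · intro w hw
      have h1 := (Uf_L C _ x hw).trans hU
      linarith
    · intro j hj w hw
      have h1 := (Uf_T C _ x hj hw).trans hU
      simp only at h1 ⊢
      have h2 : Gp (tq C.M j) w x - ent (C.V j) + τs (n + 1) ≤ 0 :=
        nonpos_of_mul_nonpos_right h1 ha1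
      have h3 : Gp (tq C.M j) w x - ent (C.V j) + τs n ≤ τs n / 4 := by
        rw [hstep] at h2
        linarith
      have h4 : 2 / τs n * (Gp (tq C.M j) w x - ent (C.V j) + τs n) ≤ 2 / τs n * (τs n / 4) :=
        mul_le_mul_of_nonneg_left h3 (by positivity)
      have h5 : 2 / τs n * (τs n / 4) = 1 / 2 := by
        field_simp
        norm_num
      linarith
    · intro i
      have h1 := (Uf_F C _ x i).trans hU
      simp only at h1 ⊢
      have hb2 : 0 < 1 / (2 * (vs (n + 2) - vs (n + 1))) := by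
        have : vs (n + 2) - vs (n + 1) = vreq (n + 2) := by rw [hvs_succ]; ring
        rw [this]
        have := hvreq1 (n + 2)
        positivity
      have h2 : -log (x i) - vs (n + 1) ≤ 0 := nonpos_of_mul_nonpos_right h1 hb2
      have h3 : -log (x i) - vs n ≤ vs (n + 1) - vs n := by linarith
      have h4 := mul_le_mul_of_nonneg_left h3 hb1.le
      have h5 : 1 / (2 * (vs (n + 1) - vs n)) * (vs (n + 1) - vs n) = 1 / 2 := by
        rw [hdiff]
        field_simp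
      linarith
  · intro x hx hcl hL
    have hXb : ∀ k, x k ≤ C.X := C.hXb x hx (fun w hw => by linarith [hL w hw])
    obtain ⟨m, hm, -, hmle⟩ := exists_pos_lb C.J (fun j => x j.1 + x j.2)
      (fun j _ => by linarith [hx j.1, hx j.2])
    obtain ⟨n₁, hn₁⟩ := exists_pow_lt_of_lt_one (div_pos hm C.hτ₀) (by norm_num : (3 / 4 : ℝ) < 1)
    obtain ⟨n₂, hn₂⟩ := exists_nat_ge (∑ i, |log (x i)|)
    set n := max n₁ n₂ with hn
    have hτn : τs n ≤ m := by
      simp only [hτs]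
      have h1 : ((3 : ℝ) / 4) ^ n ≤ (3 / 4) ^ n₁ :=
        pow_le_pow_of_le_one (by norm_num) (by norm_num) (le_max_left _ _)
      have h2 : C.τ₀ * (3 / 4) ^ n₁ < m := by
        rw [lt_div_iff₀ C.hτ₀] at hn₁
        linarith
      have := mul_le_mul_of_nonneg_left h1 C.hτ₀.le
      linarith
    have hvn : ∑ i, |log (x i)| ≤ vs n := by
      have h1 := hvs_nat n
      have h2 : (n₂ : ℝ) ≤ n := by exact_mod_cast le_max_right n₁ n₂
      linarith
    refine ⟨n, ?_⟩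
    apply Uf_le
    · intro w hw
      have := hL w hw
      linarith
    · intro j hj w hw
      simp only
      have hw0 := dirs_ne w hw
      have h1 := Gp_le_self (tq C.M j) hw0 hx
      have h2 := C.hup j hj x hx hcl (fun k => by linarith [hXb k])
      have h3 := hmle j hj
      have h4 : 0 < 2 / τs n := div_pos (by norm_num) (hτs0 n)
      apply mul_nonpos_of_nonneg_of_nonpos h4.le
      linarith
    · intro i
      simp only
      have hdiff : vs (n + 1) - vs n = vreq (n + 1) := by rw [hvs_succ]; ring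
      have hb1 : 0 < 1 / (2 * (vs (n + 1) - vs n)) := by
        rw [hdiff]
        have := hvreq1 (n + 1)
        positivity
      apply mul_nonpos_of_nonneg_of_nonpos hb1.le
      have h1 := neg_abs_le (log (x i))
      have h2 : |log (x i)| ≤ ∑ i, |log (x i)| :=
        Finset.single_le_sum (f := fun i => |log (x i)|) (fun _ _ => abs_nonneg _)
          (Finset.mem_univ i)
      linarith

/-- Invariance of a nonpositive level of the function of a layer. -/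
lemma Uf_invariant (hWR : WeaklyReversible R) (hdim : Module.finrank ℝ (stoich R) = 2)
    (hε : 0 < ε) (C : Ctx R ε c₀ c₁) {L : Lay} (hL : LayOK C L) {k : ℝ → Cx d × Cx d → ℝ} {T : ℝ}
    {x : ℝ → Fin d → ℝ} (hk : ∀ t r, ε ≤ k t r ∧ k t r ≤ ε⁻¹) (hsol : IsPosSolution R k T x)
    (hcl0 : InClass R c₀ (x 0)) {t₀ : ℝ} (ht₀ : t₀ ∈ Ico 0 T) (h0 : Uf C L (x t₀) ≤ 0) :
    ∀ t ∈ Ico t₀ T, Uf C L (x t) ≤ 0 := by
  intro t ht
  have h1 := layer_step hWR hdim hε C hL hk hsol hcl0 ht₀ (by linarith) t ht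
  refine h1.trans (max_le (le_refl _) ?_)
  have h2 := eta_pos (R := R) hε hL
  have h3 : 0 ≤ eta R ε C L * (t - t₀) := mul_nonneg h2.le (by linarith [ht.1])
  linarith

/-- The bounds on a nonpositive level of the function of a layer. -/
lemma bounds_of_Uf {C : Ctx R ε c₀ c₁} {L : Lay} (hL : LayOK C L) {x : Fin d → ℝ}
    (hx : ∀ i, 0 < x i) (h0 : Uf C L x ≤ 0) (i : Fin d) : exp (-L.v) ≤ x i ∧ x i ≤ C.X := by
  constructor
  · have h1 := (Uf_F C L x i).trans h0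
    have h2 : -log (x i) - L.v ≤ 0 := nonpos_of_mul_nonpos_right h1 hL.hb
    rw [← exp_log (hx i)]
    exact exp_le_exp.mpr (by linarith)
  · exact C.hXb x hx (fun w hw => by
      have := (Uf_L C L x hw).trans h0
      linarith) i

/-- Uniform bounds: for each positive initial point there are uniform positive lower and upper
bounds for all solutions, all admissible rates and all existence times. -/
theorem uniform_bounds (hWR : WeaklyReversible R) (hdim : Module.finrank ℝ (stoich R) = 2)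
    (hε : 0 < ε) {x₀ : Fin d → ℝ} (hx₀ : ∀ i, 0 < x₀ i) :
    ∃ δ C' : ℝ, 0 < δ ∧ ∀ (k : ℝ → Cx d × Cx d → ℝ) (T : ℝ) (x : ℝ → Fin d → ℝ),
      (∀ t r, ε ≤ k t r ∧ k t r ≤ ε⁻¹) → x 0 = x₀ → IsPosSolution R k T x →
      ∀ t ∈ Ico 0 T, ∀ i, δ ≤ x t i ∧ x t i ≤ C' := by
  classical
  obtain ⟨w₁, hw₁, -, -, -⟩ := exists_nonpar hWR hdim
  have hne : (dirs R).Nonempty := ⟨w₁, hw₁⟩
  obtain ⟨M₀, hM₀⟩ := exists_ctx hWR hdim hε hx₀
  set c₁ : ℝ := max (M₀ + 1) ((dirs R).sup' hne (fun w => Gp 0 w x₀)) with hc₁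
  obtain ⟨C⟩ := hM₀ c₁ (le_max_left _ _)
  obtain ⟨L, hLok, -, hstart⟩ := exists_nest C hx₀
  have hcl : InClass R x₀ x₀ := by
    unfold InClass
    have : (fun i => x₀ i - x₀ i) = (0 : Fin d → ℝ) := by
      funext i; simp
    rw [this]
    exact Submodule.zero_mem _
  obtain ⟨n, hn⟩ := hstart x₀ hx₀ hcl (fun w hw =>
    (Finset.le_sup' (fun w => Gp 0 w x₀) hw).trans (le_max_right _ _))
  refine ⟨exp (-(L n).v), C.X, exp_pos _, ?_⟩
  intro k T x hk hx0 hsol t ht i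
  have hT0 : (0 : ℝ) ∈ Ico 0 T := ⟨le_refl _, lt_of_le_of_lt ht.1 ht.2⟩
  have hcl0 : InClass R x₀ (x 0) := by rw [hx0]; exact hcl
  have h1 := Uf_invariant hWR hdim hε C (hLok n) hk hsol hcl0 hT0 (by rw [hx0]; exact hn) t ht
  exact bounds_of_Uf (hLok n) (hsol.pos t ht) h1 i

/-- The maximum of the minima of entropy decreases to any level above the margin. -/
lemma L_descent (hWR : WeaklyReversible R) (hdim : Module.finrank ℝ (stoich R) = 2)
    (hε : 0 < ε) (C : Ctx R ε c₀ c₁) {k : ℝ → Cx d × Cx d → ℝ} {x : ℝ → Fin d → ℝ}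
    (hk : ∀ t r, ε ≤ k t r ∧ k t r ≤ ε⁻¹) (hsol : ∀ T, IsPosSolution R k T x)
    (hcl0 : InClass R c₀ (x 0)) {δ : ℝ} (hδ0 : 0 < δ) (hδ1 : δ ≤ 1)
    (hδ : ∀ t, 0 ≤ t → ∀ i, δ ≤ x t i) :
    ∃ t₁ : ℝ, 0 ≤ t₁ ∧ ∀ t, t₁ ≤ t → ∀ w ∈ dirs R, Gp 0 w (x t) ≤ c₁ := by
  classical
  have hne := C.hWne
  set Lf : (Fin d → ℝ) → ℝ := fun z => (dirs R).sup' hne (fun w => Gp 0 w z) with hLf
  set a : ℝ := 1 / (|Lf (x 0) - c₁| + 1) with ha
  have ha0 : 0 < a := by positivity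
  set φ : ℝ → ℝ := fun t => a * (Lf (x t) - c₁) with hφ
  set η : ℝ := ε * δ ^ (Dmax R) * a / 2 with hη
  have hη0 : 0 < η := by positivity
  have hpos : ∀ t, 0 ≤ t → ∀ i, 0 < x t i := fun t ht i => hsol (t + 1) |>.pos t ⟨ht, by linarith⟩ i
  have hφ0 : φ 0 < 1 := by
    simp only [hφ, ha]
    rw [one_div_mul_eq_div, div_lt_one (by positivity)]
    have := le_abs_self (Lf (x 0) - c₁)
    linarith
  have hmain : ∀ T : ℝ, ∀ t ∈ Set.Ico (0:ℝ) T, φ t ≤ max 0 (φ 0 - η * (t - 0)) := by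
    intro T
    apply descent (x := x) (v := fun t => massAction R (k t) (x t)) hη0.le
    · exact (hsol T).deriv
    · apply ContinuousOn.mul continuousOn_const
      apply ContinuousOn.sub _ continuousOn_const
      simp only [hLf]
      apply ContinuousOn.finset_sup'_apply
      intro w hw t ht
      exact (continuousAt_Gp 0 (dirs_ne w hw) (hpos t ht.1)).comp_continuousWithinAt
        ((hsol T).cont t ht)
    · exact hφ0
    · intro t ht h0 _
      have ht0 : 0 ≤ t := ht.1.le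
      have hxt := hpos t ht0
      obtain ⟨w, hw, hwe⟩ := Finset.exists_mem_eq_sup' hne (fun w => Gp 0 w (x t))
      have hLe : Lf (x t) = Gp 0 w (x t) := hwe
      have hw0 : w ≠ 0 := dirs_ne w hw
      have hlev : c₁ ≤ Gp 0 w (x t) := by
        have h2 := nonneg_of_mul_nonneg_right h0 ha0
        rw [← hLe]
        linarith
      have hcl : InClass R c₀ (x t) := inClass_solution (hsol (t + 1)) hcl0 ⟨ht0, by linarith⟩
      set y := projT 0 w (x t) with hy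
      have hypos : ∀ i, 0 < y i := projT_pos 0 hw0 hxt
      have hycl : InClass R c₀ y := inClass_add_smul hcl (dirs_mem_stoich hw) _
      have hact : ActiveT 0 (dirs R) w (x t) := by
        refine ⟨hw, fun w' hw' => ?_⟩
        have h1 : Gp 0 w' (x t) ≤ Lf (x t) := Finset.le_sup' (fun w => Gp 0 w (x t)) hw'
        rw [hLe] at h1
        exact h1
      have hent : c₁ ≤ ent y := by
        have h1 : Gp 0 w (x t) = ent y := entT_zero y
        linarith
      have hnc : ∀ w' ∈ dirs R, NonPar w w' → Gam d (C.B + 0) C.N ≤ |dot w' (gr 0 y)| := by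
        intro w' hw' hnp
        by_contra hlt
        push Not at hlt
        rw [add_zero, gr_zero] at *
        have h1 : dot w (lv y) = 0 := by
          have := projT_orth 0 hw0 hxt
          rwa [gr_zero] at this
        have h2 := C.hcore₀ w hw w' hw' hnp y hypos hycl h1 hlt
        linarith
      have hfl := flux_of_notCore hWR hdim hε C.hB C.hWN C.hflux (q := 0) (Q := 0) (le_refl _)
        (fun w' _ => by simp [dot]) hw hxt hact hnc ha0 hδ0 hδ1 (hδ t ht0) (hk t)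
      refine ⟨fun i => a * gr 0 y i, ?_, ?_⟩
      · intro s hs
        have h1 : Gp 0 w (x s) ≤ Lf (x s) := Finset.le_sup' (fun w => Gp 0 w (x s)) hw
        have h2 := Gp_sub 0 hw0 hxt (hpos s hs.1)
        rw [dot_smul_left, dot_smul_left]
        simp only [hφ]
        rw [hLe]
        have h3 : a * (Gp 0 w (x t) - Gp 0 w (x s)) ≤ a * (dot (gr 0 y) (x t) - dot (gr 0 y) (x s)) :=
          mul_le_mul_of_nonneg_left h2 ha0.le
        have h4 : a * (Gp 0 w (x s) - c₁) ≤ a * (Lf (x s) - c₁) :=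
          mul_le_mul_of_nonneg_left (by linarith) ha0.le
        nlinarith
      · have : -η = -(ε * δ ^ Dmax R * a) / 2 := by rw [hη]; ring
        rw [this]
        exact hfl
  refine ⟨|φ 0| / η, by positivity, ?_⟩
  intro t ht w hw
  have ht0 : 0 ≤ t := le_trans (by positivity) ht
  have h1 := hmain (t + 1) t ⟨ht0, by linarith⟩
  have h2 : φ 0 - η * (t - 0) ≤ 0 := by
    have h3 : |φ 0| ≤ t * η := by
      rwa [div_le_iff₀ hη0] at ht
    have h4 := le_abs_self (φ 0)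
    have h5 : η * (t - 0) = t * η := by ring
    linarith
  have h3 : φ t ≤ 0 := h1.trans (max_le (le_refl _) h2)
  have h4 : Lf (x t) - c₁ ≤ 0 := nonpos_of_mul_nonpos_right h3 ha0
  have h5 : Gp 0 w (x t) ≤ Lf (x t) := Finset.le_sup' (fun w => Gp 0 w (x t)) hw
  linarith

/-- Descent along the nested family of layers. -/
lemma nest_descent (hWR : WeaklyReversible R) (hdim : Module.finrank ℝ (stoich R) = 2)
    (hε : 0 < ε) (C : Ctx R ε c₀ c₁) {L : ℕ → Lay} (hLok : ∀ n, LayOK C (L n))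
    (hstep : ∀ n x, Uf C (L (n + 1)) x ≤ 0 → Uf C (L n) x ≤ 1 / 2)
    {k : ℝ → Cx d × Cx d → ℝ} {x : ℝ → Fin d → ℝ}
    (hk : ∀ t r, ε ≤ k t r ∧ k t r ≤ ε⁻¹) (hsol : ∀ T, IsPosSolution R k T x)
    (hcl0 : InClass R c₀ (x 0)) :
    ∀ n : ℕ, ∀ t₀, 0 ≤ t₀ → Uf C (L n) (x t₀) ≤ 0 → ∃ t₁, t₀ ≤ t₁ ∧ ∀ t, t₁ ≤ t →
      Uf C (L 0) (x t) ≤ 0 := by
  intro n
  induction n with
  | zero =>
    intro t₀ ht₀ h0
    refine ⟨t₀, le_refl _, fun t ht => ?_⟩
    exact Uf_invariant hWR hdim hε C (hLok 0) hk (hsol (t + 1)) hcl0 ⟨ht₀, by linarith⟩ h0 t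
      ⟨ht, by linarith⟩
  | succ n ih =>
    intro t₀ ht₀ h0
    have h1 := hstep n _ h0
    have hη := eta_pos (R := R) hε (hLok n)
    set t' := t₀ + 1 / eta R ε C (L n) with ht'
    have ht'ge : t₀ ≤ t' := by
      have : 0 < 1 / eta R ε C (L n) := by positivity
      linarith
    have h2 := layer_step hWR hdim hε C (hLok n) hk (hsol (t' + 1)) hcl0 (t₀ := t₀)
      ⟨ht₀, by linarith⟩ (by linarith) t' ⟨ht'ge, by linarith⟩
    have h3 : Uf C (L n) (x t') ≤ 0 := by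
      refine h2.trans (max_le (le_refl _) ?_)
      have h4 : eta R ε C (L n) * (t' - t₀) = 1 := by
        rw [ht']
        field_simp
        ring
      rw [h4]
      linarith
    obtain ⟨t₁, ht₁, hfin⟩ := ih t' (by linarith) h3
    exact ⟨t₁, ht'ge.trans ht₁, hfin⟩

/-- The absorbing compact set: every global positive solution in the class eventually stays in
a box depending only on the class, the network and `ε`. -/
theorem absorbing (hWR : WeaklyReversible R) (hdim : Module.finrank ℝ (stoich R) = 2)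
    (hε : 0 < ε) (hc₀ : ∀ i, 0 < c₀ i) :
    ∃ δ₀ C₀ : ℝ, 0 < δ₀ ∧ ∀ (k : ℝ → Cx d × Cx d → ℝ) (x : ℝ → Fin d → ℝ),
      (∀ t r, ε ≤ k t r ∧ k t r ≤ ε⁻¹) → (∀ T, IsPosSolution R k T x) → InClass R c₀ (x 0) →
      ∃ t₁ : ℝ, ∀ t, t₁ ≤ t → ∀ i, δ₀ ≤ x t i ∧ x t i ≤ C₀ := by
  obtain ⟨M₀, hM₀⟩ := exists_ctx hWR hdim hε hc₀
  obtain ⟨C⟩ := hM₀ (M₀ + 1) (le_refl _)
  obtain ⟨L, hLok, hstep, hstart⟩ := exists_nest C hc₀
  refine ⟨exp (-(L 0).v), C.X, exp_pos _, ?_⟩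
  intro k x hk hsol hcl0
  have hpos : ∀ t, 0 ≤ t → ∀ i, 0 < x t i := fun t ht i => hsol (t + 1) |>.pos t ⟨ht, by linarith⟩ i
  obtain ⟨δ, C', hδ, hbd⟩ := uniform_bounds hWR hdim hε (hpos 0 (le_refl _))
  have hδ' : ∀ t, 0 ≤ t → ∀ i, min δ 1 ≤ x t i := by
    intro t ht i
    exact (min_le_left _ _).trans (hbd k (t + 1) x hk rfl (hsol (t + 1)) t ⟨ht, by linarith⟩ i).1
  obtain ⟨t₁, ht₁, hLd⟩ := L_descent hWR hdim hε C hk hsol hcl0 (lt_min hδ one_pos)
    (min_le_right _ _) hδ'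
  have hclt : InClass R c₀ (x t₁) := inClass_solution (hsol (t₁ + 1)) hcl0 ⟨ht₁, by linarith⟩
  obtain ⟨n, hn⟩ := hstart (x t₁) (hpos t₁ ht₁) hclt (hLd t₁ (le_refl _))
  obtain ⟨t₂, ht₂, hfin⟩ := nest_descent hWR hdim hε C hLok hstep hk hsol hcl0 n t₁ ht₁ hn
  refine ⟨t₂, fun t ht i => ?_⟩
  exact bounds_of_Uf (hLok 0) (hpos t (by linarith)) (hfin t ht) i

end Vale.Agent.Lib.P072
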