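import Vale.Agent.Lib.P072.Exist

namespace Vale.Agent.Lib.P072

open Set Filter Topology
open scoped NNReal

variable {d : ℕ} {R : Finset (Cx d × Cx d)} {κ : Cx d × Cx d → ℝ}

/-- `x` solves the mass-action system with constant rates `κ` on `[0, T)`: it is continuous on
`[0, T)` and differentiable on `(0, T)` with `x' = massAction R κ x`. Positivity is not assumed. -/
structure IsSolution (R : Finset (Cx d × Cx d)) (κ : Cx d × Cx d → ℝ) (T : ℝ)
    (x : ℝ → Fin d → ℝ) : Prop where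
  cont : ContinuousOn x (Ico 0 T)
  deriv : ∀ t ∈ Ioo 0 T, HasDerivAt x (massAction R κ (x t)) t

lemma exists_eps (R : Finset (Cx d × Cx d)) (κ : Cx d × Cx d → ℝ) (hκ : ∀ r ∈ R, 0 < κ r) :
    ∃ ε : ℝ, 0 < ε ∧ ε ≤ 1 ∧ ∀ r ∈ R, ε ≤ κ r ∧ κ r ≤ ε⁻¹ := by
  classical
  obtain ⟨ε, hε, hε1, h⟩ := exists_pos_lb R (fun r => min (κ r) (κ r)⁻¹)
    (fun r hr => lt_min (hκ r hr) (inv_pos.mpr (hκ r hr)))
  refine ⟨ε, hε, hε1, fun r hr => ⟨(h r hr).trans (min_le_left _ _), ?_⟩⟩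
  have h1 : ε ≤ (κ r)⁻¹ := (h r hr).trans (min_le_right _ _)
  have h2 := (le_inv_comm₀ hε (hκ r hr)).mp h1
  exact h2

/-- Rates extended by `1` outside of `R`. -/
noncomputable def extRate (R : Finset (Cx d × Cx d)) (κ : Cx d × Cx d → ℝ) : Cx d × Cx d → ℝ :=
  fun r => by classical exact if r ∈ R then κ r else 1

lemma massAction_extRate (R : Finset (Cx d × Cx d)) (κ : Cx d × Cx d → ℝ) :
    massAction R (extRate R κ) = massAction R κ := by
  funext x i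
  unfold massAction extRate
  refine Finset.sum_congr rfl fun r hr => ?_
  simp [hr]

/-- The a priori box. -/
lemma exists_box (hWR : WeaklyReversible R) (hdim : Module.finrank ℝ (stoich R) = 2)
    (hκ : ∀ r ∈ R, 0 < κ r) {x₀ : Fin d → ℝ} (hx₀ : ∀ i, 0 < x₀ i) :
    ∃ δ C : ℝ, 0 < δ ∧ δ ≤ C ∧ (∀ i, δ ≤ x₀ i ∧ x₀ i ≤ C) ∧
      ∀ T (G : (Fin d → ℝ) → (Fin d → ℝ)) (x : ℝ → Fin d → ℝ),
        (∀ y, (∀ i, δ / 2 ≤ y i ∧ y i ≤ C + 1) → G y = massAction R κ y) → x 0 = x₀ →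
        ContinuousOn x (Ico 0 T) → (∀ t ∈ Ioo 0 T, HasDerivAt x (G (x t)) t) →
        ∀ t ∈ Ico 0 T, ∀ i, δ ≤ x t i ∧ x t i ≤ C := by
  classical
  obtain ⟨ε, hε, hε1, hεκ⟩ := exists_eps R κ hκ
  obtain ⟨δ₀, C₀, hδ₀, hbd⟩ := uniform_bounds (ε := ε) hWR hdim hε hx₀
  obtain ⟨δ₁, hδ₁, -, hδ₁le⟩ := exists_pos_lb Finset.univ x₀ (fun i _ => hx₀ i)
  obtain ⟨C₁, hC₁⟩ : ∃ C₁, ∀ i, x₀ i ≤ C₁ := by
    obtain ⟨C₁, hC₁⟩ := (Set.finite_range x₀).bddAbove
    exact ⟨C₁, fun i => hC₁ (mem_range_self i)⟩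
  let δ := min δ₀ δ₁
  let C := max (max C₀ C₁) δ
  have hδ : 0 < δ := lt_min hδ₀ hδ₁
  have hC₀C : C₀ ≤ C := (le_max_left _ _).trans (le_max_left _ _)
  have hC₁C : C₁ ≤ C := (le_max_right _ _).trans (le_max_left _ _)
  refine ⟨δ, C, hδ, le_max_right _ _, fun i => ⟨(min_le_right _ _).trans (hδ₁le i (Finset.mem_univ i)),
    (hC₁ i).trans hC₁C⟩, ?_⟩
  intro T G x hG h0 hc hd
  let U : Set (Fin d → ℝ) := {y | ∀ i, δ / 2 < y i ∧ y i < C + 1}
  let V : Set (Fin d → ℝ) := {y | ∀ i, δ ≤ y i ∧ y i ≤ C}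
  have hU : IsOpen U := by
    have : U = ⋂ i, {y : Fin d → ℝ | δ / 2 < y i ∧ y i < C + 1} := by
      ext y; simp [U]
    rw [this]
    apply isOpen_iInter_of_finite
    intro i
    exact (isOpen_lt continuous_const (continuous_apply i)).inter
      (isOpen_lt (continuous_apply i) continuous_const)
  have hV : IsClosed V := by
    have : V = ⋂ i, {y : Fin d → ℝ | δ ≤ y i ∧ y i ≤ C} := by
      ext y; simp [V]
    rw [this]
    apply isClosed_iInter
    intro i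
    exact (isClosed_le continuous_const (continuous_apply i)).inter
      (isClosed_le (continuous_apply i) continuous_const)
  have hVU : V ⊆ U := fun y hy i => ⟨by linarith [(hy i).1], by linarith [(hy i).2]⟩
  have hx0V : ∀ i, δ ≤ x 0 i ∧ x 0 i ≤ C := by
    intro i
    rw [h0]
    exact ⟨(min_le_right _ _).trans (hδ₁le i (Finset.mem_univ i)), (hC₁ i).trans hC₁C⟩
  have key := stay_in hc hU hV hVU (hVU hx0V) ?_
  · exact fun t ht i => key t ht i
  intro s hs hsT hsU t ht i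
  -- on `[0,s)` the curve is a positive solution
  have hsol : IsPosSolution R (fun _ => extRate R κ) s x := by
    refine ⟨fun t ht i => by linarith [(hsU t ht i).1], hc.mono (Ico_subset_Ico_right hsT), ?_⟩
    intro t ht
    have h1 := hd t ⟨ht.1, lt_of_lt_of_le ht.2 hsT⟩
    rw [hG (x t) (fun i => ⟨(hsU t ⟨ht.1.le, ht.2⟩ i).1.le, (hsU t ⟨ht.1.le, ht.2⟩ i).2.le⟩)] at h1
    rw [massAction_extRate]
    exact h1
  have hk : ∀ (t : ℝ) (r : Cx d × Cx d), ε ≤ (fun _ => extRate R κ) t r ∧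
      (fun _ => extRate R κ) t r ≤ ε⁻¹ := by
    intro _ r
    by_cases hr : r ∈ R
    · simpa [extRate, hr] using hεκ r hr
    · simp only [extRate, hr, if_false]
      exact ⟨hε1, (one_le_inv₀ hε).mpr hε1⟩
  have hfin := hbd _ s x hk h0 hsol t ht i
  exact ⟨(min_le_left _ _).trans hfin.1, hfin.2.trans hC₀C⟩

/-- Existence of a global positive solution and uniqueness among all solutions. -/
theorem exists_unique_global (hWR : WeaklyReversible R) (hdim : Module.finrank ℝ (stoich R) = 2)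
    (hκ : ∀ r ∈ R, 0 < κ r) {x₀ : Fin d → ℝ} (hx₀ : ∀ i, 0 < x₀ i) :
    ∃ x : ℝ → Fin d → ℝ, x 0 = x₀ ∧ (∀ T, IsPosSolution R (fun _ => κ) T x) ∧
      ∀ T (y : ℝ → Fin d → ℝ), IsSolution R κ T y → y 0 = x₀ → ∀ t ∈ Ico 0 T, y t = x t := by
  obtain ⟨δ, C, hδ, hδC, hx₀box, hbox⟩ := exists_box hWR hdim hκ hx₀
  obtain ⟨F, K, L, hF, hFb, hFf⟩ := exists_truncated (massAction R κ) (contDiff_massAction R κ)
    (a := δ / 2) (b := C + 1) (by linarith)
  obtain ⟨x, hx0, hxc, hxd⟩ := exists_global_solution F K L hF hFb x₀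
  have hxcI : ∀ T, ContinuousOn x (Ico 0 T) := fun T => hxc.mono (fun s hs => hs.1)
  have hxbox : ∀ t, 0 ≤ t → ∀ i, δ ≤ x t i ∧ x t i ≤ C := fun t ht i =>
    hbox (t + 1) F x hFf hx0 (hxcI _) (fun s hs => hxd s hs.1) t ⟨ht, by linarith⟩ i
  have hFx : ∀ t, 0 ≤ t → F (x t) = massAction R κ (x t) := fun t ht =>
    hFf _ (fun i => ⟨by linarith [(hxbox t ht i).1], by linarith [(hxbox t ht i).2]⟩)
  refine ⟨x, hx0, ?_, ?_⟩
  · intro T
    refine ⟨fun t ht i => lt_of_lt_of_le hδ (hxbox t ht.1 i).1, hxcI T, fun t ht => ?_⟩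
    rw [← hFx t ht.1.le]
    exact hxd t ht.1
  · intro T y hy hy0 t₁ ht₁
    have hybox := hbox T (massAction R κ) y (fun _ _ => rfl) hy0 hy.cont hy.deriv
    have hFy : ∀ t ∈ Ico 0 T, F (y t) = massAction R κ (y t) := fun t ht =>
      hFf _ (fun i => ⟨by linarith [(hybox t ht i).1], by linarith [(hybox t ht i).2]⟩)
    have hyd : ∀ t ∈ Ioo 0 T, HasDerivAt y (F (y t)) t := fun t ht => by
      rw [hFy t ⟨ht.1.le, ht.2⟩]
      exact hy.deriv t ht
    rcases eq_or_lt_of_le ht₁.1 with h | h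
    · rw [← h, hy0, hx0]
    have hT : 0 < T := lt_trans h ht₁.2
    have hsub : Icc 0 t₁ ⊆ Ico 0 T := fun s hs => ⟨hs.1, lt_of_le_of_lt hs.2 ht₁.2⟩
    have hxd0 : HasDerivWithinAt x (F (x 0)) (Ici 0) 0 :=
      hasDerivWithinAt_zero hF.continuous (T := 1) one_pos (hxcI 1) (fun t ht => hxd t ht.1)
    have hyd0 : HasDerivWithinAt y (F (y 0)) (Ici 0) 0 :=
      hasDerivWithinAt_zero hF.continuous hT hy.cont hyd
    have huniq := ODE_solution_unique (v := fun _ => F) (f := y) (g := x) (a := 0) (b := t₁) (K := K)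
      (fun _ => hF) (hy.cont.mono hsub) ?_ ((hxcI T).mono hsub) ?_ (by rw [hy0, hx0])
    · exact huniq ⟨h.le, le_refl _⟩
    · intro t ht
      rcases eq_or_lt_of_le ht.1 with h' | h'
      · rw [← h']; exact hyd0
      · exact (hyd t ⟨h', lt_trans ht.2 ht₁.2⟩).hasDerivWithinAt
    · intro t ht
      rcases eq_or_lt_of_le ht.1 with h' | h'
      · rw [← h']; exact hxd0
      · exact (hxd t h').hasDerivWithinAt

/-- Permanence on each positive stoichiometric class, dimension two. -/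
theorem compact_absorbing (hWR : WeaklyReversible R) (hdim : Module.finrank ℝ (stoich R) = 2)
    (hκ : ∀ r ∈ R, 0 < κ r) {c₀ : Fin d → ℝ} (hc₀ : ∀ i, 0 < c₀ i) :
    ∃ K : Set (Fin d → ℝ), IsCompact K ∧ (∀ y ∈ K, (∀ i, 0 < y i) ∧ (fun i => y i - c₀ i) ∈ stoich R) ∧
      ∀ x : ℝ → Fin d → ℝ, (∀ T, IsSolution R κ T x) → (∀ i, 0 < x 0 i) →
        (fun i => x 0 i - c₀ i) ∈ stoich R → ∃ t₁ : ℝ, ∀ t, t₁ ≤ t → x t ∈ K := by
  classical
  obtain ⟨ε, hε, hε1, hεκ⟩ := exists_eps R κ hκ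
  obtain ⟨δ₀, C₀, hδ₀, habs⟩ := absorbing (ε := ε) hWR hdim hε hc₀
  have hk : ∀ (t : ℝ) (r : Cx d × Cx d), ε ≤ (fun _ => extRate R κ) t r ∧
      (fun _ => extRate R κ) t r ≤ ε⁻¹ := by
    intro _ r
    by_cases hr : r ∈ R
    · simpa [extRate, hr] using hεκ r hr
    · simp only [extRate, hr, if_false]
      exact ⟨hε1, (one_le_inv₀ hε).mpr hε1⟩
  let K : Set (Fin d → ℝ) := Icc (fun _ => δ₀) (fun _ => C₀) ∩ {y | (fun i => y i - c₀ i) ∈ stoich R}
  have hclosedS : IsClosed {y : Fin d → ℝ | (fun i => y i - c₀ i) ∈ stoich R} := by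
    have h1 : IsClosed ((stoich R : Submodule ℝ (Fin d → ℝ)) : Set (Fin d → ℝ)) :=
      Submodule.closed_of_finiteDimensional _
    have h2 : Continuous (fun y : Fin d → ℝ => (fun i => y i - c₀ i)) := by fun_prop
    exact h1.preimage h2
  refine ⟨K, isCompact_Icc.inter_right hclosedS, ?_, ?_⟩
  · intro y hy
    exact ⟨fun i => lt_of_lt_of_le hδ₀ (hy.1.1 i), hy.2⟩
  · intro x hx hx0 hcl
    obtain ⟨δ, C, hδ, -, -, hbox⟩ := exists_box hWR hdim hκ hx0
    have hxbox : ∀ t, 0 ≤ t → ∀ i, δ ≤ x t i ∧ x t i ≤ C := fun t ht i =>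
      hbox (t + 1) (massAction R κ) x (fun _ _ => rfl) rfl (hx _).cont (hx _).deriv t
        ⟨ht, by linarith⟩ i
    have hpos : ∀ T, IsPosSolution R (fun _ => extRate R κ) T x := by
      intro T
      refine ⟨fun t ht i => lt_of_lt_of_le hδ (hxbox t ht.1 i).1, (hx T).cont, fun t ht => ?_⟩
      rw [massAction_extRate]
      exact (hx T).deriv t ht
    obtain ⟨t₁, ht₁⟩ := habs _ x hk hpos hcl
    refine ⟨max t₁ 0, fun t ht => ⟨⟨fun i => (ht₁ t ((le_max_left _ _).trans ht) i).1,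
      fun i => (ht₁ t ((le_max_left _ _).trans ht) i).2⟩, ?_⟩⟩
    have ht0 : 0 ≤ t := (le_max_right _ _).trans ht
    have h1 := solution_mem_stoich (hpos (t + 1)) (t := t) ⟨ht0, by linarith⟩
    have h2 : (fun i => x t i - c₀ i) = (fun i => x t i - x 0 i) + (fun i => x 0 i - c₀ i) := by
      funext i; simp
    show (fun i => x t i - c₀ i) ∈ stoich R
    rw [h2]
    exact (stoich R).add_mem h1 hcl

end Vale.Agent.Lib.P072
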